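import Crest.Agent.R54.Basic

/-!
# Row 54: labels invariant under paths of length `l`, on a long cycle

Throughout, `lab` takes equal values at the two ends of every path of length `l` inside `T`, and
`v` is a cycle in `T` of length `L ≥ l + 1`.
-/

namespace Crest.Agent.R54

open Finset

variable {V β : Type*} {G : SimpleGraph V} {T : Finset V} {lab : V → β} {l L : ℕ} {v : ℤ → V}

/-- the invariance hypothesis. -/
def LInv (G : SimpleGraph V) (T : Finset V) (lab : V → β) (l : ℕ) : Prop :=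
  ∀ p, IsPath G p l → (∀ i, i ≤ l → p i ∈ T) → lab (p 0) = lab (p l)

/-- paths given by index functions: steps along the cycle or along the chord `v 0 — v j`. -/
theorem ab1_idx (hI : LInv G T lab l) (hv : ZCyc G v L) (hT : ∀ i, v i ∈ T) {j : ℤ}
    (hadj : G.Adj (v 0) (v j)) (f : ℕ → ℤ) (a : ℤ)
    (hw : ∀ i, i ≤ l → a ≤ f i ∧ f i < a + L)
    (hinj : ∀ i k, i ≤ l → k ≤ l → f i = f k → i = k)
    (hs : ∀ i, i < l → f (i + 1) = f i + 1 ∨ f i = f (i + 1) + 1 ∨ (f i = 0 ∧ f (i + 1) = j) ∨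
      (f i = j ∧ f (i + 1) = 0)) : lab (v (f 0)) = lab (v (f l)) := by
  refine hI (fun i => v (f i)) ⟨fun i hi => ?_, fun i k hi hk h => ?_⟩ (fun i _ => hT _)
  · rcases hs i hi with h | h | ⟨h1, h2⟩ | ⟨h1, h2⟩
    · show G.Adj (v (f i)) (v (f (i + 1)))
      rw [h]; exact hv.adj _
    · show G.Adj (v (f i)) (v (f (i + 1)))
      rw [h]; exact (hv.adj _).symm
    · show G.Adj (v (f i)) (v (f (i + 1)))
      rw [h1, h2]; exact hadj
    · show G.Adj (v (f i)) (v (f (i + 1)))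
      rw [h1, h2]; exact hadj.symm
  · have h1 := hw i hi
    have h2 := hw k hk
    exact hinj i k hi hk (hv.eq_of_abs_lt h (by omega) (by omega))

/-- periodicity along the cycle (`ZCyc.isPath`). -/
theorem ab_per (hI : LInv G T lab l) (hv : ZCyc G v L) (hT : ∀ i, v i ∈ T) (hL : l + 1 ≤ L)
    (i : ℤ) : lab (v (i + l)) = lab (v i) := by
  have h := hI _ (hv.isPath i hL) (fun k _ => hT _)
  simpa using h.symm

theorem ab1_out (hI : LInv G T lab l) (hv : ZCyc G v L) (hT : ∀ i, v i ∈ T) (hl : 1 ≤ l)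
    (hL : l + 1 ≤ L) {y : V} (hy : y ∈ T) (hyv : ∀ i, v i ≠ y) (hadj : G.Adj y (v 0)) :
    lab y = lab (v (-1)) := by
  obtain ⟨m, rfl⟩ : ∃ m, l = m + 1 := ⟨l - 1, by omega⟩
  have hp := (hv.isPath 0 (n := m) (by omega)).cons (x := y) (by simpa using hadj)
    (fun k _ => (hyv _).symm)
  have h := hI _ hp (fun k _ => by
    split_ifs
    · exact hy
    · exact hT _)
  have h2 := ab_per hI hv hT hL (-1)
  simp only [if_true, Nat.succ_ne_zero, if_false, Nat.add_sub_cancel, zero_add] at h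
  rw [h, ← h2]
  congr 2
  push_cast
  ring

/-- a neighbour `y ∉ cycle` of `v 0`: the paths `y, v 0, v 1, …, v (l-1)` and
`y, v 0, v (-1), …, v (1-l)` give `lab y = lab (v (-1))` and `lab y = lab (v 1)`. -/
theorem ab_out (hI : LInv G T lab l) (hv : ZCyc G v L) (hT : ∀ i, v i ∈ T) (hl : 1 ≤ l)
    (hL : l + 1 ≤ L) {y : V} (hy : y ∈ T) (hyv : ∀ i, v i ≠ y) (hadj : G.Adj y (v 0)) :
    lab y = lab (v 1) ∧ lab y = lab (v (-1)) := by
  refine ⟨?_, ab1_out hI hv hT hl hL hy hyv hadj⟩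
  have h := ab1_out (v := fun i => v (-i)) hI hv.neg (fun i => hT _) hl hL hy (fun i => hyv _)
    (by simpa using hadj)
  simpa using h

/-- chord `v 0 — v j`, `2 ≤ j ≤ L - 2`, facts (a), (b): `lab (v j) = lab (v 1)` if `j ≤ l`
(path `v 1, …, v j, v 0, v (-1), …, v (j - l)`, then `ab_per`) or if `l ≤ L - j`
(path `v j, v 0, v (-1), …, v (1 - l)`). -/
theorem ab_chord1 (hI : LInv G T lab l) (hv : ZCyc G v L) (hT : ∀ i, v i ∈ T) (hl : 1 ≤ l)
    (hL : l + 1 ≤ L) {j : ℕ} (h2 : 2 ≤ j) (hj : j + 2 ≤ L) (hadj : G.Adj (v 0) (v j))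
    (h : j ≤ l ∨ l + j ≤ L) : lab (v j) = lab (v 1) := by
  rcases h with h | h
  · have h1 := ab1_idx hI hv hT hadj (fun i => if i < j then (i : ℤ) + 1 else (j : ℤ) - i)
      ((j : ℤ) - l) (fun i hi => by split_ifs <;> omega)
      (fun i k hi hk => by split_ifs <;> omega)
      (fun i hi => by split_ifs <;> omega)
    have h3 := ab_per hI hv hT hL ((j : ℤ) - l)
    simp only [show 0 < j by omega, if_true, show ¬ l < j by omega, if_false, Nat.cast_zero,
      zero_add] at h1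
    rw [sub_add_cancel] at h3
    rw [h3, h1]
  · have h1 := ab1_idx hI hv hT hadj (fun i => if i < 1 then (j : ℤ) else 1 - (i : ℤ))
      (1 - (l : ℤ)) (fun i hi => by split_ifs <;> omega)
      (fun i k hi hk => by split_ifs <;> omega)
      (fun i hi => by split_ifs <;> omega)
    have h3 := ab_per hI hv hT hL (1 - (l : ℤ))
    simp only [show 0 < 1 by omega, if_true, show ¬ l < 1 by omega, if_false] at h1
    rw [sub_add_cancel] at h3
    rw [h3, h1]

/-- chord, fact (c): if `2 ≤ l`, `j ≤ l + 1` and `j + l ≤ L` then `lab (v 1) = lab (v (-1))`, both being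
`lab (v (j-2))`: paths `v (j-2), …, v 0, v j, …, v (l+1)` and `v (-1), v 0, v j, …, v (j+l-2)`. -/
theorem ab_chord2 (hI : LInv G T lab l) (hv : ZCyc G v L) (hT : ∀ i, v i ∈ T) (hl : 2 ≤ l)
    (hL : l + 1 ≤ L) {j : ℕ} (h2 : 2 ≤ j) (hjl : j ≤ l + 1) (hj : j + l ≤ L)
    (hadj : G.Adj (v 0) (v j)) : lab (v 1) = lab (v (-1)) := by
  have h1 := ab1_idx hI hv hT hadj (fun i => if i + 2 ≤ j then (j : ℤ) - 2 - i else (i : ℤ) + 1)
    0 (fun i hi => by split_ifs <;> omega)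
    (fun i k hi hk => by split_ifs <;> omega)
    (fun i hi => by split_ifs <;> omega)
  have h3 := ab1_idx hI hv hT hadj (fun i => if i < 2 then (i : ℤ) - 1 else (j : ℤ) - 2 + i)
    (-1) (fun i hi => by split_ifs <;> omega)
    (fun i k hi hk => by split_ifs <;> omega)
    (fun i hi => by split_ifs <;> omega)
  have h4 := ab_per hI hv hT hL 1
  have h5 := ab_per hI hv hT hL ((j : ℤ) - 2)
  simp only [show 0 + 2 ≤ j by omega, if_true, show ¬ l + 2 ≤ j by omega, if_false, Nat.cast_zero,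
    sub_zero] at h1
  simp only [show 0 < 2 by omega, if_true, show ¬ l < 2 by omega, if_false, Nat.cast_zero,
    zero_sub] at h3
  rw [add_comm] at h4
  rw [← h4, ← h1, ← h5, ← h3]

theorem ab1_neg_idx (hv : ZCyc G v L) {j : ℕ} (hj : j ≤ L) : v (-((L - j : ℕ) : ℤ)) = v j := by
  rw [← hv.per]
  congr 1
  omega

theorem ab1_chord1' (hI : LInv G T lab l) (hv : ZCyc G v L) (hT : ∀ i, v i ∈ T) (hl : 1 ≤ l)
    (hL : l + 1 ≤ L) {j : ℕ} (h2 : 2 ≤ j) (hj : j + 2 ≤ L) (hadj : G.Adj (v 0) (v j))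
    (h : L ≤ j + l ∨ l ≤ j) : lab (v j) = lab (v (-1)) := by
  have e := ab1_neg_idx hv (j := j) (by omega)
  have h1 := ab_chord1 (v := fun i => v (-i)) hI hv.neg (fun i => hT _) hl hL (j := L - j)
    (by omega) (by omega) (by simpa only [neg_zero, e] using hadj) (by omega)
  simpa only [e] using h1

theorem ab1_chord2' (hI : LInv G T lab l) (hv : ZCyc G v L) (hT : ∀ i, v i ∈ T) (hl : 2 ≤ l)
    (hL : l + 1 ≤ L) {j : ℕ} (hj : j + 2 ≤ L) (hjl : L ≤ j + l + 1) (hlj : l ≤ j)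
    (hadj : G.Adj (v 0) (v j)) : lab (v 1) = lab (v (-1)) := by
  have e := ab1_neg_idx hv (j := j) (by omega)
  have h1 := ab_chord2 (v := fun i => v (-i)) hI hv.neg (fun i => hT _) hl hL (j := L - j)
    (by omega) (by omega) (by omega) (by simpa only [neg_zero, e] using hadj)
  simpa only [neg_neg] using h1.symm

/-- a neighbour of `v 0` on the cycle is `v 1`, `v (-1)` or the end of a chord. -/
theorem ab1_nbr (hv : ZCyc G v L) {i : ℤ} (hadj : G.Adj (v 0) (v i)) :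
    v i = v 1 ∨ v i = v (-1) ∨ ∃ j : ℕ, 2 ≤ j ∧ j + 2 ≤ L ∧ v j = v i := by
  obtain ⟨j, h0, h1, h2⟩ := hv.exists_window 0 i
  obtain ⟨j, rfl⟩ := Int.eq_ofNat_of_zero_le h0
  by_cases hj0 : j = 0
  · subst hj0
    rw [← h2] at hadj
    exact absurd hadj (by simp)
  by_cases hj1 : j = 1
  · subst hj1
    left
    simpa using h2.symm
  by_cases hj2 : j + 1 = L
  · right; left
    rw [← h2, ← hv.per (-1)]
    congr 1
    omega
  · exact Or.inr (Or.inr ⟨j, by omega, by omega, h2⟩)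

theorem ab1_core (hI : LInv G T lab l) (hv : ZCyc G v L) (hT : ∀ i, v i ∈ T) (hl : 1 ≤ l)
    (hL : l + 1 ≤ L) (hδ : l ≤ 2 ∨ ∀ x ∈ T, 3 ≤ (nb G T x).card) :
    lab (v 1) = lab (v (-1)) := by
  classical
  by_cases h1 : l = 1
  · subst h1
    have a := ab_per hI hv hT hL 0
    have b := ab_per hI hv hT hL (-1)
    simp only [Nat.cast_one, zero_add, neg_add_cancel] at a b
    rw [a, b]
  by_cases h2 : l = 2
  · subst h2
    have b := ab_per hI hv hT hL (-1)
    simpa using b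
  have hd := (hδ.resolve_left (by omega)) (v 0) (hT 0)
  obtain ⟨y, hy, hy'⟩ : ∃ y ∈ nb G T (v 0), y ∉ ({v 1, v (-1)} : Finset V) := by
    by_contra hc
    push Not at hc
    have := (card_le_card (show nb G T (v 0) ⊆ {v 1, v (-1)} from hc)).trans card_le_two
    omega
  rw [mem_nb] at hy
  simp only [mem_insert, mem_singleton, not_or] at hy'
  by_cases hc : ∀ i, v i ≠ y
  · have := ab_out hI hv hT hl hL hy.1 hc hy.2.symm
    rw [← this.1, this.2]
  push Not at hc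
  obtain ⟨i, rfl⟩ := hc
  rcases ab1_nbr hv hy.2 with h | h | ⟨j, hj2, hjL, e⟩
  · exact absurd h hy'.1
  · exact absurd h hy'.2
  have hadj : G.Adj (v 0) (v j) := e ▸ hy.2
  by_cases c1 : j + l ≤ L
  · by_cases c2 : j ≤ l + 1
    · exact ab_chord2 hI hv hT (by omega) hL hj2 c2 c1 hadj
    · rw [← ab_chord1 hI hv hT hl hL hj2 hjL hadj (by omega),
        ab1_chord1' hI hv hT hl hL hj2 hjL hadj (by omega)]
  · by_cases c2 : l ≤ j
    · exact ab1_chord2' hI hv hT (by omega) hL hjL (by omega) c2 hadj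
    · rw [← ab_chord1 hI hv hT hl hL hj2 hjL hadj (by omega),
        ab1_chord1' hI hv hT hl hL hj2 hjL hadj (by omega)]

/-- **Labels are 2-periodic on the cycle.**  WLOG `i = 0` (`ZCyc.shift`).  `l = 1`: all labels agree by
`ab_per`; `l = 2`: `ab_per`.  Otherwise `v 0` has a third neighbour `y ∉ {v 1, v (-1)}` in `T`.  If `y` is off
the cycle use `ab_out`.  Otherwise `y = v j`, `2 ≤ j ≤ L - 2` (`ZCyc.exists_window`).  The mirror image
(`ZCyc.neg`, `j ↦ L - j`, using `per`) of `ab_chord1` gives `lab (v j) = lab (v (-1))` if `L - j ≤ l` or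
`l ≤ j`.  Cases: `j + l ≤ L ∧ j ≤ l + 1`: `ab_chord2`;  `j + l ≤ L ∧ l ≤ j`: `ab_chord1` and mirror;
`l ≤ j` otherwise: the mirror image of the previous two cases;  `L < j + l ∧ j < l`: `ab_chord1` and
mirror. -/
theorem ab_two (hI : LInv G T lab l) (hv : ZCyc G v L) (hT : ∀ i, v i ∈ T) (hl : 1 ≤ l)
    (hL : l + 1 ≤ L) (hδ : l ≤ 2 ∨ ∀ x ∈ T, 3 ≤ (nb G T x).card) (i : ℤ) :
    lab (v (i + 2)) = lab (v i) := by
  have h := ab1_core hI (hv.shift (i + 1)) (fun _ => hT _) hl hL hδ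
  have e1 : i + 1 + 1 = i + 2 := by ring
  have e2 : i + 1 + -1 = i := by ring
  simpa only [e1, e2] using h

theorem ab1_edge (hI : LInv G T lab l) (hv : ZCyc G v L) (hT : ∀ i, v i ∈ T) (hl : 1 ≤ l)
    (hL : l + 1 ≤ L) (hδ : l ≤ 2 ∨ ∀ x ∈ T, 3 ≤ (nb G T x).card) {i : ℤ}
    (hadj : G.Adj (v 0) (v i)) : lab (v i) = lab (v 1) := by
  have hc := ab1_core hI hv hT hl hL hδ
  rcases ab1_nbr hv hadj with h | h | ⟨j, hj2, hjL, e⟩
  · rw [h]
  · rw [h, hc]
  have hadj' : G.Adj (v 0) (v j) := e ▸ hadj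
  rw [← e]
  by_cases c : j ≤ l
  · exact ab_chord1 hI hv hT hl hL hj2 hjL hadj' (Or.inl c)
  · rw [hc]
    exact ab1_chord1' hI hv hT hl hL hj2 hjL hadj' (by omega)

/-- every edge between two vertices of the cycle: WLOG `i = 0`, `0 < j < L`; `j = 1`, `j = L - 1`
are trivial (with `ab_two`), chords by `ab_chord1`, its mirror, and `ab_two`. -/
theorem ab_edge (hI : LInv G T lab l) (hv : ZCyc G v L) (hT : ∀ i, v i ∈ T) (hl : 1 ≤ l)
    (hL : l + 1 ≤ L) (hδ : l ≤ 2 ∨ ∀ x ∈ T, 3 ≤ (nb G T x).card) {i j : ℤ}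
    (hadj : G.Adj (v i) (v j)) : lab (v j) = lab (v (i + 1)) := by
  have e : i + (j - i) = j := by ring
  have h := ab1_edge hI (hv.shift i) (fun _ => hT _) hl hL hδ (i := j - i)
    (by simpa only [add_zero, e] using hadj)
  simpa only [e] using h

end Crest.Agent.R54
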