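import Crest.Agent.R54.AB1

/-!
# Row 54: labels invariant under paths of length `l`, on the whole connected set
-/

namespace Crest.Agent.R54

open Finset

variable {V β : Type*} {G : SimpleGraph V} {T : Finset V} {lab : V → β} {l L : ℕ} {v : ℤ → V}

private theorem ab2_even (hI : LInv G T lab l) (hv : ZCyc G v L) (hT : ∀ i, v i ∈ T) (hl : 1 ≤ l)
    (hL : l + 1 ≤ L) (hδ : l ≤ 2 ∨ ∀ x ∈ T, 3 ≤ (nb G T x).card) (i n : ℤ) :
    lab (v (i + 2 * n)) = lab (v i) := by
  induction n using Int.induction_on with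
  | zero => simp
  | succ n ih =>
    rw [← ih, ← ab_two hI hv hT hl hL hδ (i + 2 * n)]
    congr 2; ring
  | pred n ih =>
    rw [← ih, ← ab_two hI hv hT hl hL hδ (i + 2 * (-(n : ℤ) - 1))]
    congr 2; ring

/-- A path `p` in `T` of length `t` meeting the cycle only in its last vertex `p t = v i` has
`lab (p 0) = lab (v (i + t))`.  Strong induction on `t`: if `t ≤ l` continue along the cycle for `l - t`
steps, `lab (p 0) = lab (v (i + l - t)) = lab (v (i - t)) = lab (v (i + t))` (`ab_per`, `ab_two`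
iterated); if `t > l`, `lab (p 0) = lab (p l)` and apply the hypothesis to `IsPath.drop`. -/
theorem ab_toCycle (hI : LInv G T lab l) (hv : ZCyc G v L) (hT : ∀ i, v i ∈ T) (hl : 1 ≤ l)
    (hL : l + 1 ≤ L) (hδ : l ≤ 2 ∨ ∀ x ∈ T, 3 ≤ (nb G T x).card) {p : ℕ → V} {t : ℕ} {i : ℤ}
    (hp : IsPath G p t) (hpT : ∀ s, s ≤ t → p s ∈ T) (hpt : p t = v i)
    (hoff : ∀ s, s < t → ∀ j, p s ≠ v j) : lab (p 0) = lab (v (i + t)) := by
  induction t using Nat.strong_induction_on generalizing p with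
  | _ t ih =>
    by_cases htl : t ≤ l
    · have hq := hv.isPath i (n := l - t) (by omega)
      have hr := hp.append hq (by simpa using hpt) (fun a j ha hj hj' => by
        rcases ha.lt_or_eq with h | rfl
        · exact hoff a h _
        · rw [hpt]
          intro e
          have := hv.eq_of_abs_lt e (by omega) (by omega)
          omega)
      rw [show t + (l - t) = l by omega] at hr
      have h1 := hI _ hr (fun s hs => by
        split_ifs with h
        · exact hpT s h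
        · exact hT _)
      rw [if_pos (Nat.zero_le t)] at h1
      have h2 : (if l ≤ t then p l else v (i + ((l - t : ℕ) : ℤ))) = v (i - t + l) := by
        split_ifs with h
        · obtain rfl : l = t := by omega
          rw [hpt]; congr 1; ring
        · congr 1; omega
      rw [h1, h2, ab_per hI hv hT hL, ← ab2_even hI hv hT hl hL hδ (i - t) t]
      congr 2; ring
    · have h1 := hI _ (hp.take (m := l) (by omega)) fun s hs => hpT s (by omega)
      have h2 := ih (t - l) (by omega) (hp.drop (a := l) (by omega))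
        (fun s hs => hpT _ (by omega))
        (by rw [show l + (t - l) = t by omega, hpt])
        (fun s hs j => hoff _ (by omega) j)
      rw [add_zero] at h2
      rw [h1, h2, ← ab_per hI hv hT hL]
      congr 2; omega

/-- `x` has a path of length `t` to the cycle, ending in `v i` -/
private def TC (G : SimpleGraph V) (T : Finset V) (v : ℤ → V) (x : V) (t : ℕ) (i : ℤ) : Prop :=
  ∃ p, IsPath G p t ∧ p 0 = x ∧ (∀ s, s ≤ t → p s ∈ T) ∧ p t = v i ∧ ∀ s, s < t → ∀ j, p s ≠ v j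

private theorem tc_zero (hT : ∀ i, v i ∈ T) (i : ℤ) : TC G T v (v i) 0 i :=
  ⟨fun _ => v i, isPath_zero _, rfl, fun _ _ => hT i, rfl, fun s hs => by omega⟩

private theorem tc_cons {p : ℕ → V} {t : ℕ} {i : ℤ} {y : V} (hp : IsPath G p t)
    (hpT : ∀ s, s ≤ t → p s ∈ T) (hpt : p t = v i) (hoff : ∀ s, s < t → ∀ j, p s ≠ v j)
    (hy : y ∈ T) (hadj : G.Adj y (p 0)) (hyp : ∀ s, s ≤ t → y ≠ p s) (hyv : ∀ j, y ≠ v j) :
    TC G T v y (t + 1) i := by
  refine ⟨_, hp.cons hadj hyp, by simp, fun s hs => ?_, by simpa using hpt, fun s hs j => ?_⟩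
  · split_ifs with h
    · exact hy
    · exact hpT _ (by omega)
  · split_ifs with h
    · exact hyv j
    · exact hoff _ (by omega) j

private theorem tc_step {x y : V} {t : ℕ} {i : ℤ} (h : TC G T v x t i) (hy : y ∈ T)
    (hadj : G.Adj x y) : (∃ j, y = v j) ∨
      ∃ t', (TC G T v y (t' + 1) i ∧ TC G T v x t' i) ∨ (TC G T v y t' i ∧ TC G T v x (t' + 1) i) := by
  by_cases hyv : ∃ j, y = v j
  · exact Or.inl hyv
  refine Or.inr ?_
  push Not at hyv
  obtain ⟨p, hp, rfl, hpT, hpt, hoff⟩ := id h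
  by_cases hyp : ∃ s, s ≤ t ∧ y = p s
  · obtain ⟨s, hs, rfl⟩ := hyp
    have hs0 : 0 < s := by
      rcases Nat.eq_zero_or_pos s with rfl | h0
      · exact absurd rfl hadj.ne
      · exact h0
    have h1 := hp.drop hs
    have h2 : ∀ a, a ≤ t - s → p (s + a) ∈ T := fun a ha => hpT _ (by omega)
    have h3 : p (s + (t - s)) = v i := by rw [show s + (t - s) = t by omega, hpt]
    have h4 : ∀ a, a < t - s → ∀ j, p (s + a) ≠ v j := fun a ha j => hoff _ (by omega) j
    refine ⟨t - s, Or.inr ⟨⟨_, h1, rfl, h2, h3, h4⟩,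
      tc_cons h1 h2 h3 h4 (hpT 0 (Nat.zero_le t)) hadj (fun a ha e => ?_) (hoff 0 (by omega))⟩⟩
    have := hp.2 0 (s + a) (by omega) (by omega) e
    omega
  · push Not at hyp
    exact ⟨t, Or.inl ⟨tc_cons hp hpT hpt hoff hy hadj.symm hyp hyv, h⟩⟩

/-- every vertex of the connected set `T` has such a path (apply `Conn` to the set of vertices that
have one; extend with `IsPath.cons`, or cut with `IsPath.drop` if the new vertex is on the path). -/
theorem exists_toCycle (hc : Conn G T) (hT : ∀ i, v i ∈ T) {x : V} (hx : x ∈ T) :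
    ∃ p t i, IsPath G p t ∧ p 0 = x ∧ (∀ s, s ≤ t → p s ∈ T) ∧ p t = v i ∧
      ∀ s, s < t → ∀ j, p s ≠ v j := by
  classical
  let A : Finset V := T.filter fun x => ∃ t i, TC G T v x t i
  suffices h : A = T by
    have hx' : x ∈ A := h ▸ hx
    obtain ⟨t, i, p, h1⟩ := (mem_filter.1 hx').2
    exact ⟨p, t, i, h1⟩
  by_contra hne
  obtain ⟨a, ha, y, hy, hyA, hadj⟩ := hc A (filter_subset _ _)
    ⟨v 0, mem_filter.2 ⟨hT 0, 0, 0, tc_zero hT 0⟩⟩ hne
  obtain ⟨t, i, h1⟩ := (mem_filter.1 ha).2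
  refine hyA (mem_filter.2 ⟨hy, ?_⟩)
  rcases tc_step h1 hy hadj with ⟨j, rfl⟩ | ⟨t', ⟨h2, -⟩ | ⟨h2, -⟩⟩
  · exact ⟨0, j, tc_zero hT j⟩
  · exact ⟨_, _, h2⟩
  · exact ⟨_, _, h2⟩

/-- **AB lemma.**  `a = lab (v 0)`, `b = lab (v 1)`; `lab (v n)` is `a` for even and `b` for odd `n`.
For an edge `x y` of `T`: both ends on the cycle: `ab_edge`.  Otherwise say `x` is off the cycle, with a
path `p` from `exists_toCycle`.  If `y` is on the cycle use the path `x, y` (length 1); if `y = p s` is on `p`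
use `drop s` for `y` and `cons x` of it for `x`; otherwise use `p` for `x` and `cons y p` for `y`.  In each case
`lab x = lab (v (n + 1))`, `lab y = lab (v n)` or vice versa. -/
theorem ab (hI : LInv G T lab l) (hC : CycIn G T L) (hl : 1 ≤ l) (hL : l + 1 ≤ L)
    (hδ : l ≤ 2 ∨ ∀ x ∈ T, 3 ≤ (nb G T x).card) (hc : Conn G T) :
    ∃ a b, ∀ x ∈ T, ∀ y ∈ T, G.Adj x y → (lab x = a ∧ lab y = b) ∨ (lab x = b ∧ lab y = a) := by
  obtain ⟨v, hv, hT⟩ := hC.zcyc
  have hlab : ∀ {x t i}, TC G T v x t i → lab x = lab (v (i + t)) := by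
    rintro x t i ⟨p, hp, rfl, hpT, hpt, hoff⟩
    exact ab_toCycle hI hv hT hl hL hδ hp hpT hpt hoff
  have key : ∀ x ∈ T, ∀ y ∈ T, G.Adj x y → ∃ n : ℤ,
      (lab x = lab (v n) ∧ lab y = lab (v (n + 1))) ∨
        (lab x = lab (v (n + 1)) ∧ lab y = lab (v n)) := by
    intro x hx y hy hadj
    obtain ⟨p, t, i, h0⟩ := exists_toCycle hc hT hx
    rcases tc_step ⟨p, h0⟩ hy hadj with ⟨j, rfl⟩ | ⟨t', ⟨h2, h3⟩ | ⟨h2, h3⟩⟩
    · rcases tc_step (tc_zero hT j) hx hadj.symm with ⟨j', rfl⟩ | ⟨t', ⟨h2, h3⟩ | ⟨h2, h3⟩⟩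
      · exact ⟨j', Or.inl ⟨rfl, ab_edge hI hv hT hl hL hδ hadj⟩⟩
      · exact ⟨j + t', Or.inr ⟨by rw [hlab h2]; push_cast; rw [add_assoc], hlab h3⟩⟩
      · exact ⟨j + t', Or.inl ⟨hlab h2, by rw [hlab h3]; push_cast; rw [add_assoc]⟩⟩
    · exact ⟨i + t', Or.inl ⟨hlab h3, by rw [hlab h2]; push_cast; rw [add_assoc]⟩⟩
    · exact ⟨i + t', Or.inr ⟨by rw [hlab h3]; push_cast; rw [add_assoc], hlab h2⟩⟩
  refine ⟨lab (v 0), lab (v 1), fun x hx y hy hadj => ?_⟩
  obtain ⟨n, hn⟩ := key x hx y hy hadj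
  have E := ab2_even hI hv hT hl hL hδ
  rcases Int.even_or_odd' n with ⟨m, rfl | rfl⟩
  · have e0 : lab (v (2 * m)) = lab (v 0) := by simpa using E 0 m
    have e1 : lab (v (2 * m + 1)) = lab (v 1) := by rw [add_comm]; exact E 1 m
    rwa [e0, e1] at hn
  · have e0 : lab (v (2 * m + 1 + 1)) = lab (v 0) := by
      rw [← E 0 (m + 1)]; congr 2; ring
    have e1 : lab (v (2 * m + 1)) = lab (v 1) := by rw [add_comm]; exact E 1 m
    rw [e0, e1] at hn
    exact hn.symm

end Crest.Agent.R54
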