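import Crest.Agent.R54.Basic

/-!
# Row 54: the two Ore / Bondy–Chvátal exchange lemmas
-/

namespace Crest.Agent.R54

open Finset

variable {V : Type*} {G : SimpleGraph V}

open Classical in
theorem bc_card {p : ℕ → V} {N : ℕ} {S : Finset V}
    (hinj : ∀ i j, i ≤ N → j ≤ N → p i = p j → i = j) (hS : ∀ i, i ≤ N → p i ∈ S)
    (hc : S.card = N + 1) (v : V) :
    (nb G S v).card = ((range (N + 1)).filter fun i => G.Adj v (p i)).card := by
  have hinj' : Set.InjOn p (range (N + 1) : Finset ℕ) := fun i hi j hj h =>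
    hinj i j (by simpa [Nat.lt_succ_iff] using hi) (by simpa [Nat.lt_succ_iff] using hj) h
  have him : (range (N + 1)).image p = S := by
    refine eq_of_subset_of_card_le (fun x hx => ?_) ?_
    · obtain ⟨i, hi, rfl⟩ := mem_image.1 hx
      exact hS i (by simpa [Nat.lt_succ_iff] using hi)
    · rw [card_image_of_injOn hinj', card_range, hc]
  symm
  refine card_bij (fun i _ => p i) (fun i hi => ?_) (fun i hi j hj h => ?_) (fun x hx => ?_)
  · rw [mem_filter, mem_range] at hi
    exact mem_nb.2 ⟨hS i (by omega), hi.2⟩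
  · rw [mem_filter, mem_range] at hi hj
    exact hinj i j (by omega) (by omega) h
  · obtain ⟨hx1, hx2⟩ := mem_nb.1 hx
    rw [← him] at hx1
    obtain ⟨i, hi, rfl⟩ := mem_image.1 hx1
    exact ⟨i, mem_filter.2 ⟨hi, hx2⟩, rfl⟩

theorem bc_shift {A B T : Finset ℕ} (hA : ∀ i ∈ A, i + 1 ∈ T) (hB : ∀ i ∈ B, i ∈ T)
    (h : T.card < A.card + B.card) : ∃ i ∈ A, i + 1 ∈ B := by
  by_contra hne
  push Not at hne
  have hd : Disjoint (A.image (· + 1)) B := by
    rw [disjoint_left]
    intro x hx
    obtain ⟨i, hi, rfl⟩ := mem_image.1 hx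
    exact hne i hi
  have hsub : A.image (· + 1) ∪ B ⊆ T := by
    intro x hx
    rcases mem_union.1 hx with hx | hx
    · obtain ⟨i, hi, rfl⟩ := mem_image.1 hx
      exact hA i hi
    · exact hB x hx
  have := card_le_card hsub
  rw [card_union_of_disjoint hd, card_image_of_injective _ (add_left_injective 1)] at this
  omega

/-- reversal of the segment `p (u+1), …, p v` -/
theorem bc_rev {p : ℕ → V} {N u v : ℕ} {S : Finset V} (huv : u < v) (hv : v ≤ N)
    (hinj : ∀ i j, i ≤ N → j ≤ N → p i = p j → i = j)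
    (hadj : ∀ i, i < N → i ≠ u → i ≠ v → G.Adj (p i) (p (i + 1)))
    (h1 : G.Adj (p u) (p v)) (h2 : v < N → G.Adj (p (u + 1)) (p (v + 1)))
    (hS : ∀ i, i ≤ N → p i ∈ S) :
    ∃ q, IsPath G q N ∧ q 0 = p 0 ∧ (v < N → q N = p N) ∧ (v = N → q N = p (u + 1)) ∧
      ∀ i, i ≤ N → q i ∈ S := by
  let σ : ℕ → ℕ := fun j => if u < j ∧ j ≤ v then u + v + 1 - j else j
  have hσ : ∀ j, j ≤ N → σ j ≤ N := fun j hj => by
    simp only [σ]; split_ifs <;> omega
  have hin : ∀ j, u < j → j ≤ v → σ j = u + v + 1 - j := fun j h h' => if_pos ⟨h, h'⟩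
  have hout : ∀ j, (j ≤ u ∨ v < j) → σ j = j := fun j h => if_neg (by omega)
  refine ⟨fun j => p (σ j), ⟨fun i hi => ?_, fun i j hi hj h => ?_⟩, ?_, fun h => ?_, fun h => ?_,
    fun i hi => hS _ (hσ i hi)⟩
  · show G.Adj (p (σ i)) (p (σ (i + 1)))
    rcases lt_trichotomy i u with h | h | h
    · rw [hout i (by omega), hout (i + 1) (by omega)]
      exact hadj i hi (by omega) (by omega)
    · rw [hout i (by omega), hin (i + 1) (by omega) (by omega), h,
        show u + v + 1 - (u + 1) = v by omega]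
      exact h1
    rcases lt_trichotomy i v with h' | h' | h'
    · rw [hin i h h'.le, hin (i + 1) (by omega) (by omega),
        show u + v + 1 - i = u + v + 1 - (i + 1) + 1 by omega]
      exact (hadj _ (by omega) (by omega) (by omega)).symm
    · rw [hin i h h'.le, hout (i + 1) (by omega), h', show u + v + 1 - v = u + 1 by omega]
      exact h2 (by omega)
    · rw [hout i (by omega), hout (i + 1) (by omega)]
      exact hadj i hi (by omega) (by omega)
  · have := hinj _ _ (hσ i hi) (hσ j hj) h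
    simp only [σ] at this
    split_ifs at this <;> omega
  · show p (σ 0) = p 0
    rw [hout 0 (by omega)]
  · show p (σ N) = p N
    rw [hout N (by omega)]
  · show p (σ N) = p (u + 1)
    rw [hin N (by omega) (by omega), show u + v + 1 - N = u + 1 by omega]

/-- **Path version.**  `p 0, …, p N` enumerates `S` and consecutive vertices are adjacent except
possibly `a = p s`, `b = p (s+1)`.  If `deg a + deg b ≥ |S| + 1` there is a genuine Hamilton path of
`S` with the same ends.
Proof: if `a ~ b` take `p`.  Otherwise `A = {i ≤ N : a ~ p i}` and `B = {i < N : b ~ p (i+1)} ∪ …`: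
work with the index sets `IA = {i ≤ N | a ~ p i}` and `IB = {j ≤ N | b ~ p j}` (cardinalities = degrees,
`IsPath.surj`-type bijection) and shift: `IA + 1` and `IB` are subsets of `[0, N+1] \ {s+1}`
(`N + 1` elements), total size `≥ N + 2`, so some `i ∈ IA` has `i + 1 ∈ IB`; `i ≠ s`, `i < N`.
If `i < s` use `p 0 … p i, p s, p (s-1), …, p (i+1), p (s+1), …, p N`
(i.e. `j ↦ if i < j ∧ j ≤ s then p (s + i + 1 - j) else p j`); if `i > s` use
`p 0 … p s, p i, …, p (s+1), p (i+1), …` (`j ↦ if s < j ∧ j ≤ i then p (s + i + 1 - j) else p j`). -/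
theorem bc_path {p : ℕ → V} {N s : ℕ} {S : Finset V} (hs : s < N)
    (hinj : ∀ i j, i ≤ N → j ≤ N → p i = p j → i = j)
    (hadj : ∀ i, i < N → i ≠ s → G.Adj (p i) (p (i + 1)))
    (hS : ∀ i, i ≤ N → p i ∈ S) (hc : S.card = N + 1)
    (hdeg : N + 2 ≤ (nb G S (p s)).card + (nb G S (p (s + 1))).card) :
    ∃ q, IsPath G q N ∧ q 0 = p 0 ∧ q N = p N ∧ ∀ i, i ≤ N → q i ∈ S := by
  classical
  rw [bc_card hinj hS hc, bc_card hinj hS hc] at hdeg
  obtain ⟨i, hi, hi'⟩ := bc_shift (A := (range (N + 1)).filter fun i => G.Adj (p s) (p i))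
    (B := (range (N + 1)).filter fun i => G.Adj (p (s + 1)) (p i))
    (T := (range (N + 2)).erase (s + 1))
    (fun i hi => by
      rw [mem_filter, mem_range] at hi
      rw [mem_erase, mem_range]
      refine ⟨fun h => hi.2.ne ?_, by omega⟩
      rw [show i = s by omega])
    (fun i hi => by
      rw [mem_filter, mem_range] at hi
      rw [mem_erase, mem_range]
      exact ⟨fun h => hi.2.ne (by rw [h]), by omega⟩)
    (by rw [card_erase_of_mem (by rw [mem_range]; omega), card_range]; omega)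
  rw [mem_filter, mem_range] at hi hi'
  have his : i ≠ s := fun h => hi.2.ne (by rw [h])
  rcases lt_or_gt_of_ne his with h | h
  · obtain ⟨q, hq, h0, hN, -, hqS⟩ := bc_rev (u := i) (v := s) h hs.le hinj
      (fun j hj _ hjs => hadj j hj hjs) hi.2.symm (fun _ => hi'.2.symm) hS
    exact ⟨q, hq, h0, hN hs, hqS⟩
  · obtain ⟨q, hq, h0, hN, -, hqS⟩ := bc_rev (u := s) (v := i) h (by omega) hinj
      (fun j hj hjs _ => hadj j hj hjs) hi.2 (fun _ => hi'.2) hS
    exact ⟨q, hq, h0, hN (by omega), hqS⟩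

/-- **Cycle version (Ore).**  A Hamilton path of `S` whose ends have degree sum `≥ |S|` gives a
Hamilton cycle.  Proof: if `p 0 ~ p N` done.  Otherwise `{i : p N ~ p i} + 1` and `{j : p 0 ~ p j}`
lie in `[1, N]`, so there is `i` with `p N ~ p i`, `p 0 ~ p (i+1)`; use
`p 0 … p i, p N, p (N-1), …, p (i+1)`. -/
theorem bc_cyc {p : ℕ → V} {N : ℕ} {S : Finset V} (hN : 2 ≤ N) (hp : IsPath G p N)
    (hS : ∀ i, i ≤ N → p i ∈ S) (hc : S.card = N + 1)
    (hdeg : N + 1 ≤ (nb G S (p 0)).card + (nb G S (p N)).card) : CycIn G S (N + 1) := by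
  classical
  rw [bc_card hp.2 hS hc, bc_card hp.2 hS hc] at hdeg
  obtain ⟨i, hi, hi'⟩ := bc_shift (A := (range (N + 1)).filter fun i => G.Adj (p N) (p i))
    (B := (range (N + 1)).filter fun i => G.Adj (p 0) (p i))
    (T := (range (N + 1)).erase 0)
    (fun i hi => by
      rw [mem_filter, mem_range] at hi
      rw [mem_erase, mem_range]
      have : i ≠ N := fun h => hi.2.ne (by rw [h])
      omega)
    (fun i hi => by
      rw [mem_filter, mem_range] at hi
      rw [mem_erase, mem_range]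
      exact ⟨fun h => hi.2.ne (by rw [h]), hi.1⟩)
    (by rw [card_erase_of_mem (by rw [mem_range]; omega), card_range]; omega)
  rw [mem_filter, mem_range] at hi hi'
  obtain ⟨q, hq, h0, -, hN', hqS⟩ := bc_rev (u := i) (v := N) (by omega) le_rfl hp.2
    (fun j hj _ _ => hp.1 j hj) hi.2.symm (fun h => absurd h (lt_irrefl _)) hS
  refine ⟨q, by omega, hq, ?_, fun j hj => hqS j (by omega)⟩
  rw [Nat.add_sub_cancel, h0, hN' rfl]
  exact hi'.2.symm

end Crest.Agent.R54
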