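import Crest.Agent.R54.Basic

/-!
# Row 54: BFS balls, levels and the BFS tree
-/

namespace Crest.Agent.R54

open Finset

variable {V : Type*} [Fintype V] [DecidableEq V] {G : SimpleGraph V} {v : V}

theorem ball_mono {i j : ℕ} (h : i ≤ j) : ball G v i ⊆ ball G v j := by
  exact monotone_nat_of_le_succ (f := ball G v) (fun n x hx => mem_cnb.2 (Or.inl hx)) h

theorem level_subset (i : ℕ) : level G v i ⊆ ball G v i := by
  cases i with
  | zero => exact subset_rfl
  | succ i => exact sdiff_subset

theorem level_one : level G v 1 = nb G univ v := by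
  ext x
  simp only [level, ball, mem_sdiff, mem_cnb, mem_singleton, mem_nb, mem_univ, true_and,
    exists_eq_left]
  exact ⟨fun h => h.1.resolve_left h.2, fun h => ⟨Or.inr h, h.ne'⟩⟩

theorem card_ball_succ (i : ℕ) :
    (ball G v (i + 1)).card = (ball G v i).card + (level G v (i + 1)).card := by
  have := card_sdiff_add_card_eq_card (ball_mono (G := G) (v := v) (Nat.le_add_right i 1))
  simp only [level]
  omega

theorem BFS_not_mem {i j : ℕ} {x : V} (h : x ∈ level G v j) (hij : i < j) : x ∉ ball G v i := by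
  obtain ⟨j, rfl⟩ : ∃ k, j = k + 1 := ⟨j - 1, by omega⟩
  exact fun hx => (mem_sdiff.1 h).2 (ball_mono (by omega) hx)

/-- levels are pairwise disjoint. -/
theorem level_unique {i j : ℕ} {x : V} (hi : x ∈ level G v i) (hj : x ∈ level G v j) : i = j := by
  rcases lt_trichotomy i j with h | h | h
  · exact absurd (level_subset i hi) (BFS_not_mem hj h)
  · exact h
  · exact absurd (level_subset j hj) (BFS_not_mem hi h)

/-- no edges between `ball i` and `level (i + 2)`, and they are disjoint. -/
theorem level_far {i : ℕ} {x y : V} (hx : x ∈ ball G v i) (hy : y ∈ level G v (i + 2)) :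
    x ≠ y ∧ ¬ G.Adj x y := by
  refine ⟨fun e => BFS_not_mem hy (show i < i + 2 by omega) (e ▸ hx), fun h => ?_⟩
  exact BFS_not_mem hy (show i + 1 < i + 2 by omega) (mem_cnb.2 (Or.inr ⟨x, hx, h⟩))

theorem BFS_parent {i : ℕ} {x : V} (h : x ∈ level G v (i + 1)) :
    ∃ y ∈ level G v i, G.Adj x y := by
  obtain ⟨h1, h2⟩ := mem_sdiff.1 h
  obtain ⟨y, hy, hxy⟩ := (mem_cnb.1 h1).resolve_left h2
  refine ⟨y, ?_, hxy.symm⟩
  cases i with
  | zero => exact hy
  | succ i => exact mem_sdiff.2 ⟨hy, fun h3 => h2 (mem_cnb.2 (Or.inr ⟨y, h3, hxy⟩))⟩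

/-- a parent map: every vertex of level `i + 1` has a neighbour on level `i` (choose it; the level of a
vertex is unique). -/
theorem exists_parent : ∃ π : V → V, ∀ i, ∀ x ∈ level G v (i + 1), π x ∈ level G v i ∧ G.Adj x (π x) := by
  have key : ∀ x : V, ∃ y, ∀ i, x ∈ level G v (i + 1) → y ∈ level G v i ∧ G.Adj x y := by
    intro x
    by_cases h : ∃ i, x ∈ level G v (i + 1)
    · obtain ⟨i, hi⟩ := h
      obtain ⟨y, hy, hxy⟩ := BFS_parent hi
      refine ⟨y, fun j hj => ?_⟩
      obtain rfl : i = j := by have := level_unique hi hj; omega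
      exact ⟨hy, hxy⟩
    · exact ⟨x, fun i hi => absurd ⟨i, hi⟩ h⟩
  choose π hπ using key
  exact ⟨π, fun i x hx => hπ x i hx⟩

theorem BFS_iter {π : V → V}
    (hπ : ∀ i, ∀ x ∈ level G v (i + 1), π x ∈ level G v i ∧ G.Adj x (π x)) {i s : ℕ} {x : V}
    (hx : x ∈ level G v i) (hs : s ≤ i) : π^[s] x ∈ level G v (i - s) := by
  induction s with
  | zero => exact hx
  | succ s ih =>
    rw [Function.iterate_succ_apply']
    have := ih (by omega)
    rw [show i - s = i - (s + 1) + 1 by omega] at this
    exact (hπ _ _ this).1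

theorem BFS_path {π : V → V}
    (hπ : ∀ i, ∀ x ∈ level G v (i + 1), π x ∈ level G v i ∧ G.Adj x (π x)) {i h : ℕ} {x : V}
    (hx : x ∈ level G v i) (hi : h ≤ i) : IsPath G (fun s => π^[s] x) h := by
  refine ⟨fun s hs => ?_, fun s t hs ht e => ?_⟩
  · have := BFS_iter hπ hx (s := s) (by omega)
    rw [show i - s = i - (s + 1) + 1 by omega] at this
    simp only [Function.iterate_succ_apply']
    exact (hπ _ _ this).2
  · have h1 := BFS_iter hπ hx (s := s) (by omega)
    have h2 := BFS_iter hπ hx (s := t) (by omega)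
    simp only at e
    rw [e] at h1
    have := level_unique h1 h2
    omega

/-- **Closing a path through the tree.**  `p` is a path of length `l ≥ 1` inside level `i`, its ends have
different ancestors at height `h - 1` and the same ancestor at height `h` (`1 ≤ h ≤ i`).  The tree path
`s ↦ π^[s] (p 0)` (`s ≤ h`), then `π^[2h - s] (p l)`, has length `2h`; `π^[s] x ∈ level (i - s)`, so its vertices are
distinct (`level_unique`; `π^[s] x = π^[s] y` with `s ≤ h - 1` would give equality at `h - 1`) and its inner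
vertices are not on level `i`.  `hasCyc_of_two_paths`. -/
theorem tree_cycle {π : V → V}
    (hπ : ∀ i, ∀ x ∈ level G v (i + 1), π x ∈ level G v i ∧ G.Adj x (π x)) {i h l : ℕ}
    (h1 : 1 ≤ h) (hi : h ≤ i) (hl : 1 ≤ l) {p : ℕ → V} (hp : IsPath G p l)
    (hL : ∀ s, s ≤ l → p s ∈ level G v i) (hne : π^[h - 1] (p 0) ≠ π^[h - 1] (p l))
    (heq : π^[h] (p 0) = π^[h] (p l)) : HasCyc G (l + 2 * h) := by
  have h0 := hL 0 (Nat.zero_le _)
  have hl' := hL l le_rfl
  have hq := (BFS_path hπ h0 hi).append (BFS_path hπ hl' hi).rev (by simpa using heq)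
    (fun s t hs ht ht' e => by
      have h2 := BFS_iter hπ h0 (s := s) (by omega)
      have h3 := BFS_iter hπ hl' (s := h - t) (by omega)
      rw [e] at h2
      have h4 := level_unique h2 h3
      have h5 : h - t = s := by omega
      rw [h5] at e
      refine hne ?_
      rw [show h - 1 = (h - 1 - s) + s by omega, Function.iterate_add_apply,
        Function.iterate_add_apply, e])
  rw [two_mul]
  refine hasCyc_of_two_paths hp hq (by simp) ?_ hl (by omega) (by omega) fun s t hs ht ht' e => ?_
  · rw [if_neg (by omega)]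
    simp
  · have h2 := hL s hs
    rw [e] at h2
    split_ifs at h2 with h3
    · have := level_unique h2 (BFS_iter hπ h0 (by omega))
      omega
    · have := level_unique h2 (BFS_iter hπ hl' (by omega))
      omega

/-- all vertices of level `i` have the root as `i`-th ancestor. -/
theorem iter_root {π : V → V}
    (hπ : ∀ i, ∀ x ∈ level G v (i + 1), π x ∈ level G v i ∧ G.Adj x (π x)) {i : ℕ} {x : V}
    (hx : x ∈ level G v i) : π^[i] x = v := by
  have := BFS_iter hπ hx le_rfl
  rw [Nat.sub_self] at this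
  exact mem_singleton.1 this

end Crest.Agent.R54
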