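import Crest.Agent.R54.Basic1

/-!
# Row 54: basic facts on paths and cycles given as functions `ℕ → V`

All proofs are index bookkeeping: define the new function with `if … then … else …`, `split_ifs`,
and finish with `omega` after `congrArg`-style rewriting (`show p (a - i) = _`, `have : _ = _ := by omega`).
-/

namespace Crest.Agent.R54

open Finset

variable {V : Type*} {G : SimpleGraph V}

/-- periodic form: `v i = p ((i % L).toNat)`. -/
theorem CycIn.zcyc {S : Finset V} {L : ℕ} (h : CycIn G S L) :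
    ∃ v : ℤ → V, ZCyc G v L ∧ ∀ i, v i ∈ S := by
  obtain ⟨p, h3, ⟨ha, hi⟩, hc, hS⟩ := h
  have h0 : ∀ i : ℤ, 0 ≤ i % L := fun i => Int.emod_nonneg _ (by omega)
  have h1 : ∀ i : ℤ, i % L < L := fun i => Int.emod_lt_of_pos _ (by omega)
  refine ⟨fun i => p (i % L).toNat, ⟨h3, fun i => ?_, fun i => by simp, fun i j hij => ?_⟩,
    fun i => hS _ (by have := h0 i; have := h1 i; omega)⟩
  · have := h0 i
    have := h1 i
    rw [← Int.emod_add_emod]
    by_cases h : i % L + 1 < L
    · rw [Int.emod_eq_of_lt (a := i % L + 1) (by omega) h, show (i % L + 1).toNat =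
        (i % L).toNat + 1 by omega]
      exact ha _ (by omega)
    · rw [show i % L + 1 = L by omega, Int.emod_self, show (i % L).toNat = L - 1 by omega]
      exact hc
  · have := h0 i
    have := h1 i
    have := h0 j
    have := h1 j
    have := hi _ _ (by omega) (by omega) hij
    exact Int.ModEq.dvd (show j % L = i % L by omega)

theorem ZCyc.shift {v : ℤ → V} {L : ℕ} (h : ZCyc G v L) (a : ℤ) :
    ZCyc G (fun i => v (a + i)) L := by
  refine ⟨h.three, fun i => ?_, fun i => ?_, fun i j hij => ?_⟩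
  · simpa only [add_assoc] using h.adj (a + i)
  · simpa only [add_assoc] using h.per (a + i)
  · simpa using h.inj _ _ hij

theorem ZCyc.neg {v : ℤ → V} {L : ℕ} (h : ZCyc G v L) : ZCyc G (fun i => v (-i)) L := by
  refine ⟨h.three, fun i => ?_, fun i => ?_, fun i j hij => ?_⟩
  · simpa using (h.adj (-(i + 1))).symm
  · simpa using (h.per (-(i + L))).symm
  · exact dvd_sub_comm.1 (by simpa [add_comm, sub_eq_add_neg] using h.inj _ _ hij)

/-- `v i = v j` with `|i - j| < L` forces `i = j`. -/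
theorem ZCyc.eq_of_abs_lt {v : ℤ → V} {L : ℕ} (h : ZCyc G v L) {i j : ℤ} (hij : v i = v j)
    (h1 : i - j < L) (h2 : j - i < L) : i = j := by
  exact sub_eq_zero.1 (Int.eq_zero_of_abs_lt_dvd (h.inj _ _ hij) (abs_lt.2 ⟨by omega, h1⟩))

/-- every value of `v` is attained in any window of `L` consecutive integers. -/
theorem ZCyc.exists_window {v : ℤ → V} {L : ℕ} (h : ZCyc G v L) (a i : ℤ) :
    ∃ j, a ≤ j ∧ j < a + L ∧ v j = v i := by
  have h3 := h.three
  refine ⟨a + (i - a) % L, le_add_of_nonneg_right (Int.emod_nonneg _ (by omega)),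
    add_lt_add_right (Int.emod_lt_of_pos _ (by omega)) _, ?_⟩
  rw [← Function.Periodic.sub_int_mul_eq h.per ((i - a) / L) (x := i), Int.emod_def]
  congr 1
  rw [Int.cast_id]
  ring

/-- an arc of a cycle is a path. -/
theorem ZCyc.isPath {v : ℤ → V} {L : ℕ} (h : ZCyc G v L) (a : ℤ) {n : ℕ} (hn : n + 1 ≤ L) :
    IsPath G (fun i : ℕ => v (a + i)) n := by
  refine ⟨fun i _ => ?_, fun i j hi hj hij => ?_⟩
  · simpa only [Nat.cast_succ, add_assoc] using h.adj (a + i)
  · have := h.eq_of_abs_lt hij (by omega) (by omega)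
    omega

/-- in a clique, any two distinct vertices are joined by paths of all lengths `1 ≤ l < |K|`. -/
theorem Clq.exists_path {K : Finset V} (hK : Clq G K) {x y : V} (hx : x ∈ K) (hy : y ∈ K)
    (hxy : x ≠ y) {l : ℕ} (h1 : 1 ≤ l) (hl : l + 1 ≤ K.card) :
    ∃ p, IsPath G p l ∧ p 0 = x ∧ p l = y ∧ ∀ i, i ≤ l → p i ∈ K := by
  classical
  induction l, h1 using Nat.le_induction generalizing K x with
  | base =>
    refine ⟨_, (isPath_zero fun _ => y).cons (hK x hx y hy hxy) fun _ _ => hxy, rfl, rfl, ?_⟩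
    intro i _
    split_ifs <;> assumption
  | succ l h1 ih =>
    obtain ⟨z, hz⟩ : ((K.erase x).erase y).Nonempty := by
      rw [← card_pos, card_erase_of_mem (mem_erase.2 ⟨hxy.symm, hy⟩), card_erase_of_mem hx]
      omega
    obtain ⟨hzy, hz⟩ := mem_erase.1 hz
    obtain ⟨p, hp, h0, h2, hm⟩ := ih (K := K.erase x)
      (fun a ha b hb => hK a (mem_of_mem_erase ha) b (mem_of_mem_erase hb)) hz
      (mem_erase.2 ⟨hxy.symm, hy⟩) hzy (by rw [card_erase_of_mem hx]; omega)
    refine ⟨_, hp.cons (x := x) (h0 ▸ hK x hx z (mem_of_mem_erase hz) (ne_of_mem_erase hz).symm)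
      fun j hj => (ne_of_mem_erase (hm j hj)).symm, rfl, h2, fun i hi => ?_⟩
    split_ifs
    · exact hx
    · exact mem_of_mem_erase (hm _ (by omega))

theorem Clq.cycIn {K : Finset V} (hK : Clq G K) {n : ℕ} (h3 : 3 ≤ n) (hn : n ≤ K.card) :
    CycIn G K n := by
  obtain ⟨x, hx, y, hy, hxy⟩ := one_lt_card.1 (show 1 < K.card by omega)
  obtain ⟨p, hp, h0, h1, hm⟩ := hK.exists_path hx hy hxy (l := n - 1) (by omega) (by omega)
  exact ⟨p, h3, hp, h0 ▸ h1 ▸ hK y hy x hx hxy.symm, fun i hi => hm i (by omega)⟩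

theorem hasCyc4 {a b c d : V} (h1 : G.Adj a b) (h2 : G.Adj b c) (h3 : G.Adj c d) (h4 : G.Adj d a)
    (hac : a ≠ c) (hbd : b ≠ d) : HasCyc G 4 := by
  refine ⟨fun i => match i with | 0 => a | 1 => b | 2 => c | _ => d, by omega,
    ⟨fun i hi => ?_, fun i j hi hj => ?_⟩, h4⟩
  · interval_cases i <;> assumption
  · have := h1.ne; have := h2.ne; have := h3.ne; have := h4.ne
    interval_cases i <;> interval_cases j <;> grind

theorem hasCyc5 {a b c d e : V} (h1 : G.Adj a b) (h2 : G.Adj b c) (h3 : G.Adj c d)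
    (h4 : G.Adj d e) (h5 : G.Adj e a) (hac : a ≠ c) (had : a ≠ d) (hbd : b ≠ d) (hbe : b ≠ e)
    (hce : c ≠ e) : HasCyc G 5 := by
  refine ⟨fun i => match i with | 0 => a | 1 => b | 2 => c | 3 => d | _ => e, by omega,
    ⟨fun i hi => ?_, fun i j hi hj => ?_⟩, h5⟩
  · interval_cases i <;> assumption
  · have := h1.ne; have := h2.ne; have := h3.ne; have := h4.ne; have := h5.ne
    interval_cases i <;> interval_cases j <;> grind

theorem hasCyc6 {a b c d e f : V} (h1 : G.Adj a b) (h2 : G.Adj b c) (h3 : G.Adj c d)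
    (h4 : G.Adj d e) (h5 : G.Adj e f) (h6 : G.Adj f a) (hac : a ≠ c) (had : a ≠ d) (hae : a ≠ e)
    (hbd : b ≠ d) (hbe : b ≠ e) (hbf : b ≠ f) (hce : c ≠ e) (hcf : c ≠ f) (hdf : d ≠ f) :
    HasCyc G 6 := by
  refine ⟨fun i => match i with | 0 => a | 1 => b | 2 => c | 3 => d | 4 => e | _ => f, by omega,
    ⟨fun i hi => ?_, fun i j hi hj => ?_⟩, h6⟩
  · interval_cases i <;> assumption
  · have := h1.ne; have := h2.ne; have := h3.ne; have := h4.ne; have := h5.ne; have := h6.ne
    interval_cases i <;> interval_cases j <;> grind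

variable [Fintype V]

/-- minimum degree at least `k` (expansion for `I = {v}`). -/
theorem Hyp.deg {k : ℕ} (H : Hyp G k) (v : V) : k ≤ (nb G univ v).card := by
  classical
  have h1 := H.expand {v} (fun x hx y hy => by simp_all) (singleton_nonempty v)
  have h2 : cnb G {v} ⊆ insert v (nb G univ v) := fun x hx => by simpa using hx
  have h3 := (card_le_card h2).trans (card_insert_le _ _)
  rw [card_singleton] at h1
  omega

/-- cliques have at most `k` vertices. -/
theorem Hyp.clq_le {k : ℕ} (H : Hyp G k) {K : Finset V} (hK : Clq G K) : K.card ≤ k := by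
  by_contra hk
  exact H.nocyc (hK.cycIn (by have := H.three; omega) (by omega)).hasCyc

theorem subset_Zs (Q : Finset V) (e : ℕ) : Q ⊆ Zs G Q e := by
  exact fun v hv => mem_Zs.2 (Or.inl hv)

theorem Z0_subset (Q : Finset V) (e : ℕ) : Z0 G Q e ⊆ Zs G Q e := by
  exact fun v hv => (mem_Z0.1 hv).1

end Crest.Agent.R54
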