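import Crest.Agent.R54.Defs

/-!
# Row 54: basic facts on paths and cycles given as functions `ℕ → V`

All proofs are index bookkeeping: define the new function with `if … then … else …`, `split_ifs`,
and finish with `omega` after `congrArg`-style rewriting (`show p (a - i) = _`, `have : _ = _ := by omega`).
-/

namespace Crest.Agent.R54

open Finset

variable {V : Type*} {G : SimpleGraph V}

theorem IsPath.rev {p : ℕ → V} {n : ℕ} (h : IsPath G p n) : IsPath G (fun i => p (n - i)) n := by
  refine ⟨fun i hi => ?_, fun i j hi hj e => ?_⟩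
  · have := (h.1 (n - (i + 1)) (by omega)).symm
    rwa [show n - (i + 1) + 1 = n - i by omega] at this
  · have := h.2 _ _ (Nat.sub_le n i) (Nat.sub_le n j) e
    omega

theorem IsPath.take {p : ℕ → V} {n m : ℕ} (h : IsPath G p n) (hm : m ≤ n) : IsPath G p m :=
  ⟨fun i hi => h.1 i (by omega), fun i j hi hj e => h.2 i j (by omega) (by omega) e⟩

theorem IsPath.drop {p : ℕ → V} {n a : ℕ} (h : IsPath G p n) (ha : a ≤ n) :
    IsPath G (fun i => p (a + i)) (n - a) := by
  refine ⟨fun i hi => h.1 (a + i) (by omega), fun i j hi hj e => ?_⟩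
  have := h.2 (a + i) (a + j) (by omega) (by omega) e
  omega

theorem isPath_zero (p : ℕ → V) : IsPath G p 0 :=
  ⟨fun i hi => absurd hi (Nat.not_lt_zero i), fun i j hi hj _ => by omega⟩

/-- concatenation along a common vertex `p a = q 0`. -/
theorem IsPath.append {p q : ℕ → V} {a b : ℕ} (hp : IsPath G p a) (hq : IsPath G q b)
    (h : p a = q 0) (hd : ∀ i j, i ≤ a → 0 < j → j ≤ b → p i ≠ q j) :
    IsPath G (fun i => if i ≤ a then p i else q (i - a)) (a + b) := by
  refine ⟨fun i hi => ?_, fun i j hi hj e => ?_⟩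
  · show G.Adj (if i ≤ a then p i else q (i - a)) (if i + 1 ≤ a then p (i + 1) else q (i + 1 - a))
    split_ifs with h1 h2 h2
    · exact hp.1 i (by omega)
    · obtain rfl : i = a := by omega
      rw [h, show i + 1 - i = 0 + 1 by omega]
      exact hq.1 0 (by omega)
    · omega
    · rw [show i + 1 - a = i - a + 1 by omega]
      exact hq.1 _ (by omega)
  · simp only at e
    split_ifs at e with h1 h2 h2
    · exact hp.2 i j h1 h2 e
    · exact absurd e (hd i _ h1 (by omega) (by omega))
    · exact absurd e.symm (hd j _ h2 (by omega) (by omega))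
    · have := hq.2 _ _ (by omega) (by omega) e
      omega

/-- concatenation along an edge `p a — q 0`. -/
theorem IsPath.append_edge {p q : ℕ → V} {a b : ℕ} (hp : IsPath G p a) (hq : IsPath G q b)
    (h : G.Adj (p a) (q 0)) (hd : ∀ i j, i ≤ a → j ≤ b → p i ≠ q j) :
    IsPath G (fun i => if i ≤ a then p i else q (i - a - 1)) (a + b + 1) := by
  refine ⟨fun i hi => ?_, fun i j hi hj e => ?_⟩
  · show G.Adj (if i ≤ a then p i else q (i - a - 1))
      (if i + 1 ≤ a then p (i + 1) else q (i + 1 - a - 1))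
    split_ifs with h1 h2 h2
    · exact hp.1 i (by omega)
    · obtain rfl : i = a := by omega
      rw [show i + 1 - i - 1 = 0 by omega]
      exact h
    · omega
    · rw [show i + 1 - a - 1 = i - a - 1 + 1 by omega]
      exact hq.1 _ (by omega)
  · simp only at e
    split_ifs at e with h1 h2 h2
    · exact hp.2 i j h1 h2 e
    · exact absurd e (hd i _ h1 (by omega))
    · exact absurd e.symm (hd j _ h2 (by omega))
    · have := hq.2 _ _ (by omega) (by omega) e
      omega

/-- prepend one vertex. -/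
theorem IsPath.cons {q : ℕ → V} {b : ℕ} {x : V} (hq : IsPath G q b)
    (h : G.Adj x (q 0)) (hd : ∀ j, j ≤ b → x ≠ q j) :
    IsPath G (fun i => if i = 0 then x else q (i - 1)) (b + 1) := by
  refine ⟨fun i hi => ?_, fun i j hi hj e => ?_⟩
  · show G.Adj (if i = 0 then x else q (i - 1)) (if i + 1 = 0 then x else q (i + 1 - 1))
    rw [if_neg (Nat.succ_ne_zero i), Nat.add_sub_cancel]
    split_ifs with h1
    · subst h1
      exact h
    · have := hq.1 (i - 1) (by omega)
      rwa [show i - 1 + 1 = i by omega] at this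
  · simp only at e
    split_ifs at e with h1 h2 h2
    · omega
    · exact absurd e (hd _ (by omega))
    · exact absurd e.symm (hd _ (by omega))
    · have := hq.2 _ _ (by omega) (by omega) e
      omega

/-- two internally disjoint paths with the same ends form a cycle. -/
theorem hasCyc_of_two_paths {p q : ℕ → V} {a b : ℕ} (hp : IsPath G p a) (hq : IsPath G q b)
    (h0 : p 0 = q 0) (h1 : p a = q b) (ha : 1 ≤ a) (hb : 1 ≤ b) (hab : 3 ≤ a + b)
    (hd : ∀ i j, i ≤ a → 0 < j → j < b → p i ≠ q j) : HasCyc G (a + b) := by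
  have h2 := hp.append (hq.rev.take (Nat.sub_le b 1)) h1
    fun i j hi hj hj' => hd i (b - j) hi (by omega) (by omega)
  refine ⟨_, hab, by rwa [show a + (b - 1) = a + b - 1 by omega] at h2, ?_⟩
  show G.Adj (if a + b - 1 ≤ a then p (a + b - 1) else q (b - (a + b - 1 - a)))
    (if 0 ≤ a then p 0 else q (b - (0 - a)))
  have h3 : G.Adj (q 1) (q 0) := (hq.1 0 (by omega)).symm
  rw [if_pos (Nat.zero_le a), h0]
  split_ifs with h4
  · obtain rfl : b = 1 := by omega
    rwa [Nat.add_sub_cancel, h1]
  · rwa [show b - (a + b - 1 - a) = 1 by omega]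

/-- a path all of whose vertices are adjacent to `u` closes up through `u`. -/
theorem hasCyc_of_nbhd_path {p : ℕ → V} {n : ℕ} {u : V} (hp : IsPath G p n) (hn : 1 ≤ n)
    (hu : ∀ i, i ≤ n → G.Adj u (p i)) : HasCyc G (n + 2) := by
  refine ⟨_, by omega, hp.cons (hu 0 (Nat.zero_le n)) fun j hj => (hu j hj).ne, ?_⟩
  show G.Adj (if n + 1 = 0 then u else p (n + 1 - 1)) (if 0 = 0 then u else p (0 - 1))
  rw [if_neg (Nat.succ_ne_zero n), if_pos rfl]
  exact (hu n le_rfl).symm

theorem CycIn.hasCyc {S : Finset V} {n : ℕ} (h : CycIn G S n) : HasCyc G n := by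
  obtain ⟨p, h1, h2, h3, -⟩ := h
  exact ⟨p, h1, h2, h3⟩

theorem CycIn.mono {S T : Finset V} {n : ℕ} (h : CycIn G S n) (hST : S ⊆ T) : CycIn G T n := by
  obtain ⟨p, h1, h2, h3, h4⟩ := h
  exact ⟨p, h1, h2, h3, fun i hi => hST (h4 i hi)⟩

theorem IsPath.basic1_card {p : ℕ → V} {n : ℕ} {S : Finset V} (h : IsPath G p n)
    (hS : ∀ i, i ≤ n → p i ∈ S) : n + 1 ≤ S.card := by
  have := Finset.card_le_card_of_injOn (s := range (n + 1)) (t := S) p
    (fun i hi => hS i (Nat.lt_succ_iff.1 (mem_range.1 hi)))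
    (fun i hi j hj e => h.2 i j (Nat.lt_succ_iff.1 (mem_range.1 hi))
      (Nat.lt_succ_iff.1 (mem_range.1 hj)) e)
  rwa [card_range] at this

theorem CycIn.le_card {S : Finset V} {n : ℕ} (h : CycIn G S n) : n ≤ S.card := by
  obtain ⟨p, h1, h2, -, h4⟩ := h
  have := h2.basic1_card fun i hi => h4 i (by omega)
  omega

/-- a path of length `n` inside `S` needs `n + 1` vertices. -/
theorem IsPath.lt_card {p : ℕ → V} {n : ℕ} {S : Finset V} (h : IsPath G p n)
    (hS : ∀ i, i ≤ n → p i ∈ S) : n + 1 ≤ S.card := h.basic1_card hS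

/-- a path of length `|S| - 1` inside `S` covers `S`. -/
theorem IsPath.surj {p : ℕ → V} {n : ℕ} {S : Finset V} (h : IsPath G p n)
    (hS : ∀ i, i ≤ n → p i ∈ S) (hc : S.card = n + 1) : ∀ x ∈ S, ∃ i, i ≤ n ∧ p i = x := by
  classical
  intro x hx
  by_contra hne
  have := h.lt_card (S := S.erase x) fun i hi =>
    mem_erase.2 ⟨fun e => hne ⟨i, hi, e⟩, hS i hi⟩
  rw [card_erase_of_mem hx] at this
  omega

end Crest.Agent.R54
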