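import Crest.Agent.R54.BC

/-!
# Row 54: the rotation lemma (Dirac's circumference theorem without connectivity)
-/

namespace Crest.Agent.R54

open Finset

variable {V : Type*} [DecidableEq V] {G : SimpleGraph V}

private theorem rot_max {P : ℕ → Prop} {B : ℕ} (h0 : ∃ n, P n) (hB : ∀ n, P n → n ≤ B) :
    ∃ m, P m ∧ ∀ n, P n → n ≤ m :=
  ⟨sSup {n | P n}, Nat.sSup_mem h0 ⟨B, hB⟩, fun _ hn => le_csSup ⟨B, hB⟩ hn⟩

/-- Either `T` (minimum degree `≥ c`) contains a cycle of length `≥ 2c`, or there is a Hamiltonian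
`C ⊆ T` with `c + 1 ≤ |C| ≤ 2c - 1` all of whose vertices except one, `z`, have all their
`T`-neighbours in `C`.

Proof.  Path lengths in `T` are bounded (`IsPath.lt_card`); let `m` be the maximum length.  For a path
`p` in `T` of length `m` all `T`-neighbours of `p 0` lie on `p` (`IsPath.cons`).  Among all pairs
`(p, j)` with `p` a path in `T` of length `m`, `j ≤ m`, `p 0 ~ p j`, choose `j` maximal; then every
`T`-neighbour of the start of *any* longest path has index `≤ j`, and `j ≥ c` (the neighbours of `p 0`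
have distinct indices in `[1, j]`).  `p 0 … p j` is a cycle of length `j + 1`.  If `j + 1 ≥ 2c` take the
left alternative.  Otherwise `C = image p (range (j+1))`, `z = p j`.  Call `s ∈ C` *good* if there is a
path `r` of length `j` inside `C` with `r 0 = s`, `r j = z`.  For good `s`, `r` followed by
`p (j+1) … p m` is a longest path (`r` covers `C`), so `nb G T s ⊆ C` and `c ≤ |nb G C s|`.
`p 0` is good; `p (j-1)` is good (`p (j-1), …, p 0, p j`).  Downward induction: if `p (t+1)` is good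
(`1 ≤ t`, `t + 1 ≤ j - 1`), apply `bc_path` to `p t, p (t-1), …, p 0 | p (t+1), …, p j` (gap at
`s = t`, `N = j`; degree sum `≥ 2c ≥ j + 2`), so `p t` is good. -/
theorem rot {T : Finset V} {c : ℕ} (hc : 2 ≤ c) (hT : T.Nonempty)
    (hδ : ∀ x ∈ T, c ≤ (nb G T x).card) :
    (∃ L, 2 * c ≤ L ∧ CycIn G T L) ∨
      ∃ C z, C ⊆ T ∧ z ∈ C ∧ c + 1 ≤ C.card ∧ C.card + 1 ≤ 2 * c ∧ CycIn G C C.card ∧
        ∀ s ∈ C, s ≠ z → nb G T s ⊆ C := by
  obtain ⟨m, ⟨p₀, hp₀, hp₀T⟩, hm⟩ := rot_max (B := T.card)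
    (P := fun n => ∃ p, IsPath G p n ∧ ∀ i, i ≤ n → p i ∈ T)
    ⟨0, fun _ => hT.choose, isPath_zero _, fun _ _ => hT.choose_spec⟩
    fun n ⟨p, h1, h2⟩ => by have := h1.lt_card h2; omega
  have hon : ∀ r, IsPath G r m → (∀ i, i ≤ m → r i ∈ T) → ∀ x ∈ nb G T (r 0),
      ∃ i, i ≤ m ∧ x = r i := fun r h1 h2 x hx => by
    by_contra hne
    push Not at hne
    have := hm (m + 1) ⟨_, h1.cons (mem_nb.mp hx).2.symm hne, fun i hi => by
      split_ifs
      · exact (mem_nb.mp hx).1
      · exact h2 _ (by omega)⟩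
    omega
  obtain ⟨j, ⟨p, hp, hpT, hjm, hadj⟩, hj⟩ := rot_max (B := m)
    (P := fun j => ∃ p, IsPath G p m ∧ (∀ i, i ≤ m → p i ∈ T) ∧ j ≤ m ∧ G.Adj (p 0) (p j))
    (by
      obtain ⟨x, hx⟩ := card_pos.mp (show 0 < (nb G T (p₀ 0)).card by
        have := hδ _ (hp₀T 0 (Nat.zero_le _)); omega)
      obtain ⟨i, hi, rfl⟩ := hon p₀ hp₀ hp₀T x hx
      exact ⟨i, p₀, hp₀, hp₀T, hi, (mem_nb.mp hx).2⟩)
    fun n ⟨_, _, _, h, _⟩ => h
  have hon' : ∀ r, IsPath G r m → (∀ i, i ≤ m → r i ∈ T) → ∀ x ∈ nb G T (r 0),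
      ∃ i, i ≤ j ∧ x = r i := fun r h1 h2 x hx => by
    obtain ⟨i, hi, rfl⟩ := hon r h1 h2 x hx
    exact ⟨i, hj i ⟨r, h1, h2, hi, (mem_nb.mp hx).2⟩, rfl⟩
  have hcj : c ≤ j := by
    refine (hδ _ (hpT 0 (Nat.zero_le _))).trans ((card_le_card (t := (Icc 1 j).image p)
      fun x hx => ?_).trans (card_image_le.trans (by simp)))
    obtain ⟨i, hi, rfl⟩ := hon' p hp hpT x hx
    refine mem_image_of_mem p (mem_Icc.mpr ⟨Nat.pos_of_ne_zero ?_, hi⟩)
    rintro rfl
    exact (mem_nb.mp hx).2.ne rfl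
  set C := (range (j + 1)).image p with hC
  have hmem : ∀ i, i ≤ j → p i ∈ C := fun i hi => mem_image_of_mem p (mem_range.mpr (by omega))
  have hmem' : ∀ x ∈ C, ∃ i, i ≤ j ∧ p i = x := fun x hx => by
    obtain ⟨i, hi, rfl⟩ := mem_image.mp hx
    exact ⟨i, Nat.lt_succ_iff.mp (mem_range.mp hi), rfl⟩
  have hCT : C ⊆ T := fun x hx => by
    obtain ⟨i, hi, rfl⟩ := hmem' x hx
    exact hpT i (by omega)
  have hcard : C.card = j + 1 := by
    rw [hC, card_image_of_injOn, card_range]
    intro a ha b hb h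
    have := mem_range.mp ha
    have := mem_range.mp hb
    exact hp.2 a b (by omega) (by omega) h
  have hcyc : CycIn G C (j + 1) :=
    ⟨p, by omega, hp.take hjm, hadj.symm, fun i hi => hmem i (by omega)⟩
  rcases le_or_gt (2 * c) (j + 1) with hL | hL
  · exact Or.inl ⟨_, hL, hcyc.mono hCT⟩
  have good : ∀ r, IsPath G r j → r j = p j → (∀ i, i ≤ j → r i ∈ C) → nb G T (r 0) ⊆ C := by
    intro r h1 h2 h3 x hx
    have h4 := h1.append (hp.drop hjm) h2 fun a b ha hb hb' e => by
      obtain ⟨i, hi, e'⟩ := hmem' _ (h3 a ha)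
      have := hp.2 i (j + b) (by omega) (by omega) (e'.trans e)
      omega
    rw [Nat.add_sub_cancel' hjm] at h4
    obtain ⟨i, hi, rfl⟩ := hon' _ h4 (fun i hi => by
      split_ifs with h
      · exact hCT (h3 i h)
      · exact hpT _ (by omega)) x (by simpa using hx)
    rw [if_pos hi]
    exact h3 i hi
  have hdeg : ∀ s ∈ C, nb G T s ⊆ C → c ≤ (nb G C s).card := fun s hs h =>
    (hδ s (hCT hs)).trans (card_le_card fun x hx => mem_nb.mpr ⟨h hx, (mem_nb.mp hx).2⟩)
  have key : ∀ d t, t + d + 1 = j → nb G T (p t) ⊆ C := by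
    have hinj : ∀ t a b, t < j → a ≤ j → b ≤ j → (if a ≤ t then p (t - a) else p a) =
        (if b ≤ t then p (t - b) else p b) → a = b := fun t a b ht ha hb e => by
      split_ifs at e <;> have := hp.2 _ _ (by omega) (by omega) e <;> omega
    have hadj' : ∀ t i, i < j → i ≠ t → t < j → G.Adj (if i ≤ t then p (t - i) else p i)
        (if i + 1 ≤ t then p (t - (i + 1)) else p (i + 1)) := fun t i hi hit ht => by
      split_ifs with h1 h2 h2
      · have := (hp.1 (t - (i + 1)) (by omega)).symm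
        rwa [show t - (i + 1) + 1 = t - i by omega] at this
      · omega
      · omega
      · exact hp.1 i (by omega)
    have hin : ∀ t i, t < j → i ≤ j → (if i ≤ t then p (t - i) else p i) ∈ C := fun t i ht hi => by
      split_ifs <;> exact hmem _ (by omega)
    intro d
    induction d with
    | zero =>
      intro t ht
      have := good (fun i => if i ≤ t then p (t - i) else p i) ⟨fun i hi => by
        by_cases h : i = t
        · subst h
          simpa [show i + 1 = j by omega, show ¬ j ≤ i by omega] using hadj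
        · exact hadj' t i hi h (by omega), fun a b ha hb => hinj t a b (by omega) ha hb⟩
        (if_neg (by omega)) fun i hi => hin t i (by omega) hi
      simpa using this
    | succ d ih =>
      intro t ht
      obtain ⟨q, h1, h2, h3, h4⟩ := bc_path (G := G) (p := fun i => if i ≤ t then p (t - i) else p i)
        (N := j) (s := t) (S := C) (by omega) (fun a b ha hb => hinj t a b (by omega) ha hb)
        (fun i hi h => hadj' t i hi h (by omega)) (fun i hi => hin t i (by omega) hi) hcard (by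
          have e1 := hdeg _ (hmem 0 (by omega)) (good p (hp.take hjm) rfl hmem)
          have e2 := hdeg _ (hmem (t + 1) (by omega)) (ih (t + 1) (by omega))
          simp only [le_refl, if_true, Nat.sub_self, show ¬ t + 1 ≤ t by omega, if_false]
          omega)
      have := good q h1 (h3.trans (if_neg (by omega))) h4
      simpa [h2] using this
  refine Or.inr ⟨C, p j, hCT, hmem j le_rfl, by omega, by omega, hcard ▸ hcyc, fun s hs hne => ?_⟩
  obtain ⟨i, hi, rfl⟩ := hmem' s hs
  have : i ≠ j := fun h => hne (h ▸ rfl)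
  exact key (j - 1 - i) i (by omega)

end Crest.Agent.R54
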