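import Crest.Agent.R54.Crit1
import Crest.Agent.R54.Rot

/-!
# Row 54: colourings and colour-critical sets
-/

namespace Crest.Agent.R54

open Finset

variable {V : Type*} [DecidableEq V] {G : SimpleGraph V}

/-- Dirac for critical sets: `rot` and `Crit.cut`. -/
theorem Crit.cyc {T : Finset V} {c : ℕ} (h : Crit G T c) (hc : 2 ≤ c) :
    ∃ L, CycIn G T L ∧ (2 * c ≤ L ∨ (L = T.card ∧ L + 1 ≤ 2 * c)) := by
  rcases rot hc h.nonempty h.deg with ⟨L, h1, h2⟩ | ⟨C, z, h1, h2, h3, h4, h5, h6⟩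
  · exact ⟨L, h2, Or.inl h1⟩
  · obtain rfl := h.cut h1 h2 (by omega) h6
    exact ⟨_, h5, Or.inr ⟨rfl, h4⟩⟩

omit [DecidableEq V] in
theorem crit_exists_inj (T : Finset V) :
    ∃ f : V → ℕ, (∀ x ∈ T, f x < T.card) ∧ ∀ x ∈ T, ∀ y ∈ T, f x = f y → x = y := by
  classical
  refine ⟨fun x => if h : x ∈ T then (T.equivFin ⟨x, h⟩ : ℕ) else 0, fun x hx => ?_,
    fun x hx y hy e => ?_⟩
  · simp only [dif_pos hx]
    exact (T.equivFin ⟨x, hx⟩).2
  · simp only [dif_pos hx, dif_pos hy] at e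
    exact congrArg Subtype.val (T.equivFin.injective (Fin.ext e))

omit [DecidableEq V] in
theorem crit_card_ge {T : Finset V} {c : ℕ} (h : Crit G T c) : c + 1 ≤ T.card := by
  by_contra hc
  obtain ⟨f, h1, h2⟩ := crit_exists_inj T
  exact h.1 ⟨f, fun x hx => (h1 x hx).trans_le (by omega),
    fun x hx y hy hxy e => hxy.ne (h2 x hx y hy e)⟩

omit [DecidableEq V] in
theorem crit_not_clq {K : Finset V} (h : ¬ Clq G K) : ∃ x ∈ K, ∃ y ∈ K, x ≠ y ∧ ¬ G.Adj x y := by
  by_contra hc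
  exact h fun x hx y hy hxy => by
    by_contra h'
    exact hc ⟨x, hx, y, hy, hxy, h'⟩

/-- `|T| ≥ c + 1`, and a critical set with at most `c + 2` vertices contains `K_{c+1}`.
Proof: if `|T| = c + 1`, `T` is a clique by `Crit.deg`.  If `|T| = c + 2` every vertex has at most one
non-neighbour.  If no `(c+1)`-subset is a clique: there is a non-adjacent pair `a, a'`; `T.erase a` is
not a clique, so there is a non-adjacent pair `b, b'` avoiding `a`, hence also `a'`.  Colour
`T \ {a', b'}` (`c` elements) injectively with colours `< c` and give `a'`, `b'` the colours of `a`, `b`: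
a proper `c`-colouring, contradiction. -/
theorem Crit.small {T : Finset V} {c : ℕ} (h : Crit G T c) (hT : T.card ≤ c + 2) :
    ∃ K, K ⊆ T ∧ Clq G K ∧ K.card = c + 1 := by
  have hge := crit_card_ge h
  rcases Nat.eq_or_lt_of_le hge with h1 | h1
  · refine ⟨T, Subset.refl T, fun x hx y hy hxy => ?_, h1.symm⟩
    have h2 : nb G T x ⊆ T.erase x := fun z hz =>
      mem_erase.2 ⟨(mem_nb.1 hz).2.ne', (mem_nb.1 hz).1⟩
    have h3 := h.deg x hx
    have h4 := card_erase_add_one hx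
    have h5 := eq_of_subset_of_card_le h2 (by omega)
    have h6 : y ∈ nb G T x := h5 ▸ mem_erase.2 ⟨hxy.symm, hy⟩
    exact (mem_nb.1 h6).2
  have hc : T.card = c + 2 := by omega
  by_contra hno
  have hnc : ∀ x ∈ T, ∃ a ∈ T.erase x, ∃ b ∈ T.erase x, a ≠ b ∧ ¬ G.Adj a b := fun x hx =>
    crit_not_clq fun hK => hno ⟨_, erase_subset x T, hK, by
      have := card_erase_add_one hx
      omega⟩
  have huniq : ∀ x ∈ T, ∀ y ∈ T, ∀ z ∈ T, y ≠ x → z ≠ x → ¬ G.Adj x y → ¬ G.Adj x z → y = z := by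
    intro x hx y hy z hz hyx hzx h2 h3
    by_contra hyz
    have h4 : nb G T x ⊆ ((T.erase x).erase y).erase z := fun w hw => by
      obtain ⟨hw1, hw2⟩ := mem_nb.1 hw
      exact mem_erase.2 ⟨fun e => h3 (e ▸ hw2), mem_erase.2 ⟨fun e => h2 (e ▸ hw2),
        mem_erase.2 ⟨hw2.ne', hw1⟩⟩⟩
    have h5 := card_le_card h4
    have h6 := h.deg x hx
    have e1 := card_erase_add_one hx
    have e2 := card_erase_add_one (mem_erase.2 ⟨hyx, hy⟩)
    have e3 := card_erase_add_one (mem_erase.2 ⟨Ne.symm hyz, mem_erase.2 ⟨hzx, hz⟩⟩)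
    omega
  obtain ⟨x0, hx0⟩ := h.nonempty
  obtain ⟨a, ha, a', ha', haa, hna⟩ := hnc x0 hx0
  have ha := mem_of_mem_erase ha
  have ha' := mem_of_mem_erase ha'
  obtain ⟨b, hb, b', hb', hbb, hnb⟩ := hnc a ha
  obtain ⟨hba, hb⟩ := mem_erase.1 hb
  obtain ⟨hba', hb'⟩ := mem_erase.1 hb'
  have hna' : ¬ G.Adj a' a := fun e => hna e.symm
  have hnb' : ¬ G.Adj b' b := fun e => hnb e.symm
  have h2 : b ≠ a' := by
    rintro rfl
    exact hba' (huniq b hb a ha b' hb' haa hbb.symm hna' hnb).symm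
  have h3 : b' ≠ a' := by
    rintro rfl
    exact hba (huniq b' hb' a ha b hb haa hbb hna' hnb').symm
  obtain ⟨f, f1, f2⟩ := crit_exists_inj ((T.erase a').erase b')
  have e1 := card_erase_add_one ha'
  have e2 := card_erase_add_one (mem_erase.2 ⟨h3, hb'⟩)
  have hr : ∀ x ∈ T, (if x = a' then a else if x = b' then b else x) ∈ (T.erase a').erase b' := by
    intro x hx
    split_ifs with h4 h5
    · exact mem_erase.2 ⟨hba'.symm, mem_erase.2 ⟨haa, ha⟩⟩
    · exact mem_erase.2 ⟨hbb, mem_erase.2 ⟨h2, hb⟩⟩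
    · exact mem_erase.2 ⟨h5, mem_erase.2 ⟨h4, hx⟩⟩
  refine h.1 ⟨fun x => f (if x = a' then a else if x = b' then b else x),
    fun x hx => (f1 _ (hr x hx)).trans_le (by omega), fun x hx y hy hxy e => ?_⟩
  have e' := f2 _ (hr x hx) _ (hr y hy) e
  have hne := hxy.ne
  split_ifs at e' with h4 h5 h6 h7 h8 h9 h10 h11
  · exact hne (h4.trans h5.symm)
  · exact hba e'.symm
  · exact hna' (by rwa [h4, ← e'] at hxy)
  · exact hba e'
  · exact hne (h7.trans h9.symm)
  · exact hnb' (by rwa [h7, ← e'] at hxy)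
  · exact hna (by rwa [h10, e'] at hxy)
  · exact hnb (by rwa [h11, e'] at hxy)
  · exact hne e'

theorem Crit.card_ge {T : Finset V} {c : ℕ} (h : Crit G T c) : c + 1 ≤ T.card := crit_card_ge h

/-- **Degeneracy lemma.**  Strong induction on `T`: pick `v ∈ T` with at most `c - 1` neighbours in `T`,
`R = T \ ({v} ∪ nb G T v)`.  If `R ≠ ∅` use the induction hypothesis and add `v`.  If `R = ∅` then
`|T| ≤ c`; take `{v}` if `|T| < c`, and two non-adjacent vertices if `|T| = c`. -/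
theorem deg_indep {T : Finset V} {c : ℕ} (hc : 1 ≤ c) (hT : T.Nonempty)
    (hdeg : ∀ T', T' ⊆ T → T'.Nonempty → ∃ v ∈ T', (nb G T' v).card + 1 ≤ c)
    (hK : ∀ K, K ⊆ T → Clq G K → K.card < c) :
    ∃ I, I ⊆ T ∧ Indep G I ∧ T.card + 1 ≤ c * I.card := by
  induction T using Finset.strongInduction with
  | H T ih =>
  obtain ⟨v, hv, hdv⟩ := hdeg T (Subset.refl T) hT
  have hR : T \ insert v (nb G T v) ⊂ T :=
    ⟨sdiff_subset, fun h => (mem_sdiff.1 (h hv)).2 (mem_insert_self _ _)⟩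
  have h1 := le_card_sdiff (insert v (nb G T v)) T
  have h2 := card_insert_le v (nb G T v)
  rcases (T \ insert v (nb G T v)).eq_empty_or_nonempty with h0 | h0
  · rw [h0, card_empty] at h1
    rcases Nat.lt_or_ge T.card c with h3 | h3
    · refine ⟨{v}, singleton_subset_iff.2 hv, fun x hx y hy => ?_, by rw [card_singleton]; omega⟩
      rw [mem_singleton.1 hx, mem_singleton.1 hy]
      exact G.irrefl
    · obtain ⟨x, hx, y, hy, hxy, hn⟩ := crit_not_clq fun hc' => by
        have := hK T (Subset.refl T) hc'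
        omega
      refine ⟨{x, y}, insert_subset hx (singleton_subset_iff.2 hy), fun a ha b hb => ?_,
        by rw [card_pair hxy]; omega⟩
      rw [mem_insert, mem_singleton] at ha hb
      rcases ha with rfl | rfl <;> rcases hb with rfl | rfl
      · exact G.irrefl
      · exact hn
      · exact fun e => hn e.symm
      · exact G.irrefl
  · obtain ⟨I, hI1, hI2, hI3⟩ := ih _ hR h0 (fun T' hT' => hdeg T' (hT'.trans hR.1))
      fun K hK' => hK K (hK'.trans hR.1)
    have hvI : ∀ x ∈ I, x ≠ v ∧ ¬ G.Adj v x := fun x hx => by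
      obtain ⟨a1, a2⟩ := mem_sdiff.1 (hI1 hx)
      rw [mem_insert, not_or, mem_nb] at a2
      exact ⟨a2.1, fun e => a2.2 ⟨a1, e⟩⟩
    refine ⟨insert v I, insert_subset hv (hI1.trans hR.1), fun a ha b hb => ?_, ?_⟩
    · rw [mem_insert] at ha hb
      rcases ha with rfl | ha <;> rcases hb with rfl | hb
      · exact G.irrefl
      · exact (hvI b hb).2
      · exact fun e => (hvI a ha).2 e.symm
      · exact hI2 a ha b hb
    · rw [card_insert_of_notMem fun e => (hvI v e).1 rfl, Nat.mul_succ]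
      omega

end Crest.Agent.R54
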