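import Crest.Agent.R54.Basic

/-!
# Row 54: colourings and colour-critical sets
-/

namespace Crest.Agent.R54

open Finset

variable {V : Type*} [DecidableEq V] {G : SimpleGraph V}

theorem Col.mono {T T' : Finset V} {c c' : ℕ} (h : Col G T c) (hT : T' ⊆ T) (hc : c ≤ c') :
    Col G T' c' := by
  obtain ⟨f, h1, h2⟩ := h
  exact ⟨f, fun x hx => (h1 x (hT hx)).trans_le hc, fun x hx y hy => h2 x (hT hx) y (hT hy)⟩

/-- pigeonhole: some colour class has at least `|T| / c` elements. -/
theorem Col.indep {T : Finset V} {c : ℕ} (h : Col G T c) :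
    ∃ I, I ⊆ T ∧ Indep G I ∧ T.card ≤ c * I.card := by
  obtain ⟨f, h1, h2⟩ := h
  rcases Nat.eq_zero_or_pos c with rfl | hc
  · refine ⟨∅, empty_subset _, fun x hx => absurd hx (notMem_empty x), ?_⟩
    rw [eq_empty_of_forall_notMem (s := T) fun x hx => Nat.not_lt_zero _ (h1 x hx)]
    simp
  · obtain ⟨j, -, hj⟩ := exists_max_image (range c) (fun j => (T.filter fun x => f x = j).card)
      ⟨0, mem_range.mpr hc⟩
    refine ⟨T.filter fun x => f x = j, filter_subset _ _, fun x hx y hy hxy => ?_, ?_⟩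
    · rw [mem_filter] at hx hy
      exact h2 x hx.1 y hy.1 hxy (hx.2.trans hy.2.symm)
    · rw [card_eq_sum_card_fiberwise (f := f) (t := range c) fun x hx => mem_range.mpr (h1 x hx)]
      refine (sum_le_card_nsmul _ _ _ hj).trans ?_
      simp

/-- take a subset of minimal cardinality among the non-colourable ones. -/
theorem exists_crit {T : Finset V} {c : ℕ} (h : ¬ Col G T c) : ∃ T', T' ⊆ T ∧ Crit G T' c := by
  classical
  obtain ⟨T', hT', hmin⟩ := exists_min_image (T.powerset.filter fun S => ¬ Col G S c) card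
    ⟨T, by simp [h]⟩
  rw [mem_filter, mem_powerset] at hT'
  refine ⟨T', hT'.1, hT'.2, fun S hS => ?_⟩
  by_contra hc
  have := hmin S (mem_filter.mpr ⟨mem_powerset.mpr (hS.subset.trans hT'.1), hc⟩)
  exact absurd (card_lt_card hS) (not_lt.mpr this)

theorem Crit.nonempty {T : Finset V} {c : ℕ} (h : Crit G T c) : T.Nonempty := by
  rw [nonempty_iff_ne_empty]
  rintro rfl
  exact h.1 ⟨fun _ => 0, by simp, by simp⟩

/-- colour `T.erase x`, and give `x` a colour `< c` missing on its `< c` neighbours. -/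
theorem Crit.deg {T : Finset V} {c : ℕ} (h : Crit G T c) : ∀ x ∈ T, c ≤ (nb G T x).card := by
  intro x hx
  by_contra hlt
  obtain ⟨f, h1, h2⟩ := h.2 _ (erase_ssubset hx)
  have hc : ((nb G T x).image f).card < (range c).card := by
    rw [card_range]
    exact card_image_le.trans_lt (not_le.mp hlt)
  obtain ⟨j, hj, hj'⟩ := exists_mem_notMem_of_card_lt_card hc
  have hne : ∀ y ∈ T, G.Adj x y → f y ≠ j := fun y hy hxy e =>
    hj' (mem_image.mpr ⟨y, mem_nb.mpr ⟨hy, hxy⟩, e⟩)
  refine h.1 ⟨fun y => if y = x then j else f y, fun y hy => ?_, fun y hy z hz hyz => ?_⟩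
  · by_cases e : y = x
    · simpa [e] using hj
    · simpa [e] using h1 y (mem_erase.mpr ⟨e, hy⟩)
  · by_cases e : y = x
    · subst e
      simpa [hyz.ne'] using (hne z hz hyz).symm
    · by_cases e' : z = x
      · subst e'
        simpa [e] using hne y hy hyz.symm
      · simpa [e, e'] using h2 y (mem_erase.mpr ⟨e, hy⟩) z (mem_erase.mpr ⟨e', hz⟩) hyz

/-- glue colourings of `A` and `T \ A`. -/
theorem Crit.conn {T : Finset V} {c : ℕ} (h : Crit G T c) : Conn G T := by
  intro A hA hne hAT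
  by_contra hno
  push Not at hno
  obtain ⟨f, f1, f2⟩ := h.2 A (hA.ssubset_of_ne hAT)
  obtain ⟨g, g1, g2⟩ := h.2 (T \ A) (sdiff_ssubset hA hne)
  refine h.1 ⟨fun y => if y ∈ A then f y else g y, fun y hy => ?_, fun y hy z hz hyz => ?_⟩
  · by_cases e : y ∈ A
    · simpa [e] using f1 y e
    · simpa [e] using g1 y (mem_sdiff.mpr ⟨hy, e⟩)
  · by_cases e : y ∈ A <;> by_cases e' : z ∈ A
    · simpa [e, e'] using f2 y e z e' hyz
    · exact absurd hyz (hno y e z hz e')
    · exact absurd hyz.symm (hno z e' y hy e)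
    · simpa [e, e'] using g2 y (mem_sdiff.mpr ⟨hy, e⟩) z (mem_sdiff.mpr ⟨hz, e'⟩) hyz

/-- no cut vertex: colour `C` and `T \ (C.erase z)` (both proper subsets if `C ≠ T`), compose the first
colouring with `Equiv.swap` so that they agree at `z`, and glue. -/
theorem Crit.cut {T C : Finset V} {c : ℕ} {z : V} (h : Crit G T c) (hC : C ⊆ T) (hz : z ∈ C)
    (h2 : 2 ≤ C.card) (hs : ∀ s ∈ C, s ≠ z → nb G T s ⊆ C) : C = T := by
  by_contra hCT
  have hne : (C.erase z).Nonempty := by
    rw [← card_pos, card_erase_of_mem hz]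
    omega
  obtain ⟨f, f1, f2⟩ := h.2 C (hC.ssubset_of_ne hCT)
  obtain ⟨g, g1, g2⟩ := h.2 (T \ C.erase z) (sdiff_ssubset ((erase_subset _ _).trans hC) hne)
  have hzT : z ∈ T \ C.erase z := mem_sdiff.mpr ⟨hC hz, notMem_erase z C⟩
  have hout : ∀ y ∈ T, y ∉ C → y ∈ T \ C.erase z := fun y hy e =>
    mem_sdiff.mpr ⟨hy, fun e' => e (mem_of_mem_erase e')⟩
  have hcross : ∀ y ∈ C, ∀ w ∈ T, w ∉ C → G.Adj y w → Equiv.swap (f z) (g z) (f y) ≠ g w := by
    intro y hy w hw hwC hyw
    by_cases e : y = z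
    · subst e
      rw [Equiv.swap_apply_left]
      exact g2 y hzT w (hout w hw hwC) hyw
    · exact absurd (hs y hy e (mem_nb.mpr ⟨hw, hyw⟩)) hwC
  refine h.1 ⟨fun y => if y ∈ C then Equiv.swap (f z) (g z) (f y) else g y, fun y hy => ?_,
    fun y hy w hw hyw => ?_⟩
  · by_cases e : y ∈ C
    · simp only [e, if_true, Equiv.swap_apply_def]
      split_ifs
      · exact g1 z hzT
      · exact f1 z hz
      · exact f1 y e
    · simpa [e] using g1 y (hout y hy e)
  · by_cases e : y ∈ C <;> by_cases e' : w ∈ C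
    · simpa [e, e'] using f2 y e w e' hyw
    · simpa [e, e'] using hcross y e w hw e' hyw
    · simpa [e, e'] using (hcross w e' y hy e hyw.symm).symm
    · simpa [e, e'] using g2 y (hout y hy e) w (hout w hw e') hyw

end Crest.Agent.R54
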