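import Mathlib

/-!
# Row 54 (S0075): `R(C_m, K_n) ≤ (m-1)(n-1)+1` for `m ≥ n ≥ 3`, `(m,n) ≠ (3,3)` -- definitions

Write `k = m - 1 ≥ 3`, `c = k / 2`.  A minimal counterexample satisfies `Hyp G k` (no `C_{k+1}`,
`α ≤ k`, `|V| ≤ k² + 1`, and *expansion* `|N[I]| ≥ k|I| + 1` for independent `I ≠ ∅`).

Plan (one file per step, every file states its lemmas with proof recipes):
* `Basic`   paths as functions `ℕ → V`, gluing, small cycles.
* `Walk`    conversion to Mathlib walks, transport along induced subgraphs.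
* `BC`      Bondy–Chvátal/Ore exchange lemmas;  `Fin`  closure lemma `fin` and selection `sel`.
* `Rot`     rotation lemma (Dirac);  `Crit`  colour-critical sets.
* `AB1`, `AB2`  labels invariant under paths of length `l` (chorded cycle lemma).
* `Will`, `Pan`  panconnected cores (cliques, wheels, Williamson) forbid a window of ear lengths.
* `Orient1`, `Orient2`  short ears: colouring of `Z \ Q` with `e - 1` colours, short linkages.
* `Hang`    independent sets hanging off `Z`;  `Stage3`, `StageA`, `StageB`  no cores.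
* `Nbhd`, `Level`, `Growth`  BFS levels are `c`-colourable, independence numbers of balls grow too fast.
* `Small3`, `Small4`  the cases `k = 3`, and the tight case of `k = 4`.
* `Main`    induction on `n`.
-/

namespace Crest.Agent.R54

open Finset

variable {V : Type*}

/-- `p 0, …, p n` is a path of length `n` (so `n + 1` distinct vertices). -/
def IsPath (G : SimpleGraph V) (p : ℕ → V) (n : ℕ) : Prop :=
  (∀ i, i < n → G.Adj (p i) (p (i + 1))) ∧ ∀ i j, i ≤ n → j ≤ n → p i = p j → i = j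

/-- a cycle of length `n` all of whose vertices lie in `S`. -/
def CycIn (G : SimpleGraph V) (S : Finset V) (n : ℕ) : Prop :=
  ∃ p : ℕ → V, 3 ≤ n ∧ IsPath G p (n - 1) ∧ G.Adj (p (n - 1)) (p 0) ∧ ∀ i, i < n → p i ∈ S

/-- a cycle of length `n`. -/
def HasCyc (G : SimpleGraph V) (n : ℕ) : Prop :=
  ∃ p : ℕ → V, 3 ≤ n ∧ IsPath G p (n - 1) ∧ G.Adj (p (n - 1)) (p 0)

/-- a cycle of length `L` as a periodic function on `ℤ`. -/
structure ZCyc (G : SimpleGraph V) (v : ℤ → V) (L : ℕ) : Prop where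
  three : 3 ≤ L
  adj : ∀ i, G.Adj (v i) (v (i + 1))
  per : ∀ i, v (i + L) = v i
  inj : ∀ i j, v i = v j → (L : ℤ) ∣ i - j

/-- independent set. -/
def Indep (G : SimpleGraph V) (I : Finset V) : Prop := ∀ x ∈ I, ∀ y ∈ I, ¬ G.Adj x y

/-- clique. -/
def Clq (G : SimpleGraph V) (K : Finset V) : Prop := ∀ x ∈ K, ∀ y ∈ K, x ≠ y → G.Adj x y

/-- `T` is properly colourable with `c` colours. -/
def Col (G : SimpleGraph V) (T : Finset V) (c : ℕ) : Prop :=
  ∃ f : V → ℕ, (∀ x ∈ T, f x < c) ∧ ∀ x ∈ T, ∀ y ∈ T, G.Adj x y → f x ≠ f y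

/-- `T` is a minimal non-`c`-colourable set. -/
def Crit (G : SimpleGraph V) (T : Finset V) (c : ℕ) : Prop :=
  ¬ Col G T c ∧ ∀ T', T' ⊂ T → Col G T' c

/-- connectivity of the induced graph on `T`, in cut form. -/
def Conn (G : SimpleGraph V) (T : Finset V) : Prop :=
  ∀ A, A ⊆ T → A.Nonempty → A ≠ T → ∃ x ∈ A, ∃ y ∈ T, y ∉ A ∧ G.Adj x y

open Classical in
/-- neighbours of `v` inside `S`. -/
noncomputable def nb (G : SimpleGraph V) (S : Finset V) (v : V) : Finset V := S.filter (G.Adj v)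

@[simp] theorem mem_nb {G : SimpleGraph V} {S : Finset V} {v x : V} :
    x ∈ nb G S v ↔ x ∈ S ∧ G.Adj v x := by
  simp [nb]

/-- any two distinct vertices of `Q` are joined inside `Q` by paths of all lengths in
`[l0, |Q| - 1]`. -/
def Pan (G : SimpleGraph V) (Q : Finset V) (l0 : ℕ) : Prop :=
  ∀ x ∈ Q, ∀ y ∈ Q, x ≠ y → ∀ l, l0 ≤ l → l + 1 ≤ Q.card →
    ∃ p, IsPath G p l ∧ p 0 = x ∧ p l = y ∧ ∀ i, i ≤ l → p i ∈ Q

/-- an ear of `Q`: a path of length `l ≥ 2` with both ends in `Q` and inner vertices outside. -/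
def IsEar (G : SimpleGraph V) (Q : Finset V) (p : ℕ → V) (l : ℕ) : Prop :=
  IsPath G p l ∧ 2 ≤ l ∧ p 0 ∈ Q ∧ p l ∈ Q ∧ ∀ i, 0 < i → i < l → p i ∉ Q

/-- no ear has length in `[lo, hi]`. -/
def NoEar (G : SimpleGraph V) (Q : Finset V) (lo hi : ℕ) : Prop :=
  ∀ p l, IsEar G Q p l → lo ≤ l → l ≤ hi → False

/-- a route of length `r` inside `A` from `u` to `Q`, meeting `Q` only in its last vertex. -/
def Route (G : SimpleGraph V) (Q A : Finset V) (u : V) (p : ℕ → V) (r : ℕ) : Prop :=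
  IsPath G p r ∧ p 0 = u ∧ p r ∈ Q ∧ (∀ i, i < r → p i ∉ Q) ∧ ∀ i, i ≤ r → p i ∈ A

/-- two vertex-disjoint routes inside `A` from `u`, `u'` to `Q` of total length at most `ρ`. -/
def Link (G : SimpleGraph V) (Q A : Finset V) (u u' : V) (ρ : ℕ) : Prop :=
  ∃ p r p' r', Route G Q A u p r ∧ Route G Q A u' p' r' ∧ r + r' ≤ ρ ∧
    ∀ i j, i ≤ r → j ≤ r' → p i ≠ p' j

/-- `ψ` is a proper ranking of `Y` in which every vertex has a step down (to `Q1` or to a lower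
vertex of `Y`) and a step up (to `Q \ Q1` or to a higher vertex of `Y`). -/
structure Rank (G : SimpleGraph V) (Q Q1 Y : Finset V) (ψ : V → ℕ) : Prop where
  sub : Q1 ⊆ Q
  disj : ∀ y ∈ Y, y ∉ Q
  proper : ∀ x ∈ Y, ∀ y ∈ Y, G.Adj x y → ψ x ≠ ψ y
  down : ∀ y ∈ Y, (∃ x ∈ Q1, G.Adj y x) ∨ ∃ x ∈ Y, G.Adj y x ∧ ψ x < ψ y
  up : ∀ y ∈ Y, (∃ x ∈ Q, x ∉ Q1 ∧ G.Adj y x) ∨ ∃ x ∈ Y, G.Adj y x ∧ ψ y < ψ x

/-- a monotone chain: `p 0 ∈ Q1`, `p 1, …, p (l-1) ∈ Y` with increasing rank, `p l ∈ Q \ Q1`. -/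
def Chain (G : SimpleGraph V) (Q Q1 Y : Finset V) (ψ : V → ℕ) (p : ℕ → V) (l : ℕ) : Prop :=
  2 ≤ l ∧ (∀ i, i < l → G.Adj (p i) (p (i + 1))) ∧ p 0 ∈ Q1 ∧ p l ∈ Q ∧ p l ∉ Q1 ∧
    (∀ i, 0 < i → i < l → p i ∈ Y) ∧ ∀ i, 0 < i → i + 1 < l → ψ (p i) < ψ (p (i + 1))

section fin
variable [Fintype V]

open Classical in
/-- closed neighbourhood of a set. -/
noncomputable def cnb (G : SimpleGraph V) (I : Finset V) : Finset V :=
  univ.filter fun x => x ∈ I ∨ ∃ y ∈ I, G.Adj y x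

@[simp] theorem mem_cnb {G : SimpleGraph V} {I : Finset V} {x : V} :
    x ∈ cnb G I ↔ x ∈ I ∨ ∃ y ∈ I, G.Adj y x := by
  simp [cnb]

/-- the properties of a minimal counterexample. -/
structure Hyp (G : SimpleGraph V) (k : ℕ) : Prop where
  three : 3 ≤ k
  ne : Nonempty V
  card : Fintype.card V ≤ k * k + 1
  alpha : ∀ I, Indep G I → I.card ≤ k
  expand : ∀ I, Indep G I → I.Nonempty → k * I.card + 1 ≤ (cnb G I).card
  nocyc : ¬ HasCyc G (k + 1)

open Classical in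
/-- `Z`: the core `Q` together with all vertices on ears of length at most `e`. -/
noncomputable def Zs (G : SimpleGraph V) (Q : Finset V) (e : ℕ) : Finset V :=
  univ.filter fun v => v ∈ Q ∨ ∃ p l i, IsEar G Q p l ∧ l ≤ e ∧ i ≤ l ∧ p i = v

theorem mem_Zs {G : SimpleGraph V} {Q : Finset V} {e : ℕ} {v : V} :
    v ∈ Zs G Q e ↔ v ∈ Q ∨ ∃ p l i, IsEar G Q p l ∧ l ≤ e ∧ i ≤ l ∧ p i = v := by
  simp [Zs]

open Classical in
/-- `Z₀`: the vertices of `Z` with a neighbour outside `Z`. -/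
noncomputable def Z0 (G : SimpleGraph V) (Q : Finset V) (e : ℕ) : Finset V :=
  (Zs G Q e).filter fun v => ∃ w, w ∉ Zs G Q e ∧ G.Adj v w

theorem mem_Z0 {G : SimpleGraph V} {Q : Finset V} {e : ℕ} {v : V} :
    v ∈ Z0 G Q e ↔ v ∈ Zs G Q e ∧ ∃ w, w ∉ Zs G Q e ∧ G.Adj v w := by
  simp [Z0]

/-- BFS balls around `v`. -/
noncomputable def ball (G : SimpleGraph V) (v : V) : ℕ → Finset V
  | 0 => {v}
  | i + 1 => cnb G (ball G v i)

/-- BFS levels: `level G v (i + 1) = ball (i + 1) \ ball i`. -/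
noncomputable def level [DecidableEq V] (G : SimpleGraph V) (v : V) : ℕ → Finset V
  | 0 => {v}
  | i + 1 => ball G v (i + 1) \ ball G v i

end fin

end Crest.Agent.R54
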