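import Crest.Agent.R54.BC

/-!
# Row 54: closure lemma and selection lemma
-/

namespace Crest.Agent.R54

open Finset

variable {V : Type*} [Fintype V] [DecidableEq V]

/-- **Closure.**  If `S` has no Hamilton cycle in `G`, there is a supergraph `G' ≥ G` without one in
which non-adjacent vertices of `S` have degree sum `< |S|`.
Proof: take `G'` maximal among the (finitely many) supergraphs without `CycIn G' S |S|`
(e.g. maximise `G'.edgeFinset.card`, or `Finite.exists_maximal`/`WellFoundedGT`).  For non-adjacent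
`u ≠ v` in `S`, `G' ⊔ SimpleGraph.edge u v` has a Hamilton cycle of `S`; pass to `CycIn.zcyc`.  If no
step of the cycle is the new edge it is a cycle of `G'`.  Otherwise rotate (`ZCyc.shift`,
`ZCyc.isPath`) so that the new edge is the closing edge: the other `|S| - 1` steps are edges of `G'`
(injectivity: the pair `{u, v}` occurs only once because `|S| ≥ 3`), and `bc_cyc` applies. -/
theorem closure (G : SimpleGraph V) (S : Finset V) (h3 : 3 ≤ S.card) (h : ¬ CycIn G S S.card) :
    ∃ G' : SimpleGraph V, G ≤ G' ∧ ¬ CycIn G' S S.card ∧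
      ∀ u ∈ S, ∀ v ∈ S, u ≠ v → ¬ G'.Adj u v → (nb G' S u).card + (nb G' S v).card < S.card := by
  classical
  obtain ⟨G', hGG', hmax⟩ :=
    Finite.exists_le_maximal (p := fun H : SimpleGraph V => ¬ CycIn H S S.card) h
  refine ⟨G', hGG', hmax.prop, ?_⟩
  intro u hu v hv huv hna
  by_contra hcon
  have hdeg : S.card ≤ (nb G' S u).card + (nb G' S v).card := by omega
  have hH : CycIn (G' ⊔ SimpleGraph.edge u v) S S.card := by
    by_contra hH
    have hle : G' ⊔ SimpleGraph.edge u v ≤ G' := hmax.le_of_ge hH le_sup_left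
    apply hna
    apply hle
    rw [SimpleGraph.sup_adj, SimpleGraph.edge_adj]
    exact Or.inr ⟨Or.inl ⟨rfl, rfl⟩, huv⟩
  obtain ⟨w, hw, hwS⟩ := hH.zcyc
  have hinj : ∀ (a : ℤ) (i j : ℕ), i ≤ S.card - 1 → j ≤ S.card - 1 →
      w (a + i) = w (a + j) → i = j := by
    intro a i j hi hj hij
    have := hw.eq_of_abs_lt hij (by omega) (by omega)
    omega
  apply hmax.prop
  by_cases hall : ∀ i : ℤ, G'.Adj (w i) (w (i + 1))
  · refine ⟨fun i : ℕ => w (0 + i), h3, ⟨?_, ?_⟩, ?_, fun i _ => hwS _⟩
    · intro i _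
      have := hall (0 + i)
      simpa [add_assoc] using this
    · intro i j hi hj hij
      exact hinj 0 i j hi hj hij
    · have h1 := hall (0 + ((S.card - 1 : ℕ) : ℤ))
      have h2 : (0 + ((S.card - 1 : ℕ) : ℤ)) + 1 = (0 + ((0 : ℕ) : ℤ)) + (S.card : ℤ) := by omega
      rw [h2, hw.per] at h1
      exact h1
  · push Not at hall
    obtain ⟨a, ha⟩ := hall
    have hedge : (w a = u ∧ w (a + 1) = v) ∨ (w a = v ∧ w (a + 1) = u) := by
      have := hw.adj a
      rw [SimpleGraph.sup_adj, SimpleGraph.edge_adj] at this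
      rcases this with h1 | h1
      · exact absurd h1 ha
      · exact h1.1
    have hpath : IsPath G' (fun i : ℕ => w (a + 1 + i)) (S.card - 1) := by
      refine ⟨?_, fun i j hi hj hij => hinj (a + 1) i j hi hj hij⟩
      intro i hi
      have h1 := hw.adj (a + 1 + i)
      rw [SimpleGraph.sup_adj, SimpleGraph.edge_adj] at h1
      have e1 : a + 1 + ((i + 1 : ℕ) : ℤ) = a + 1 + i + 1 := by push_cast; ring
      show G'.Adj (w (a + 1 + i)) (w (a + 1 + ((i + 1 : ℕ) : ℤ)))
      rw [e1]
      rcases h1 with h1 | h1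
      · exact h1
      · exfalso
        have k1 : w (a + 1 + i) ≠ w a := by
          intro e
          have := hw.eq_of_abs_lt e (by omega) (by omega)
          omega
        have k2 : w (a + 1 + i + 1) ≠ w (a + 1) := by
          intro e
          have := hw.eq_of_abs_lt e (by omega) (by omega)
          omega
        have k3 : ¬ (w (a + 1 + i) = w (a + 1) ∧ w (a + 1 + i + 1) = w a) := by
          rintro ⟨e, e'⟩
          have t1 := hw.eq_of_abs_lt e (by omega) (by omega)
          have hi0 : i = 0 := by omega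
          subst hi0
          have t2 := hw.eq_of_abs_lt e' (by omega) (by omega)
          omega
        rcases hedge with ⟨e1, e2⟩ | ⟨e1, e2⟩ <;> rcases h1.1 with ⟨f1, f2⟩ | ⟨f1, f2⟩
        · exact k1 (f1.trans e1.symm)
        · exact k3 ⟨f1.trans e2.symm, f2.trans e1.symm⟩
        · exact k3 ⟨f1.trans e2.symm, f2.trans e1.symm⟩
        · exact k1 (f1.trans e1.symm)
    have hc : S.card = (S.card - 1) + 1 := by omega
    have e0 : w (a + 1 + ((0 : ℕ) : ℤ)) = w (a + 1) := by simp
    have eN : w (a + 1 + ((S.card - 1 : ℕ) : ℤ)) = w a := by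
      have : a + 1 + ((S.card - 1 : ℕ) : ℤ) = a + (S.card : ℤ) := by omega
      rw [this, hw.per]
    have key := bc_cyc (G := G') (p := fun i : ℕ => w (a + 1 + i)) (N := S.card - 1) (S := S)
      (by omega) hpath (fun i _ => hwS _) hc (by
        show S.card - 1 + 1 ≤ (nb G' S (w (a + 1 + ((0 : ℕ) : ℤ)))).card +
          (nb G' S (w (a + 1 + ((S.card - 1 : ℕ) : ℤ)))).card
        rw [e0, eN]
        rcases hedge with ⟨e1, e2⟩ | ⟨e1, e2⟩ <;> rw [e1, e2] <;> omega)
    rwa [← hc] at key

/-- **Finishing lemma.**  `F ⊆ S` is a clique containing at least half of `S`, each vertex of `F`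
misses at most `g` vertices of `S`, and every nonempty `B ⊆ S \ F` has a vertex of degree
`> min g |B|`.  Then `S` has a Hamilton cycle.
Proof: take `G'` from `closure`.  Let `B = {z ∈ S \ F | ∃ y ∈ F, ¬ G'.Adj z y}`.  If `B ≠ ∅` take `z ∈ B`
from `hB` and `y ∈ F` not `G'`-adjacent to `z`; the `G'`-non-neighbours of `y` in `S \ {y}` lie in `B`
and are at most `g`, so `deg' y ≥ |S| - 1 - min g |B|` and `deg' z + deg' y ≥ |S|`: contradiction.
So `F` is complete to `S` in `G'`; two non-adjacent vertices would both lie in `S \ F` and have degree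
`≥ |F|` each.  Hence `Clq G' S`, and `Clq.cycIn` contradicts the choice of `G'`. -/
theorem fin (G : SimpleGraph V) {S F : Finset V} {g : ℕ} (h3 : 3 ≤ S.card) (hFS : F ⊆ S)
    (hF : Clq G F) (hhalf : S.card ≤ 2 * F.card)
    (hmiss : ∀ y ∈ F, S.card ≤ (nb G S y).card + 1 + g)
    (hB : ∀ B, B ⊆ S \ F → B.Nonempty → ∃ z ∈ B, min g B.card < (nb G S z).card) :
    CycIn G S S.card := by
  classical
  by_contra hno
  obtain ⟨G', hGG', hno', hcl⟩ := closure G S h3 hno
  have hmono : ∀ x, (nb G S x).card ≤ (nb G' S x).card := by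
    intro x
    apply Finset.card_le_card
    intro y hy
    rw [mem_nb] at hy ⊢
    exact ⟨hy.1, hGG' hy.2⟩
  set B : Finset V := (S \ F).filter (fun z => ∃ y ∈ F, ¬ G'.Adj z y) with hBdef
  have hBsub : B ⊆ S \ F := Finset.filter_subset _ _
  have hBe : B = ∅ := by
    by_contra hne
    obtain ⟨z, hzB, hz⟩ := hB B hBsub (Finset.nonempty_iff_ne_empty.2 hne)
    have hzB' := Finset.mem_filter.1 hzB
    obtain ⟨y, hyF, hzy⟩ := hzB'.2
    have hzS : z ∈ S := (Finset.mem_sdiff.1 hzB'.1).1
    have hzF : z ∉ F := (Finset.mem_sdiff.1 hzB'.1).2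
    have hne' : z ≠ y := fun e => hzF (e ▸ hyF)
    have h1 := hcl z hzS y (hFS hyF) hne' hzy
    have h2 : S.card ≤ (nb G' S y).card + 1 + B.card := by
      have hsub : S ⊆ (nb G' S y ∪ {y}) ∪ B := by
        intro x hx
        simp only [Finset.mem_union, mem_nb, Finset.mem_singleton]
        by_cases hxy : x = y
        · exact Or.inl (Or.inr hxy)
        by_cases hadj : G'.Adj y x
        · exact Or.inl (Or.inl ⟨hx, hadj⟩)
        right
        refine Finset.mem_filter.2 ⟨Finset.mem_sdiff.2 ⟨hx, ?_⟩, y, hyF, fun e => hadj e.symm⟩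
        intro hxF
        exact hadj (hGG' (hF y hyF x hxF (fun e => hxy e.symm)))
      calc S.card ≤ ((nb G' S y ∪ {y}) ∪ B).card := Finset.card_le_card hsub
        _ ≤ (nb G' S y ∪ {y}).card + B.card := Finset.card_union_le _ _
        _ ≤ (nb G' S y).card + ({y} : Finset V).card + B.card := by
            have := Finset.card_union_le (nb G' S y) {y}
            omega
        _ = _ := by rw [Finset.card_singleton]
    have h3' := hmiss y hyF
    have h4 := hmono y
    have h5 := hmono z
    omega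
  have hcomp : ∀ z ∈ S, z ∉ F → ∀ y ∈ F, G'.Adj z y := by
    intro z hz hzF y hy
    by_contra hna
    have : z ∈ B := Finset.mem_filter.2 ⟨Finset.mem_sdiff.2 ⟨hz, hzF⟩, y, hy, hna⟩
    rw [hBe] at this
    exact Finset.notMem_empty _ this
  have hdegF : ∀ z ∈ S, z ∉ F → F.card ≤ (nb G' S z).card := by
    intro z hz hzF
    apply Finset.card_le_card
    intro y hy
    rw [mem_nb]
    exact ⟨hFS hy, hcomp z hz hzF y hy⟩
  have hclq : Clq G' S := by
    intro x hx y hy hxy
    by_cases hxF : x ∈ F
    · by_cases hyF : y ∈ F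
      · exact hGG' (hF x hxF y hyF hxy)
      · exact (hcomp y hy hyF x hxF).symm
    · by_cases hyF : y ∈ F
      · exact hcomp x hx hxF y hyF
      · by_contra hna
        have h1 := hcl x hx y hy hxy hna
        have h2 := hdegF x hx hxF
        have h3' := hdegF y hy hyF
        omega
  exact hno' (hclq.cycIn h3 le_rfl)

/-- **Selection.**  Drop `g` elements of smallest weight `d` (take `T₀ ⊆ U`, `|T₀| = g`, minimising
`∑ d`; an exchange shows `d t ≤ d z` for `t ∈ T₀`, `z ∈ U \ T₀`; put `Z' = U \ T₀`; a bad `B ⊆ Z'`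
gives the bad `T = T₀ ∪ B`, `i = |B|`). -/
theorem sel {U : Finset V} (d : V → ℕ) {g : ℕ} (hg : g ≤ U.card)
    (hno : ∀ T, T ⊆ U → ∀ i, 1 ≤ i → T.card = g + i → ∃ z ∈ T, min g i < d z) :
    ∃ Z', Z' ⊆ U ∧ Z'.card + g = U.card ∧
      ∀ B, B ⊆ Z' → B.Nonempty → ∃ z ∈ B, min g B.card < d z := by
  classical
  have hne : (U.powersetCard g).Nonempty := Finset.powersetCard_nonempty.2 hg
  obtain ⟨T0, hT0, hmin⟩ := Finset.exists_min_image (U.powersetCard g) (fun T => ∑ t ∈ T, d t) hne
  rw [Finset.mem_powersetCard] at hT0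
  have hex : ∀ t ∈ T0, ∀ z ∈ U, z ∉ T0 → d t ≤ d z := by
    intro t ht z hz hzT
    have hzT' : z ∉ T0.erase t := fun e => hzT (Finset.mem_of_mem_erase e)
    have hmem : insert z (T0.erase t) ∈ U.powersetCard g := by
      rw [Finset.mem_powersetCard]
      refine ⟨?_, ?_⟩
      · intro x hx
        rcases Finset.mem_insert.1 hx with rfl | hx
        · exact hz
        · exact hT0.1 (Finset.mem_of_mem_erase hx)
      · rw [Finset.card_insert_of_notMem hzT', Finset.card_erase_of_mem ht]
        have : 0 < T0.card := Finset.card_pos.2 ⟨t, ht⟩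
        omega
    have h1 := hmin _ hmem
    simp only [Finset.sum_insert hzT'] at h1
    have h2 := Finset.add_sum_erase T0 d ht
    omega
  refine ⟨U \ T0, Finset.sdiff_subset, ?_, ?_⟩
  · rw [Finset.card_sdiff_of_subset hT0.1]
    omega
  · intro B hB hBne
    have hdisj : Disjoint T0 B := by
      rw [Finset.disjoint_left]
      intro x hx hxB
      exact (Finset.mem_sdiff.1 (hB hxB)).2 hx
    have hsub : T0 ∪ B ⊆ U := Finset.union_subset hT0.1 (hB.trans Finset.sdiff_subset)
    have hcard : (T0 ∪ B).card = g + B.card := by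
      rw [Finset.card_union_of_disjoint hdisj, hT0.2]
    obtain ⟨z, hz, hlt⟩ := hno (T0 ∪ B) hsub B.card (Finset.card_pos.2 hBne) hcard
    rcases Finset.mem_union.1 hz with hz | hz
    · obtain ⟨b, hb⟩ := hBne
      have hb' := Finset.mem_sdiff.1 (hB hb)
      exact ⟨b, hb, lt_of_lt_of_le hlt (hex z hz b hb'.1 hb'.2)⟩
    · exact ⟨z, hz, hlt⟩

/-- **Double counting** of the edges between `F` and `T`: every `y ∈ F` has at least `i`
neighbours in `T`, every `z ∈ T` at most `μ` neighbours in `F`
(`Finset.sum_card_bipartiteAbove_eq_sum_card_bipartiteBelow` or `Finset.card_mul_le_card_mul`). -/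
theorem count (G : SimpleGraph V) {F T : Finset V} {i μ : ℕ}
    (hF : ∀ y ∈ F, i ≤ (nb G T y).card) (hT : ∀ z ∈ T, (nb G F z).card ≤ μ) :
    F.card * i ≤ T.card * μ := by
  classical
  refine Finset.card_mul_le_card_mul (fun y z => G.Adj y z) ?_ ?_
  · intro y hy
    refine (hF y hy).trans (Finset.card_le_card ?_)
    intro z hz
    rw [mem_nb] at hz
    exact (Finset.mem_bipartiteAbove _).2 hz
  · intro z hz
    refine le_trans (Finset.card_le_card ?_) (hT z hz)
    intro y hy
    rw [Finset.mem_bipartiteBelow] at hy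
    rw [mem_nb]
    exact ⟨hy.1, hy.2.symm⟩

end Crest.Agent.R54
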