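import Crest.Agent.R54.BFS
import Crest.Agent.R54.Crit

/-!
# Row 54: the independence numbers of BFS balls grow too fast
-/

namespace Crest.Agent.R54

open Finset

variable {V : Type*} [Fintype V] [DecidableEq V] {G : SimpleGraph V} {k : ℕ}

private theorem growth_max (S : Finset V) :
    ∃ I, I ⊆ S ∧ Indep G I ∧ ∀ J, J ⊆ S → Indep G J → J.card ≤ I.card := by
  classical
  obtain ⟨I, hI, hmax⟩ := Finset.exists_max_image (S.powerset.filter (Indep G)) Finset.card
    ⟨∅, by simp [Indep]⟩
  rw [Finset.mem_filter, Finset.mem_powerset] at hI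
  exact ⟨I, hI.1, hI.2, fun J hJ hJ' => hmax J (by simp [hJ, hJ'])⟩

private theorem growth_arith {c a b : ℕ} {d : ℕ} (h : c * b + d * c + 1 ≤ c * a) : b + d + 1 ≤ a := by
  by_contra hlt
  have : a ≤ b + d := by omega
  have := Nat.mul_le_mul_left c this
  rw [Nat.mul_add, Nat.mul_comm c d] at this
  omega

/-- Let `c = k / 2 ≥ 2`, `A j` = the largest size of an independent subset of `ball j` (`A 0 = 1`),
`b j = |ball j|`, `σ = 1` if `k` is even and `0` otherwise.
(1) `b (j+1) ≥ k A j + 1` (`Hyp.expand`; `cnb I ⊆ ball (j+1)`).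
(2) `A (j+2) ≥ A j + |J|` for independent `J ⊆ level (j+2)` (`level_far`); `A 1 ≥ |J|` for `J ⊆ level 1`.
(3) By induction for `1 ≤ j ≤ c`: `c (A j + A (j-1)) ≥ c + (b j - 1) + σ` (`Col.indep`, `card_ball_succ`,
`level_one`; `hstrict` at `j = 1`).
Even `k = 2c`: `c A j ≥ c A (j-1) + c + 1`, so `A j ≥ A (j-1) + 2`, `A c ≥ 2c + 1 > k`.
Odd `k = 2c + 1`: `c A j ≥ c + (c+1) A (j-1)`, so `A j ≥ A (j-1) + 2`, `A (c-1) ≥ 2c - 1 ≥ c + 1`, and
`A c ≥ A (c-1) + 3 ≥ 2c + 2 > k`.  Contradiction with `Hyp.alpha`. -/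
theorem Hyp.growth (H : Hyp G k) (h4 : 4 ≤ k) (v : V)
    (hcol : ∀ i, 1 ≤ i → i ≤ k / 2 → Col G (level G v i) (k / 2))
    (hstrict : k % 2 = 0 →
      ∃ I, I ⊆ nb G univ v ∧ Indep G I ∧ (nb G univ v).card + 1 ≤ k / 2 * I.card) : False := by
  choose I hIs hIi hImax using fun j => growth_max (G := G) (ball G v j)
  set c := k / 2 with hc
  have hv : ∀ j, v ∈ ball G v j := fun j => ball_mono (Nat.zero_le j) (by simp [ball])
  have hA1 : ∀ j, 1 ≤ (I j).card := fun j => by
    simpa using hImax j {v} (by simpa using hv j) (by simp [Indep])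
  have hb0 : (ball G v 0).card = 1 := by simp [ball]
  have h1 : ∀ j, k * (I j).card + 1 ≤ (ball G v (j + 1)).card := fun j => by
    refine (H.expand _ (hIi j) (Finset.card_pos.1 (hA1 j))).trans (Finset.card_le_card ?_)
    intro x hx
    change x ∈ cnb G (ball G v j)
    rw [mem_cnb] at hx ⊢
    rcases hx with hx | ⟨y, hy, hx⟩
    · exact Or.inl (hIs j hx)
    · exact Or.inr ⟨y, hIs j hy, hx⟩
  have h2 : ∀ j J, J ⊆ level G v (j + 2) → Indep G J → (I j).card + J.card ≤ (I (j + 2)).card := by
    intro j J hJ hJi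
    have hd : Disjoint (I j) J := Finset.disjoint_left.2 fun x hx hx' =>
      (level_far (hIs j hx) (hJ hx')).1 rfl
    rw [← Finset.card_union_of_disjoint hd]
    refine hImax _ _ (Finset.union_subset ((hIs j).trans (ball_mono (by omega)))
      (hJ.trans (level_subset _))) ?_
    intro x hx y hy
    rw [Finset.mem_union] at hx hy
    rcases hx with hx | hx <;> rcases hy with hy | hy
    · exact hIi j x hx y hy
    · exact (level_far (hIs j hx) (hJ hy)).2
    · exact fun h => (level_far (hIs j hy) (hJ hx)).2 h.symm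
    · exact hJi x hx y hy
  have h3 : ∀ j, j + 1 ≤ c →
      c + (ball G v (j + 1)).card + (1 - k % 2) ≤ c * (I (j + 1)).card + c * (I j).card + 1 := by
    intro j
    induction j with
    | zero =>
      intro hj
      have hc0 : c ≤ c * (I 0).card := Nat.le_mul_of_pos_right _ (hA1 0)
      have hb := card_ball_succ (G := G) (v := v) 0
      rw [hb0] at hb
      simp only [zero_add] at hb ⊢
      rcases Nat.mod_two_eq_zero_or_one k with hk | hk
      · obtain ⟨J, hJ, hJi, hJc⟩ := hstrict hk
        rw [← level_one] at hJ hJc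
        have := Nat.mul_le_mul_left c (hImax 1 J (hJ.trans (level_subset _)) hJi)
        omega
      · obtain ⟨J, hJ, hJi, hJc⟩ := (hcol 1 le_rfl hj).indep
        have := Nat.mul_le_mul_left c (hImax 1 J (hJ.trans (level_subset _)) hJi)
        omega
    | succ j ih =>
      intro hj
      have ih' := ih (by omega)
      obtain ⟨J, hJ, hJi, hJc⟩ := (hcol (j + 2) (by omega) hj).indep
      have h5 := Nat.mul_le_mul_left c (h2 j J hJ hJi)
      rw [Nat.mul_add] at h5
      have hb := card_ball_succ (G := G) (v := v) (j + 1)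
      simp only [add_assoc, one_add_one_eq_two] at hb ⊢
      omega
  have h4' : ∀ j, j + 1 ≤ c →
      c + k * (I j).card + (1 - k % 2) ≤ c * (I (j + 1)).card + c * (I j).card := fun j hj => by
    have := h3 j hj
    have := h1 j
    omega
  have hk : k = 2 * c + k % 2 := by omega
  have h5 : ∀ j, j + 1 ≤ c →
      c * (I j).card + 1 * c + (k % 2 * (I j).card + (1 - k % 2)) ≤ c * (I (j + 1)).card := by
    intro j hj
    have := h4' j hj
    have e : k * (I j).card = c * (I j).card + c * (I j).card + k % 2 * (I j).card := by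
      conv_lhs => rw [hk]
      ring
    omega
  have h6 : ∀ j, j + 1 ≤ c → (I j).card + 2 ≤ (I (j + 1)).card := by
    intro j hj
    have h8 := h5 j hj
    have := hA1 j
    refine growth_arith (c := c) (d := 1) ?_
    rcases Nat.mod_two_eq_zero_or_one k with hk2 | hk2 <;> rw [hk2] at h8 <;> omega
  have h7 : ∀ j, j ≤ c → 2 * j + 1 ≤ (I j).card := by
    intro j
    induction j with
    | zero => intro _; simpa using hA1 0
    | succ j ih =>
      intro hj
      have := ih (by omega)
      have := h6 j hj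
      omega
  have hα := H.alpha _ (hIi c)
  rcases Nat.mod_two_eq_zero_or_one k with hk2 | hk2
  · have := h7 c le_rfl
    omega
  · obtain ⟨j, hj⟩ : ∃ j, c = j + 1 := ⟨c - 1, by omega⟩
    have h8 := h5 j (by omega)
    have h9 := h7 j (by omega)
    rw [hk2] at h8
    have : (I j).card + 2 + 1 ≤ (I (j + 1)).card := growth_arith (c := c) (d := 2) (by omega)
    rw [← hj] at this
    omega

end Crest.Agent.R54
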