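import Crest.Agent.R54.Basic

/-!
# Row 54: independent sets hanging off `Z`, and cores of size `k`
-/

namespace Crest.Agent.R54

open Finset

variable {V : Type*} [Fintype V] [DecidableEq V] {G : SimpleGraph V} {Q : Finset V} {e hi k : ℕ}

/-- **No short connection outside `Z`.**  A path `w 0, …, w t` outside `Z` from a neighbour of `u` to a
neighbour of `u'`, with the two routes of the link, forms an ear (reverse the route of `u`,
`IsPath.append_edge` twice) of length `≤ ρ + t + 2 ≤ hi`.  If its length is `≤ e` then `w 0 ∈ Z`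
(`mem_Zs`), otherwise `NoEar` is violated. -/
theorem no_short (hno : NoEar G Q (e + 1) hi) {u u' : V} {ρ t : ℕ}
    (hl : Link G Q (Zs G Q e) u u' ρ) {w : ℕ → V} (hw : IsPath G w t)
    (hout : ∀ i, i ≤ t → w i ∉ Zs G Q e) (h0 : G.Adj u (w 0)) (h1 : G.Adj (w t) u')
    (hlen : ρ + t + 2 ≤ hi) : False := by
  obtain ⟨p, r, p', r', ⟨hp, hp0, hpQ, hpn, hpZ⟩, ⟨hp', hp0', hpQ', hpn', hpZ'⟩, hρ, hd⟩ := hl
  have h2 := hp.rev.append_edge hw (by simpa [hp0] using h0)
    (fun i j _ hj e => hout j hj (e ▸ hpZ _ (Nat.sub_le _ _)))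
  have h3 := h2.append_edge hp' (by
      show G.Adj (if r + t + 1 ≤ r then p (r - (r + t + 1)) else w (r + t + 1 - r - 1)) (p' 0)
      rw [if_neg (by omega), show r + t + 1 - r - 1 = t by omega, hp0']
      exact h1)
    (fun i j hi hj e => by
      split_ifs at e with h
      · exact hd _ _ (Nat.sub_le _ _) hj e
      · exact hout _ (by omega) (e ▸ hpZ' j hj))
  have hear : IsEar G Q (fun i => if i ≤ r + t + 1 then (if i ≤ r then p (r - i) else w (i - r - 1))
      else p' (i - (r + t + 1) - 1)) (r + t + 1 + r' + 1) := by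
    refine ⟨h3, by omega, by simpa using hpQ, ?_, fun i hi hi' => ?_⟩
    · show (if r + t + 1 + r' + 1 ≤ r + t + 1 then _ else
        p' (r + t + 1 + r' + 1 - (r + t + 1) - 1)) ∈ Q
      rw [if_neg (by omega), show r + t + 1 + r' + 1 - (r + t + 1) - 1 = r' by omega]
      exact hpQ'
    · simp only
      split_ifs with h h'
      · exact hpn _ (by omega)
      · exact fun hq => hout _ (by omega) (subset_Zs Q e hq)
      · exact hpn' _ (by omega)
  by_cases hle : r + t + 1 + r' + 1 ≤ e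
  · refine hout 0 (Nat.zero_le _) (mem_Zs.2 (Or.inr ⟨_, _, r + 1, hear, hle, by omega, ?_⟩))
    show (if r + 1 ≤ r + t + 1 then (if r + 1 ≤ r then p (r - (r + 1)) else w (r + 1 - r - 1))
      else p' (r + 1 - (r + t + 1) - 1)) = w 0
    rw [if_pos (by omega), if_neg (by omega), show r + 1 - r - 1 = 0 by omega]
  · exact hno _ _ hear (by omega) (by omega)

/-- no path of length at most `T` outside `A` joins a neighbour of `u` to a neighbour of `u'` -/
private def NP (G : SimpleGraph V) (A : Finset V) (u u' : V) (T : ℕ) : Prop :=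
  ∀ t w, t ≤ T → IsPath G w t → (∀ i, i ≤ t → w i ∉ A) → G.Adj u (w 0) → G.Adj (w t) u' → False

section NP
variable {A : Finset V} {u u' x y z v : V} {T : ℕ}

omit [Fintype V] [DecidableEq V] in
private theorem NP.zero (h : NP G A u u' T) (hx : x ∉ A) (h0 : G.Adj u x) (h1 : G.Adj x u') :
    False :=
  h 0 (fun _ => x) (Nat.zero_le _) (isPath_zero _) (fun _ _ => hx) h0 h1

omit [Fintype V] [DecidableEq V] in
private theorem NP.one (h : NP G A u u' T) (hT : 1 ≤ T) (hx : x ∉ A) (hy : y ∉ A) (h0 : G.Adj u x)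
    (h1 : G.Adj x y) (h2 : G.Adj y u') : False := by
  refine h 1 _ hT ((isPath_zero fun _ => y).cons h1 fun _ _ => h1.ne) (fun i _ => ?_) h0 h2
  split_ifs <;> assumption

omit [Fintype V] [DecidableEq V] in
private theorem NP.two (h : NP G A u u' T) (hT : 2 ≤ T) (hx : x ∉ A) (hy : y ∉ A) (hz : z ∉ A)
    (h0 : G.Adj u x) (h1 : G.Adj x y) (h2 : G.Adj y z) (h3 : G.Adj z u') : False := by
  have hxz : x ≠ z := fun e => h.zero hx h0 (e ▸ h3)
  refine h 2 _ hT (((isPath_zero fun _ => z).cons h2 fun _ _ => h2.ne).cons h1 fun j _ => ?_)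
    (fun i _ => ?_) h0 h3
  · split_ifs
    · exact h1.ne
    · exact hxz
  · split_ifs <;> assumption

omit [Fintype V] [DecidableEq V] in
private theorem NP.three (h : NP G A u u' T) (hT : 3 ≤ T) (hx : x ∉ A) (hy : y ∉ A) (hz : z ∉ A)
    (hv : v ∉ A) (h0 : G.Adj u x) (h1 : G.Adj x y) (h2 : G.Adj y z) (h3 : G.Adj z v)
    (h4 : G.Adj v u') : False := by
  have hxv : x ≠ v := fun e => h.zero hx h0 (e ▸ h4)
  have hxz : x ≠ z := fun e => h.one (by omega) hx hv h0 (e ▸ h3) h4
  have hyv : y ≠ v := fun e => h.one (by omega) hx hy h0 h1 (e ▸ h4)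
  refine h 3 _ hT ((((isPath_zero fun _ => v).cons h3 fun _ _ => h3.ne).cons h2 fun j _ => ?_).cons
    h1 fun j _ => ?_) (fun i _ => ?_) h0 h4
  · split_ifs
    · exact h2.ne
    · exact hyv
  · split_ifs
    · exact h1.ne
    · exact hxz
    · exact hxv
  · split_ifs <;> assumption

/-- the neighbours of `w` outside `A`, if `u` is the only one inside -/
private theorem card_out (H : Hyp G k) {w : V} (h : ∀ z ∈ A, G.Adj w z → z = u) :
    k ≤ (insert w (nb G univ w \ A)).card := by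
  have h1 : nb G univ w ⊆ insert u (nb G univ w \ A) := by
    intro z hz
    by_cases hzA : z ∈ A
    · exact mem_insert.2 (Or.inl (h z hzA (mem_nb.1 hz).2))
    · exact mem_insert_of_mem (mem_sdiff.2 ⟨hz, hzA⟩)
  have h2 := (H.deg w).trans ((card_le_card h1).trans (card_insert_le _ _))
  rwa [card_insert_of_notMem (by simp)]

end NP

/-- **Hanging independent set.**  For `u ∈ Z₀` choose a neighbour `w u ∉ Z`.  By `no_short` (`t = 0`) `u` is
the only neighbour of `w u` in `Z` (any other one is in `Z₀`), so `N' u = nb univ (w u) \ Z` has `≥ k - 1`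
elements; `insert (w u) (N' u)` is not a clique (`hK`), so `N' u` contains distinct non-adjacent `a u`, `b u`.
Put `J u = {w u}` if `ω u = 1` and `{a u, b u}` if `ω u = 2`.  For `u ≠ u'` the sets `J u`, `J u'` are disjoint
and have no edges between them (`no_short` with the paths `w`; `w w'`; `w a w'`; `w a a' w'`, whose
number of vertices `t + 1` is at most `ω u + ω u'`; check distinctness using the shorter cases).  Vertices of
`I ⊆ Z \ Z₀` have no neighbours outside `Z`.  So `I ∪ ⋃ J u` is independent: `Hyp.alpha`. -/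
theorem hang (H : Hyp G k) (hno : NoEar G Q (e + 1) hi) (hK : ∀ K, Clq G K → K.card < k)
    (ω : V → ℕ) (hω : ∀ u ∈ Z0 G Q e, ω u = 1 ∨ ω u = 2)
    (hl : ∀ u ∈ Z0 G Q e, ∀ u' ∈ Z0 G Q e, u ≠ u' →
      ∃ ρ, Link G Q (Zs G Q e) u u' ρ ∧ ρ + ω u + ω u' + 1 ≤ hi)
    {I : Finset V} (hI : I ⊆ Zs G Q e \ Z0 G Q e) (hind : Indep G I) :
    ∑ u ∈ Z0 G Q e, ω u + I.card ≤ k := by
  have hNP : ∀ u ∈ Z0 G Q e, ∀ u' ∈ Z0 G Q e, u ≠ u' →
      NP G (Zs G Q e) u u' (ω u + ω u' - 1) := by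
    intro u hu u' hu' hne t w ht hw hout h0 h1
    obtain ⟨ρ, hlk, hρ⟩ := hl u hu u' hu' hne
    have := hω u hu
    exact no_short hno hlk hw hout h0 h1 (by omega)
  have hJ : ∀ u, ∃ J : Finset V, u ∈ Z0 G Q e → J.card = ω u ∧ Indep G J ∧
      ∀ x ∈ J, x ∉ Zs G Q e ∧
        (G.Adj u x ∨ (ω u = 2 ∧ ∃ w, w ∉ Zs G Q e ∧ G.Adj u w ∧ G.Adj w x)) := by
    intro u
    by_cases hu : u ∈ Z0 G Q e
    swap
    · exact ⟨∅, fun h => absurd h hu⟩
    obtain ⟨-, w, hw, huw⟩ := mem_Z0.1 hu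
    rcases hω u hu with h1 | h2
    · refine ⟨{w}, fun _ => ⟨by simp [h1], ?_, ?_⟩⟩
      · intro x hx y hy
        rw [mem_singleton.1 hx, mem_singleton.1 hy]
        exact G.irrefl
      · intro x hx
        rw [mem_singleton.1 hx]
        exact ⟨hw, Or.inl huw⟩
    · have hc := card_out H (A := Zs G Q e) (u := u) (w := w) fun z hz hwz => by
        by_contra hne
        exact (hNP u hu z (mem_Z0.2 ⟨hz, w, hw, hwz.symm⟩) (Ne.symm hne)).zero hw huw hwz
      have hnc : ¬ Clq G (insert w (nb G univ w \ Zs G Q e)) := fun h => by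
        have := hK _ h
        omega
      unfold Clq at hnc
      push Not at hnc
      obtain ⟨a, ha, b, hb, hab, hn⟩ := hnc
      have ha' : a ∈ nb G univ w \ Zs G Q e := by
        rcases mem_insert.1 ha with rfl | ha
        · rcases mem_insert.1 hb with rfl | hb
          · exact absurd rfl hab
          · exact absurd (mem_nb.1 (mem_sdiff.1 hb).1).2 hn
        · exact ha
      have hb' : b ∈ nb G univ w \ Zs G Q e := by
        rcases mem_insert.1 hb with rfl | hb
        · exact absurd (mem_nb.1 (mem_sdiff.1 ha').1).2.symm hn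
        · exact hb
      refine ⟨{a, b}, fun _ => ⟨by rw [card_pair hab, h2], ?_, ?_⟩⟩
      · intro x hx y hy
        rw [mem_insert, mem_singleton] at hx hy
        rcases hx with rfl | rfl <;> rcases hy with rfl | rfl
        · exact G.irrefl
        · exact hn
        · exact fun h => hn h.symm
        · exact G.irrefl
      · intro x hx
        have hx' : x ∈ nb G univ w \ Zs G Q e := by
          rcases mem_insert.1 hx with rfl | hx
          · exact ha'
          · rw [mem_singleton.1 hx]; exact hb'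
        exact ⟨(mem_sdiff.1 hx').2, Or.inr ⟨h2, w, hw, huw, (mem_nb.1 (mem_sdiff.1 hx').1).2⟩⟩
  choose J hJ using hJ
  have hsep : ∀ u ∈ Z0 G Q e, ∀ u' ∈ Z0 G Q e, u ≠ u' → ∀ x ∈ J u, ∀ y ∈ J u',
      x ≠ y ∧ ¬ G.Adj x y := by
    intro u hu u' hu' hne x hx y hy
    have hn := hNP u hu u' hu' hne
    have o1 := hω u hu
    have o2 := hω u' hu'
    obtain ⟨hxZ, hx'⟩ := (hJ u hu).2.2 x hx
    obtain ⟨hyZ, hy'⟩ := (hJ u' hu').2.2 y hy
    rcases hx' with hx' | ⟨e1, w, hw, huw, hwx⟩ <;> rcases hy' with hy' | ⟨e2, w', hw', huw', hwy⟩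
    · exact ⟨fun e => hn.zero hxZ hx' (e ▸ hy'.symm),
        fun h => hn.one (by omega) hxZ hyZ hx' h hy'.symm⟩
    · exact ⟨fun e => hn.one (by omega) hxZ hw' hx' (e ▸ hwy.symm) huw'.symm,
        fun h => hn.two (by omega) hxZ hyZ hw' hx' h hwy.symm huw'.symm⟩
    · exact ⟨fun e => hn.one (by omega) hw hxZ huw hwx (e ▸ hy'.symm),
        fun h => hn.two (by omega) hw hxZ hyZ huw hwx h hy'.symm⟩
    · exact ⟨fun e => hn.two (by omega) hw hxZ hw' huw hwx (e ▸ hwy.symm) huw'.symm,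
        fun h => hn.three (by omega) hw hxZ hyZ hw' huw hwx h hwy.symm huw'.symm⟩
  have hIJ : ∀ x ∈ I, ∀ y ∈ (Z0 G Q e).biUnion J, x ≠ y ∧ ¬ G.Adj x y := by
    intro x hx y hy
    obtain ⟨u, hu, hy⟩ := mem_biUnion.1 hy
    obtain ⟨hxZ, hx0⟩ := mem_sdiff.1 (hI hx)
    have hyZ := ((hJ u hu).2.2 y hy).1
    exact ⟨fun e => hyZ (e ▸ hxZ), fun h => hx0 (mem_Z0.2 ⟨hxZ, y, hyZ, h⟩)⟩
  have hall : Indep G ((Z0 G Q e).biUnion J ∪ I) := by
    intro x hx y hy
    rcases mem_union.1 hx with hx | hx <;> rcases mem_union.1 hy with hy | hy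
    · obtain ⟨u, hu, hx⟩ := mem_biUnion.1 hx
      obtain ⟨u', hu', hy⟩ := mem_biUnion.1 hy
      by_cases huu : u = u'
      · subst huu
        exact (hJ u hu).2.1 x hx y hy
      · exact (hsep u hu u' hu' huu x hx y hy).2
    · exact fun h => (hIJ y hy x hx).2 h.symm
    · exact (hIJ x hx y hy).2
    · exact hind x hx y hy
  have hcard := H.alpha _ hall
  rwa [card_union_of_disjoint (disjoint_left.2 fun y hy hyI => (hIJ y hyI y hy).1 rfl),
    card_biUnion (fun u hu u' hu' hne => disjoint_left.2 fun x hx hx' =>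
      (hsep u hu u' hu' hne x hx x hx').1 rfl),
    sum_congr rfl fun u hu => (hJ u hu).1] at hcard

/-- **Cores of size `k`.**  Every `x ∈ Q` has a neighbour `w x ∉ Q` (`Hyp.deg`).  No ears of length 2, 3, 4:
`x` is the only neighbour of `w x` in `Q`, so `A x = insert (w x) (nb univ (w x) \ Q)` has `≥ k` elements,
all outside `Q`, and the `A x` are pairwise disjoint.  Hence `k + k * k ≤ |V| ≤ k * k + 1`. -/
theorem e1 (H : Hyp G k) (hq : Q.card = k) (hno : NoEar G Q 2 4) : False := by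
  have hZ : Zs G Q 1 = Q := by
    refine subset_antisymm (fun v hv => ?_) (subset_Zs Q 1)
    rcases mem_Zs.1 hv with h | ⟨p, l, i, hp, hl, -⟩
    · exact h
    · have := hp.2.1
      omega
  have hNP : ∀ u ∈ Q, ∀ u' ∈ Q, u ≠ u' → NP G Q u u' 2 := by
    intro u hu u' hu' hne t w ht hw hout h0 h1
    refine no_short (e := 1) (ρ := 0) hno ⟨fun _ => u, 0, fun _ => u', 0,
      ⟨isPath_zero _, rfl, hu, fun i hi => absurd hi (Nat.not_lt_zero i),
        fun _ _ => subset_Zs Q 1 hu⟩,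
      ⟨isPath_zero _, rfl, hu', fun i hi => absurd hi (Nat.not_lt_zero i),
        fun _ _ => subset_Zs Q 1 hu'⟩, le_rfl, fun _ _ _ _ => hne⟩ hw (by rwa [hZ]) h0 h1 (by omega)
  have hA : ∀ u, ∃ A : Finset V, u ∈ Q → k ≤ A.card ∧
      ∀ x ∈ A, x ∉ Q ∧ (G.Adj u x ∨ ∃ w, w ∉ Q ∧ G.Adj u w ∧ G.Adj w x) := by
    intro u
    by_cases hu : u ∈ Q
    swap
    · exact ⟨∅, fun h => absurd h hu⟩
    obtain ⟨w, huw, hw⟩ : ∃ w, G.Adj u w ∧ w ∉ Q := by
      by_contra hcon
      push Not at hcon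
      have h1 : nb G univ u ⊆ Q.erase u := fun z hz =>
        mem_erase.2 ⟨(mem_nb.1 hz).2.ne', hcon z (mem_nb.1 hz).2⟩
      have h2 := (H.deg u).trans (card_le_card h1)
      rw [card_erase_of_mem hu] at h2
      have := H.three
      omega
    refine ⟨insert w (nb G univ w \ Q), fun _ => ⟨card_out H (u := u) fun z hz hwz => ?_, ?_⟩⟩
    · by_contra hne
      exact (hNP u hu z hz (Ne.symm hne)).zero hw huw hwz
    · intro x hx
      rcases mem_insert.1 hx with rfl | hx
      · exact ⟨hw, Or.inl huw⟩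
      · exact ⟨(mem_sdiff.1 hx).2, Or.inr ⟨w, hw, huw, (mem_nb.1 (mem_sdiff.1 hx).1).2⟩⟩
  choose A hA using hA
  have hdis : ∀ u ∈ Q, ∀ u' ∈ Q, u ≠ u' → Disjoint (A u) (A u') := by
    intro u hu u' hu' hne
    refine disjoint_left.2 fun x hx hy => ?_
    have hn := hNP u hu u' hu' hne
    obtain ⟨hxQ, hx'⟩ := (hA u hu).2 x hx
    obtain ⟨-, hy'⟩ := (hA u' hu').2 x hy
    rcases hx' with hx' | ⟨w, hw, huw, hwx⟩ <;> rcases hy' with hy' | ⟨w', hw', huw', hwy⟩
    · exact hn.zero hxQ hx' hy'.symm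
    · exact hn.one (by omega) hxQ hw' hx' hwy.symm huw'.symm
    · exact hn.one (by omega) hw hxQ huw hwx hy'.symm
    · exact hn.two le_rfl hw hxQ hw' huw hwx hwy.symm huw'.symm
  have h1 : (Q.biUnion A ∪ Q).card ≤ k * k + 1 := (card_le_univ _).trans H.card
  rw [card_union_of_disjoint (disjoint_left.2 fun y hy hyQ => by
      obtain ⟨u, hu, hy⟩ := mem_biUnion.1 hy
      exact ((hA u hu).2 y hy).1 hyQ), card_biUnion hdis] at h1
  have h2 : Q.card * k ≤ ∑ u ∈ Q, (A u).card := by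
    rw [← smul_eq_mul]
    exact card_nsmul_le_sum _ _ _ fun u hu => (hA u hu).1
  rw [hq] at h1 h2
  have := H.three
  omega

end Crest.Agent.R54
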