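import Crest.Agent.R54.Basic

/-!
# Row 54: Williamson's theorem (minimum degree `≥ (n+2)/2` implies panconnected)
-/

namespace Crest.Agent.R54

open Finset

variable {V : Type*} [DecidableEq V] {G : SimpleGraph V}

/-- any two vertices of `Q` have at least two common neighbours in `Q`. -/
theorem will_common {Q : Finset V} (hδ : ∀ x ∈ Q, Q.card + 2 ≤ 2 * (nb G Q x).card)
    {x y : V} (hx : x ∈ Q) (hy : y ∈ Q) : 2 ≤ (nb G Q x ∩ nb G Q y).card := by
  have h1 := card_union_add_card_inter (nb G Q x) (nb G Q y)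
  have h2 : (nb G Q x ∪ nb G Q y).card ≤ Q.card :=
    card_le_card fun z hz => by
      rcases mem_union.1 hz with h | h <;> exact (mem_nb.1 h).1
  have := hδ x hx
  have := hδ y hy
  omega

private theorem will_ins1 {Q : Finset V} {p : ℕ → V} {l : ℕ} (hp : IsPath G p l)
    (hQ : ∀ i, i ≤ l → p i ∈ Q) {w : V} (hwQ : w ∈ Q) (hw : ∀ i, i ≤ l → p i ≠ w) {i j : ℕ}
    (hij : i < j) (hj : j < l) (h1 : G.Adj w (p i)) (h2 : G.Adj w (p j))
    (h3 : G.Adj (p (i + 1)) (p (j + 1))) :
    ∃ q, IsPath G q (l + 1) ∧ q 0 = p 0 ∧ q (l + 1) = p l ∧ ∀ i, i ≤ l + 1 → q i ∈ Q := by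
  have A1 : ∀ a b, b = a + 1 → a < l → G.Adj (p a) (p b) := by
    rintro a b rfl h; exact hp.1 a h
  have A2 : ∀ a b, a = b + 1 → b < l → G.Adj (p a) (p b) := by
    rintro a b rfl h; exact (hp.1 b h).symm
  have A3 : ∀ a, a = i → G.Adj (p a) w := by rintro a rfl; exact h1.symm
  have A4 : ∀ a, a = j → G.Adj w (p a) := by rintro a rfl; exact h2
  have A5 : ∀ a b, a = i + 1 → b = j + 1 → G.Adj (p a) (p b) := by rintro a b rfl rfl; exact h3
  refine ⟨fun k => if k ≤ i then p k else if k = i + 1 then w else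
    if k ≤ j + 1 then p (i + j + 2 - k) else p (k - 1), ⟨fun k hk => ?_, fun a b ha hb => ?_⟩,
    by simp, ?_, fun k hk => ?_⟩
  · dsimp only
    split_ifs <;> first
      | omega
      | exact A1 _ _ (by omega) (by omega)
      | exact A2 _ _ (by omega) (by omega)
      | exact A3 _ (by omega)
      | exact A4 _ (by omega)
      | exact A5 _ _ (by omega) (by omega)
  · dsimp only
    split_ifs <;> intro h <;> first
      | omega
      | (have := hp.2 _ _ (by omega) (by omega) h; omega)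
      | exact absurd h (hw _ (by omega))
      | exact absurd h.symm (hw _ (by omega))
  · dsimp only
    rw [if_neg (by omega), if_neg (by omega), if_neg (by omega)]
    rfl
  · dsimp only
    split_ifs <;> first
      | exact hwQ
      | exact hQ _ (by omega)

private theorem will_ins2 {Q : Finset V} {p : ℕ → V} {l : ℕ} (hp : IsPath G p l)
    (hQ : ∀ i, i ≤ l → p i ∈ Q) {w w' : V} (hwQ : w ∈ Q) (hw : ∀ i, i ≤ l → p i ≠ w)
    (hwQ' : w' ∈ Q) (hw' : ∀ i, i ≤ l → p i ≠ w') {i : ℕ} (hi : i + 2 ≤ l)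
    (h1 : G.Adj (p i) w) (h2 : G.Adj w w') (h3 : G.Adj (p (i + 2)) w') :
    ∃ q, IsPath G q (l + 1) ∧ q 0 = p 0 ∧ q (l + 1) = p l ∧ ∀ i, i ≤ l + 1 → q i ∈ Q := by
  have A1 : ∀ a b, b = a + 1 → a < l → G.Adj (p a) (p b) := by
    rintro a b rfl h; exact hp.1 a h
  have A3 : ∀ a, a = i → G.Adj (p a) w := by rintro a rfl; exact h1
  have A4 : ∀ a, a = i + 2 → G.Adj w' (p a) := by rintro a rfl; exact h3.symm
  refine ⟨fun k => if k ≤ i then p k else if k = i + 1 then w else
    if k = i + 2 then w' else p (k - 1), ⟨fun k hk => ?_, fun a b ha hb => ?_⟩,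
    by simp, ?_, fun k hk => ?_⟩
  · dsimp only
    split_ifs <;> first
      | omega
      | exact h2
      | exact A1 _ _ (by omega) (by omega)
      | exact A3 _ (by omega)
      | exact A4 _ (by omega)
  · dsimp only
    split_ifs <;> intro h <;> first
      | omega
      | exact absurd h h2.ne
      | exact absurd h h2.ne'
      | (have := hp.2 _ _ (by omega) (by omega) h; omega)
      | exact absurd h (hw _ (by omega))
      | exact absurd h.symm (hw _ (by omega))
      | exact absurd h (hw' _ (by omega))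
      | exact absurd h.symm (hw' _ (by omega))
  · dsimp only
    rw [if_neg (by omega), if_neg (by omega), if_neg (by omega)]
    rfl
  · dsimp only
    split_ifs <;> first
      | exact hwQ
      | exact hwQ'
      | exact hQ _ (by omega)

private theorem will_split (Q P : Finset V) (x : V) :
    (nb G Q x).card ≤ (nb G P x).card + (nb G (Q \ P) x).card := by
  refine le_trans (card_le_card fun z hz => ?_) (card_union_le _ _)
  obtain ⟨h1, h2⟩ := mem_nb.1 hz
  by_cases h : z ∈ P
  · exact mem_union_left _ (mem_nb.2 ⟨h, h2⟩)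
  · exact mem_union_right _ (mem_nb.2 ⟨mem_sdiff.2 ⟨h1, h⟩, h2⟩)

private theorem will_main {Q P : Finset V} (hδ : ∀ x ∈ Q, Q.card + 2 ≤ 2 * (nb G Q x).card)
    {p : ℕ → V} {l : ℕ} (hp : IsPath G p l) (hQ : ∀ i, i ≤ l → p i ∈ Q)
    (hno : ¬ ∃ q, IsPath G q (l + 1) ∧ q 0 = p 0 ∧ q (l + 1) = p l ∧ ∀ i, i ≤ l + 1 → q i ∈ Q)
    (hP : ∀ x, x ∈ P ↔ ∃ i, i ≤ l ∧ p i = x) (hR : (Q \ P).card + (l + 1) = Q.card) :
    (∀ i, i < l → (nb G (Q \ P) (p i)).Nonempty → (nb G (Q \ P) (p (i + 1))).Nonempty) ∧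
    ∀ i, i + 2 ≤ l → (nb G (Q \ P) (p i)).Nonempty →
      (nb G (Q \ P) (p (i + 2))).card < (nb G (Q \ P) (p (i + 1))).card := by
  classical
  have hout : ∀ w ∈ Q \ P, ∀ i, i ≤ l → p i ≠ w := fun w hw i hi h =>
    (mem_sdiff.1 hw).2 ((hP w).2 ⟨i, hi, h⟩)
  have K2 : ∀ i, i < l → ∀ w ∈ nb G (Q \ P) (p i),
      (Q \ P).card + 1 ≤ (nb G (Q \ P) w).card + (nb G (Q \ P) (p (i + 1))).card := by
    intro i hi w hw
    obtain ⟨hwR, hwi⟩ := mem_nb.1 hw
    have hwQ := (mem_sdiff.1 hwR).1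
    have hna : ∀ j, j < l → G.Adj w (p j) → ¬ G.Adj (p (i + 1)) (p (j + 1)) := by
      intro j hj h1 h2
      rcases lt_trichotomy i j with h | h | h
      · exact hno (will_ins1 hp hQ hwQ (hout w hwR) h hj hwi.symm h1 h2)
      · subst h
        exact G.irrefl h2
      · exact hno (will_ins1 hp hQ hwQ (hout w hwR) h hi h1 hwi.symm h2.symm)
    set A := (range l).filter fun j => G.Adj w (p j) with hA
    set B := (range (l + 1)).filter fun k => G.Adj (p (i + 1)) (p k) with hB
    have c1 : (nb G P w).card ≤ A.card + 1 := by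
      refine le_trans (card_le_card (t := insert (p l) (A.image p)) fun z hz => ?_)
        ((card_insert_le _ _).trans (Nat.succ_le_succ card_image_le))
      obtain ⟨h1, h2⟩ := mem_nb.1 hz
      obtain ⟨j, hj, rfl⟩ := (hP z).1 h1
      rcases hj.eq_or_lt with rfl | hj
      · exact mem_insert_self _ _
      · exact mem_insert_of_mem (mem_image_of_mem _ (mem_filter.2 ⟨mem_range.2 hj, h2⟩))
    have c2 : (nb G P (p (i + 1))).card ≤ B.card := by
      refine le_trans (card_le_card (t := B.image p) fun z hz => ?_) card_image_le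
      obtain ⟨h1, h2⟩ := mem_nb.1 hz
      obtain ⟨j, hj, rfl⟩ := (hP z).1 h1
      exact mem_image_of_mem _ (mem_filter.2 ⟨mem_range.2 (by omega), h2⟩)
    have c3 : A.card + B.card ≤ l + 1 := by
      rw [← card_image_of_injective A Nat.succ_injective, ← card_union_of_disjoint]
      · refine le_trans (card_le_card fun k hk => ?_) (card_range (l + 1)).le
        rcases mem_union.1 hk with h | h
        · obtain ⟨j, hj, rfl⟩ := mem_image.1 h
          exact mem_range.2 (Nat.succ_lt_succ (mem_range.1 (mem_filter.1 hj).1))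
        · exact (mem_filter.1 h).1
      · refine disjoint_left.2 fun k hk hk' => ?_
        obtain ⟨j, hj, rfl⟩ := mem_image.1 hk
        exact hna j (mem_range.1 (mem_filter.1 hj).1) (mem_filter.1 hj).2 (mem_filter.1 hk').2
    have d1 := hδ w hwQ
    have d2 := hδ _ (hQ (i + 1) hi)
    have s1 := will_split (G := G) Q P w
    have s2 := will_split (G := G) Q P (p (i + 1))
    omega
  refine ⟨fun i hi ⟨w, hw⟩ => ?_, fun i hi ⟨w, hw⟩ => ?_⟩
  · have h1 := K2 i hi w hw
    have h2 : (nb G (Q \ P) w).card ≤ (Q \ P).card := card_le_card fun z hz => (mem_nb.1 hz).1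
    exact card_pos.1 (by omega)
  · have h1 := K2 i (by omega) w hw
    obtain ⟨hwR, hwi⟩ := mem_nb.1 hw
    have h2 : (nb G (Q \ P) w).card + (nb G (Q \ P) (p (i + 2))).card ≤ (Q \ P).card := by
      rw [← card_union_of_disjoint]
      · refine card_le_card fun z hz => ?_
        rcases mem_union.1 hz with h | h <;> exact (mem_nb.1 h).1
      · refine disjoint_left.2 fun z hz hz' => ?_
        obtain ⟨hzR, h3⟩ := mem_nb.1 hz
        exact hno (will_ins2 hp hQ (mem_sdiff.1 hwR).1 (hout w hwR) (mem_sdiff.1 hzR).1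
          (hout z hzR) hi hwi h3 (mem_nb.1 hz').2)
    omega

/-- **Extension step** for `3 ≤ l ≤ |Q| - 2`.  Suppose there is no path of length `l + 1` in `Q` from
`p 0` to `p l`.  `P = image p (range (l+1))`, `R = Q \ P`, `r = |R| = |Q| - l - 1 ≥ 1`, `N i = nb G R (p i)`.
(2) for `w ∈ N i`, `i < l`, and `j < l` with `w ~ p j`: `¬ p (i+1) ~ p (j+1)` (for `i < j` the path
`p 0 … p i, w, p j, p (j-1), …, p (i+1), p (j+1), …, p l`; symmetric for `j < i`), hence
`|nb P w| + |nb P (p (i+1))| ≤ l + 2` and `|nb R w| + |N (i+1)| ≥ r + 1`.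
(3) `w ∈ N i`, `w' ∈ N (i+2)`, `w ≠ w'` are non-adjacent (path `… p i, w, w', p (i+2) …`), so
`|nb R w| + |N (i+2)| ≤ r`.  Hence `N i ≠ ∅ → N (i+1) ≠ ∅` and `|N (i+2)| < |N (i+1)|`.
Apply the same to the reversed path.  Some `N j` is nonempty (`will_common` for a vertex of `R` and
`p 0`), so all are; then `|N 2| < |N 1|` and (reversed, from `N 3 ≠ ∅`) `|N 1| < |N 2|`.
It is convenient to prove (2)+(3) once as a lemma about an arbitrary path and apply it to `IsPath.rev`. -/
theorem will_step {Q : Finset V} (hδ : ∀ x ∈ Q, Q.card + 2 ≤ 2 * (nb G Q x).card)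
    {p : ℕ → V} {l : ℕ} (hp : IsPath G p l) (hQ : ∀ i, i ≤ l → p i ∈ Q) (h3 : 3 ≤ l)
    (hl : l + 2 ≤ Q.card) :
    ∃ q, IsPath G q (l + 1) ∧ q 0 = p 0 ∧ q (l + 1) = p l ∧ ∀ i, i ≤ l + 1 → q i ∈ Q := by
  by_contra hno
  set P := (range (l + 1)).image p with hPdef
  have hP : ∀ x, x ∈ P ↔ ∃ i, i ≤ l ∧ p i = x := by
    intro x
    simp only [hPdef, mem_image, mem_range, Nat.lt_succ_iff]
  have hPc : P.card = l + 1 := by
    rw [hPdef, card_image_of_injOn, card_range]
    intro a ha b hb h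
    exact hp.2 a b (Nat.lt_succ_iff.1 (mem_range.1 ha)) (Nat.lt_succ_iff.1 (mem_range.1 hb)) h
  have hPQ : P ⊆ Q := fun x hx => by
    obtain ⟨i, hi, rfl⟩ := (hP x).1 hx
    exact hQ i hi
  have hRc : (Q \ P).card + (l + 1) = Q.card := by
    rw [← hPc, card_sdiff_add_card_eq_card hPQ]
  obtain ⟨F1, F2⟩ := will_main hδ hp hQ hno hP hRc
  have hP' : ∀ x, x ∈ P ↔ ∃ i, i ≤ l ∧ p (l - i) = x := by
    intro x
    rw [hP]
    constructor
    · rintro ⟨i, hi, rfl⟩
      exact ⟨l - i, by omega, by congr 1; omega⟩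
    · rintro ⟨i, _, rfl⟩
      exact ⟨l - i, by omega, rfl⟩
  have hno' : ¬ ∃ q, IsPath G q (l + 1) ∧ q 0 = p (l - 0) ∧ q (l + 1) = p (l - l) ∧
      ∀ i, i ≤ l + 1 → q i ∈ Q := by
    rintro ⟨q, hq, h0, h1, h2⟩
    refine hno ⟨_, hq.rev, ?_, ?_, fun i _ => h2 _ (by omega)⟩
    · simpa using h1
    · simpa using h0
  obtain ⟨B1, B2⟩ := will_main hδ hp.rev (fun i _ => hQ _ (by omega)) hno' hP' hRc
  have hsome : ∃ j, j ≤ l ∧ (nb G (Q \ P) (p j)).Nonempty := by
    obtain ⟨w, hw⟩ : (Q \ P).Nonempty := card_pos.1 (by omega)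
    have h2 := will_common hδ (mem_sdiff.1 hw).1 (hQ 0 (by omega))
    obtain ⟨z, hz⟩ : (nb G Q w ∩ nb G Q (p 0)).Nonempty := card_pos.1 (by omega)
    obtain ⟨hz1, hz2⟩ := mem_inter.1 hz
    by_cases hzP : z ∈ P
    · obtain ⟨j, hj, rfl⟩ := (hP z).1 hzP
      exact ⟨j, hj, w, mem_nb.2 ⟨hw, (mem_nb.1 hz1).2.symm⟩⟩
    · exact ⟨0, by omega, z, mem_nb.2 ⟨mem_sdiff.2 ⟨(mem_nb.1 hz1).1, hzP⟩, (mem_nb.1 hz2).2⟩⟩
  have h0 : (nb G (Q \ P) (p 0)).Nonempty := by
    obtain ⟨j, hj, hne⟩ := hsome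
    induction j with
    | zero => exact hne
    | succ j ih =>
      refine ih (by omega) ?_
      have := B1 (l - (j + 1)) (by omega) (by
        rwa [show l - (l - (j + 1)) = j + 1 by omega])
      rwa [show l - (l - (j + 1) + 1) = j by omega] at this
  have h3' := F1 2 (by omega) (F1 1 (by omega) (F1 0 (by omega) h0))
  have a1 := F2 0 (by omega) h0
  have a2 := B2 (l - 3) (by omega) (by rwa [show l - (l - 3) = 2 + 1 by omega])
  rw [show l - (l - 3 + 2) = 0 + 1 by omega, show l - (l - 3 + 1) = 0 + 2 by omega] at a2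
  omega

/-- length 2: a common neighbour; length 3: `x, w, w', y` with `w ∈ N(x) \ {y}` and `w' ≠ x` a common
neighbour of `w` and `y`; then `will_step`. -/
theorem williamson {Q : Finset V} (hδ : ∀ x ∈ Q, Q.card + 2 ≤ 2 * (nb G Q x).card) :
    Pan G Q 2 := by
  intro x hx y hy hxy l hl2 hl
  have h2 := will_common hδ hx hy
  obtain ⟨w, hw⟩ : (nb G Q x ∩ nb G Q y).Nonempty := card_pos.1 (by omega)
  obtain ⟨hwQ, hxw⟩ := mem_nb.1 (mem_inter.1 hw).1
  have hyw := (mem_nb.1 (mem_inter.1 hw).2).2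
  rcases hl2.eq_or_lt with rfl | hl3
  · refine ⟨fun k => if k = 0 then x else if k = 1 then w else y, ⟨fun k hk => ?_,
      fun a b ha hb => ?_⟩, by simp, by simp, fun k _ => ?_⟩
    · interval_cases k
      · simpa using hxw
      · simpa using hyw.symm
    · have := hxw.ne
      have := hyw.ne
      interval_cases a <;> interval_cases b <;> simp <;> tauto
    · dsimp only
      split_ifs <;> assumption
  · induction l, hl3 using Nat.le_induction with
    | base =>
      obtain ⟨w', hw', hne⟩ := exists_mem_ne (will_common hδ hwQ hy) x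
      obtain ⟨hwQ', hww⟩ := mem_nb.1 (mem_inter.1 hw').1
      have hyw' := (mem_nb.1 (mem_inter.1 hw').2).2
      refine ⟨fun k => if k = 0 then x else if k = 1 then w else if k = 2 then w' else y,
        ⟨fun k hk => ?_, fun a b ha hb => ?_⟩, by simp, by simp, fun k _ => ?_⟩
      · have hk' : k < 3 := hk
        interval_cases k
        · simpa using hxw
        · simpa using hww
        · simpa using hyw'.symm
      · have := hxw.ne
        have := hyw.ne
        have := hww.ne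
        have := hyw'.ne
        have ha' : a ≤ 3 := ha
        have hb' : b ≤ 3 := hb
        interval_cases a <;> interval_cases b <;> simp <;> tauto
      · dsimp only
        split_ifs <;> assumption
    | succ l hl3 ih =>
      obtain ⟨p, hp, h0, h1, hQ⟩ := ih (by omega) (by omega)
      obtain ⟨q, hq, g0, g1, gQ⟩ := will_step hδ hp hQ hl3 hl
      exact ⟨q, hq, g0.trans h0, g1.trans h1, gQ⟩

end Crest.Agent.R54
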