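import Crest.Agent.R54.Nbhd
import Crest.Agent.R54.BFS
import Crest.Agent.R54.AB2
import Crest.Agent.R54.Will

/-!
# Row 54: BFS levels up to depth `k / 2` are `k / 2`-colourable
-/

namespace Crest.Agent.R54

open Finset

variable {V : Type*} [Fintype V] [DecidableEq V] {G : SimpleGraph V} {k : ℕ}

/-- `c = k / 2`.  Let `T ⊆ level i` be critical (`exists_crit`), `|T| ≥ c + 1 ≥ 3`.  Let `h` be minimal
(`Nat.find`) such that `π^[h]` is constant on `T` (`iter_root`: `h ≤ i`); `h ≥ 1`.  If `h = 1`, `T ⊆ N(u)` for the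
common parent `u`: `nbhd_col`.  If `h ≥ 2` put `l = k + 1 - 2h ∈ [1, k - 3]`, `lab = π^[h-1]`; `tree_cycle` gives
`LInv G T lab l`.  `Crit.cyc`: a cycle of length `L`.  If `l + 1 ≤ L`, `ab` (`l ≤ 2` when `c = 2`, otherwise
`Crit.deg`): `a = b` makes `lab` constant on `T` (every vertex has a neighbour), `a ≠ b` makes `T` 2-colourable.
Otherwise `L = |T| ≤ l ≤ k - 3`, so `c + 1 ≤ k - 3`, `k ≥ 7`; `|T| ≤ c + 2`: `Crit.small` and `noClique`;
`|T| ≥ c + 3`: `c ≥ 5`, `williamson` (`|T| + 2 ≤ k - 1 ≤ 2c`) and `noPan`. -/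
theorem Hyp.level_col (H : Hyp G k) (h4 : 4 ≤ k) (v : V) {i : ℕ} (h1 : 1 ≤ i) (hi : i ≤ k / 2) :
    Col G (level G v i) (k / 2) := by
  classical
  by_contra hn
  obtain ⟨T, hTL, hT⟩ := exists_crit hn
  have hc2 : 2 ≤ k / 2 := by omega
  have hcard := hT.card_ge
  obtain ⟨π, hπ⟩ := exists_parent (G := G) (v := v)
  have hex : ∃ h, ∀ x ∈ T, ∀ y ∈ T, π^[h] x = π^[h] y :=
    ⟨i, fun x hx y hy => by rw [iter_root hπ (hTL hx), iter_root hπ (hTL hy)]⟩
  have hspec := Nat.find_spec hex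
  have hle : Nat.find hex ≤ i :=
    Nat.find_min' hex fun x hx y hy => by rw [iter_root hπ (hTL hx), iter_root hπ (hTL hy)]
  have hmin : ∀ m, m < Nat.find hex → ¬ ∀ x ∈ T, ∀ y ∈ T, π^[m] x = π^[m] y :=
    fun m hm => Nat.find_min hex hm
  generalize Nat.find hex = h at hspec hle hmin
  have h0 : h ≠ 0 := by
    rintro rfl
    have : T.card ≤ 1 := Finset.card_le_one.2 fun x hx y hy => hspec x hx y hy
    omega
  by_cases hh1 : h = 1
  · subst hh1
    obtain ⟨x₀, hx₀⟩ := hT.nonempty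
    obtain ⟨j, rfl⟩ : ∃ j, i = j + 1 := ⟨i - 1, by omega⟩
    refine hT.1 ((H.nbhd_col h4 (π x₀)).mono (fun x hx => ?_) le_rfl)
    have e : π x = π x₀ := hspec x hx x₀ hx₀
    rw [mem_nb, ← e]
    exact ⟨mem_univ _, (hπ j x (hTL hx)).2.symm⟩
  have hI : LInv G T (π^[h - 1]) (k + 1 - 2 * h) := by
    intro p hp hpT
    by_contra hne
    have hc := tree_cycle hπ (h := h) (by omega) hle (by omega) hp (fun s hs => hTL (hpT s hs)) hne
      (hspec _ (hpT 0 (Nat.zero_le _)) _ (hpT _ le_rfl))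
    have e : k + 1 - 2 * h + 2 * h = k + 1 := by omega
    rw [e] at hc
    exact H.nocyc hc
  obtain ⟨L, hC, hL⟩ := hT.cyc hc2
  by_cases hlL : k + 1 - 2 * h + 1 ≤ L
  · have hδ : k + 1 - 2 * h ≤ 2 ∨ ∀ x ∈ T, 3 ≤ (nb G T x).card := by
      by_cases h3 : 3 ≤ k / 2
      · exact Or.inr fun x hx => h3.trans (hT.deg x hx)
      · exact Or.inl (by omega)
    obtain ⟨a, b, hab⟩ := ab hI hC (by omega) hlL hδ hT.conn
    by_cases e : a = b
    · subst e
      have hall : ∀ x ∈ T, π^[h - 1] x = a := by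
        intro x hx
        have hd := hT.deg x hx
        obtain ⟨y, hy⟩ : (nb G T x).Nonempty := Finset.card_pos.1 (by omega)
        rw [mem_nb] at hy
        rcases hab x hx y hy.1 hy.2 with h' | h' <;> exact h'.1
      exact hmin (h - 1) (by omega) fun x hx y hy => by rw [hall x hx, hall y hy]
    · refine hT.1 ⟨fun x => if π^[h - 1] x = a then 0 else 1, fun x _ => ?_, fun x hx y hy hxy => ?_⟩
      · dsimp only
        split_ifs <;> omega
      · rcases hab x hx y hy hxy with h' | h'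
        · simp [h'.1, h'.2, Ne.symm e]
        · simp [h'.1, h'.2, Ne.symm e]
  · have hLT : L = T.card := by
      rcases hL with hL | hL
      · omega
      · exact hL.1
    by_cases hs : T.card ≤ k / 2 + 2
    · obtain ⟨K, -, hK, hKc⟩ := hT.small hs
      exact H.noClique h4 hK (by omega) (by omega)
    · refine H.noPan (Q := T) (williamson fun x hx => ?_) (by omega) (by omega) (by omega)
      have hd := hT.deg x hx
      omega

end Crest.Agent.R54
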