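import Crest.Agent.R54.Crit

/-!
# Row 54: the case `k = 3` (`R(C₄, K₄) ≤ 10`, `R(C₄, K₃) ≤ 7`)
-/

namespace Crest.Agent.R54

open Finset

variable {V : Type*} [Fintype V] [DecidableEq V] {G : SimpleGraph V}

omit [DecidableEq V] in
theorem small3_c4 (H : Hyp G 3) {a b c d : V} (h1 : G.Adj a b) (h2 : G.Adj b c) (h3 : G.Adj c d)
    (h4 : G.Adj d a) (hac : a ≠ c) (hbd : b ≠ d) : False :=
  H.nocyc (hasCyc4 h1 h2 h3 h4 hac hbd)

theorem small3_i4 (H : Hyp G 3) {a b c d : V} (hab : a ≠ b) (hac : a ≠ c) (had : a ≠ d)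
    (hbc : b ≠ c) (hbd : b ≠ d) (hcd : c ≠ d) (h1 : ¬ G.Adj a b) (h2 : ¬ G.Adj a c)
    (h3 : ¬ G.Adj a d) (h4 : ¬ G.Adj b c) (h5 : ¬ G.Adj b d) (h6 : ¬ G.Adj c d) : False := by
  have := H.alpha {a, b, c, d} (by
    intro x hx y hy
    simp only [mem_insert, mem_singleton] at hx hy
    rcases hx with rfl | rfl | rfl | rfl <;> rcases hy with rfl | rfl | rfl | rfl <;>
      first | exact G.irrefl | assumption | (rw [G.adj_comm]; assumption))
  rw [card_insert_of_notMem (by simp [hab, hac, had]), card_insert_of_notMem (by simp [hbc, hbd]),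
    card_pair hcd] at this
  omega

theorem small3_dg (H : Hyp G 3) (v x y : V) : ∃ z, G.Adj v z ∧ z ≠ x ∧ z ≠ y := by
  by_contra h
  push Not at h
  have h1 : nb G univ v ⊆ {x, y} := fun z hz => by
    by_cases hx : z = x
    · simp [hx]
    · simp [h z (mem_nb.1 hz).2 hx]
  have h2 := (H.deg v).trans ((card_le_card h1).trans card_le_two)
  omega

/-- a triangle with a pendant neighbour at every corner -/
structure Small3T (G : SimpleGraph V) (v1 v2 v3 w1 w2 w3 : V) : Prop where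
  a12 : G.Adj v1 v2
  a23 : G.Adj v2 v3
  a31 : G.Adj v3 v1
  b1 : G.Adj v1 w1
  b2 : G.Adj v2 w2
  b3 : G.Adj v3 w3
  n12 : w1 ≠ v2
  n13 : w1 ≠ v3
  n21 : w2 ≠ v1
  n23 : w2 ≠ v3
  n31 : w3 ≠ v1
  n32 : w3 ≠ v2

namespace Small3T

variable {v1 v2 v3 w1 w2 w3 : V}

omit [Fintype V] [DecidableEq V] in
theorem rot (T : Small3T G v1 v2 v3 w1 w2 w3) : Small3T G v2 v3 v1 w2 w3 w1 :=
  ⟨T.a23, T.a31, T.a12, T.b2, T.b3, T.b1, T.n23, T.n21, T.n32, T.n31, T.n12, T.n13⟩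

omit [Fintype V] [DecidableEq V] in
theorem swap (T : Small3T G v1 v2 v3 w1 w2 w3) : Small3T G v1 v3 v2 w1 w3 w2 :=
  ⟨T.a31.symm, T.a23.symm, T.a12.symm, T.b1, T.b3, T.b2, T.n13, T.n12, T.n31, T.n32, T.n21, T.n23⟩

theorem vv (H : Hyp G 3) (T : Small3T G v1 v2 v3 w1 w2 w3) {r : V} (h : G.Adj r v1) (h3 : r ≠ v3) :
    ¬ G.Adj r v2 := fun h' => small3_c4 H h T.a31.symm T.a23.symm h'.symm h3 T.a12.ne

theorem vw (H : Hyp G 3) (T : Small3T G v1 v2 v3 w1 w2 w3) {r : V} (h : G.Adj r v1) (h2 : r ≠ v2) :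
    ¬ G.Adj r w2 := fun h' => small3_c4 H h T.a12 T.b2 h'.symm h2 T.n21.symm

theorem nv (H : Hyp G 3) (T : Small3T G v1 v2 v3 w1 w2 w3) : ¬ G.Adj w1 v2 :=
  T.vv H T.b1.symm T.n13

theorem nw (H : Hyp G 3) (T : Small3T G v1 v2 v3 w1 w2 w3) : ¬ G.Adj w1 w2 :=
  T.vw H T.b1.symm T.n12

theorem ne (H : Hyp G 3) (T : Small3T G v1 v2 v3 w1 w2 w3) : w1 ≠ w2 := fun h =>
  T.nv H (h ▸ T.b2.symm)

theorem two (H : Hyp G 3) (T : Small3T G v1 v2 v3 w1 w2 w3) {r : V} (h : ¬ G.Adj r v1)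
    (h1 : r ≠ v1) (h2 : r ≠ w2) (h3 : r ≠ w3) : G.Adj r w2 ∨ G.Adj r w3 := by
  by_contra hc
  push Not at hc
  exact small3_i4 H h1 h2 h3 T.n21.symm T.n31.symm (T.rot.ne H) h hc.1 hc.2
    (fun h' => T.rot.swap.nv H h'.symm) (fun h' => T.rot.rot.nv H h'.symm) (T.rot.nw H)

/-- the common neighbour of `w1`, `w2` is unique -/
theorem uniq (H : Hyp G 3) (T : Small3T G v1 v2 v3 w1 w2 w3) {x y : V} (hx1 : G.Adj x w1)
    (hx2 : G.Adj x w2) (hy1 : G.Adj y w1) (hy2 : G.Adj y w2) : x = y := by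
  by_contra h
  exact small3_c4 H hx1 hy1.symm hy2 hx2.symm h (T.ne H)

theorem caseA' (H : Hyp G 3) (T : Small3T G v1 v2 v3 w1 w2 w3) {r d : V} (hv : G.Adj r v1)
    (hw : G.Adj r w1) (hd : G.Adj d w1) (hd1 : d ≠ v1) (hdr : d ≠ r) (hd2 : G.Adj d w2) :
    False := by
  have r2 : r ≠ v2 := fun e => T.nv H (e ▸ hw.symm)
  have r3 : r ≠ v3 := fun e => T.swap.nv H (e ▸ hw.symm)
  have rv2 : ¬ G.Adj r v2 := T.vv H hv r3
  have rv3 : ¬ G.Adj r v3 := T.swap.vv H hv r2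
  have rw2 : ¬ G.Adj r w2 := T.vw H hv r2
  have rw3 : ¬ G.Adj r w3 := T.swap.vw H hv r3
  have dr : ¬ G.Adj d r := fun h => small3_c4 H h hv T.b1 hd.symm hd1 hw.ne
  by_cases hd3 : G.Adj d w3
  · obtain ⟨x, hx, x1, xw1⟩ := small3_dg H r v1 w1
    have x2 : x ≠ v2 := fun e => rv2 (e ▸ hx)
    have x3 : x ≠ v3 := fun e => rv3 (e ▸ hx)
    have xw2 : x ≠ w2 := fun e => rw2 (e ▸ hx)
    have xw3 : x ≠ w3 := fun e => rw3 (e ▸ hx)
    have xd : x ≠ d := fun e => dr (e ▸ hx.symm)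
    have xv1 : ¬ G.Adj x v1 := fun h => small3_c4 H hx.symm hw T.b1.symm h.symm xw1 hv.ne
    have xv2 : ¬ G.Adj x v2 := fun h => small3_c4 H hv T.a12 h.symm hx.symm r2 x1.symm
    have xv3 : ¬ G.Adj x v3 := fun h => small3_c4 H hv T.a31.symm h.symm hx.symm r3 x1.symm
    rcases T.two H xv1 x1 xw2 xw3 with h2 | h3
    · rcases T.rot.two H xv2 x2 xw3 xw1 with h3 | h1
      · exact xd (T.rot.uniq H h2 h3 hd2 hd3)
      · exact xd (T.uniq H h1 h2 hd hd2)
    · rcases T.rot.rot.two H xv3 x3 xw1 xw2 with h1 | h2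
      · exact xd (T.swap.uniq H h1 h3 hd hd3)
      · exact xd (T.rot.uniq H h2 h3 hd2 hd3)
  · exact small3_i4 H (a := d) (b := r) (c := v2) (d := w3) hdr
      (fun e => T.nv H (e ▸ hd.symm)) (fun e => T.swap.nw H (e ▸ hd.symm)) r2
      (fun e => T.swap.nw H (e ▸ hw.symm)) T.n32.symm dr
      (fun h => T.rot.swap.vw H h hd1 hd) hd3 rv2 rw3 (fun h => T.rot.rot.swap.nv H h.symm)

theorem caseA (H : Hyp G 3) (T : Small3T G v1 v2 v3 w1 w2 w3) {r : V} (hv : G.Adj r v1)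
    (r2 : r ≠ v2) (r3 : r ≠ v3) (rw1 : r ≠ w1) : False := by
  have hw : G.Adj r w1 := by
    by_contra hw
    exact small3_i4 H (b := w1) (c := w2) (d := w3) rw1 (fun e => T.rot.swap.nv H (e ▸ hv))
      (fun e => T.rot.rot.nv H (e ▸ hv))
      (T.ne H) (T.swap.ne H) (T.rot.ne H) hw (T.vw H hv r2) (T.swap.vw H hv r3) (T.nw H)
      (T.swap.nw H) (T.rot.nw H)
  obtain ⟨d, hd, d1, dr⟩ := small3_dg H w1 v1 r
  have dv1 : ¬ G.Adj d v1 := fun h => small3_c4 H h hv.symm hw hd dr T.b1.ne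
  rcases T.two H dv1 d1 (fun e => T.nw H (e ▸ hd)) (fun e => T.swap.nw H (e ▸ hd)) with h | h
  · exact T.caseA' H hv hw hd.symm d1 dr h
  · exact T.swap.caseA' H hv hw hd.symm d1 dr h

/-- a neighbour of `w1` other than `v1` has no neighbour in the triangle -/
theorem nov (H : Hyp G 3) (T : Small3T G v1 v2 v3 w1 w2 w3) {d : V} (hd : G.Adj d w1)
    (d1 : d ≠ v1) : ¬ G.Adj d v1 ∧ ¬ G.Adj d v2 ∧ ¬ G.Adj d v3 :=
  ⟨fun h => T.caseA H h (fun e => T.nv H (e ▸ hd.symm)) (fun e => T.swap.nv H (e ▸ hd.symm)) hd.ne,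
    fun h => T.rot.swap.vw H h d1 hd, fun h => T.rot.rot.vw H h d1 hd⟩

theorem third (H : Hyp G 3) (T : Small3T G v1 v2 v3 w1 w2 w3) {d d' d'' : V}
    (h1 : G.Adj d w1) (h2 : G.Adj d w2) (h3 : ¬ G.Adj d w3) (h1' : G.Adj d' w1) (h3' : G.Adj d' w3)
    (h2'' : G.Adj d'' w2) (h3'' : G.Adj d'' w3) : G.Adj d d' ∨ G.Adj d d'' := by
  obtain ⟨n1, n2, n3⟩ := T.nov H h1 fun e => T.rot.swap.nv H (e ▸ h2.symm)
  obtain ⟨x, hx, xw1, xw2⟩ := small3_dg H d w1 w2
  have x1 : x ≠ v1 := fun e => n1 (e ▸ hx)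
  have x2 : x ≠ v2 := fun e => n2 (e ▸ hx)
  have x3 : x ≠ v3 := fun e => n3 (e ▸ hx)
  have xw3 : x ≠ w3 := fun e => h3 (e ▸ hx)
  have xv1 : ¬ G.Adj x v1 := fun h => T.caseA H h x2 x3 xw1
  have xv2 : ¬ G.Adj x v2 := fun h => T.rot.caseA H h x3 x1 xw2
  have xv3 : ¬ G.Adj x v3 := fun h => T.rot.rot.caseA H h x1 x2 xw3
  rcases T.two H xv1 x1 xw2 xw3 with g2 | g3
  · rcases T.rot.two H xv2 x2 xw3 xw1 with g3 | g1
    · exact Or.inr (T.rot.uniq H g2 g3 h2'' h3'' ▸ hx)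
    · exact absurd (T.uniq H h1 h2 g1 g2) hx.ne
  · rcases T.rot.rot.two H xv3 x3 xw1 xw2 with g1 | g2
    · exact Or.inl (T.swap.uniq H g1 g3 h1' h3' ▸ hx)
    · exact Or.inr (T.rot.uniq H g2 g3 h2'' h3'' ▸ hx)

theorem caseB' (H : Hyp G 3) (T : Small3T G v1 v2 v3 w1 w2 w3) {d d' : V} (hdd : d ≠ d')
    (h1 : G.Adj d w1) (h2 : G.Adj d w2) (h1' : G.Adj d' w1) (h3' : G.Adj d' w3) : False := by
  have h3 : ¬ G.Adj d w3 := fun h => hdd (T.swap.uniq H h1 h h1' h3')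
  have h2' : ¬ G.Adj d' w2 := fun h => hdd (T.uniq H h1 h2 h1' h)
  obtain ⟨e, he, e2, ed⟩ := small3_dg H w2 v2 d
  have e1 : ¬ G.Adj e w1 := fun h => ed (T.uniq H h he.symm h1 h2)
  have e3 : G.Adj e w3 := (T.rot.two H (T.rot.nov H he.symm e2).1 e2
    (fun h => T.rot.nw H (h ▸ he)) (fun h => T.nw H (h ▸ he.symm))).resolve_right e1
  have ed' : e ≠ d' := fun h => e1 (h ▸ h1')
  have k1 := T.third H h1 h2 h3 h1' h3' he.symm e3
  have k2 := T.swap.third H h1' h3' h2' h1 h2 e3 he.symm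
  have k3 := T.rot.third H he.symm e3 e1 h2 h1 h3' h1'
  have c1 : G.Adj d d' → G.Adj d e → False := fun a b =>
    small3_c4 H a.symm b e3 h3'.symm ed'.symm fun h => T.swap.nw H (h ▸ h1.symm)
  have c2 : G.Adj d d' → G.Adj d' e → False := fun a b =>
    small3_c4 H a b he.symm h2.symm ed.symm fun h => T.nw H (h ▸ h1'.symm)
  have c3 : G.Adj d e → G.Adj d' e → False := fun a b =>
    small3_c4 H a b.symm h1' h1.symm hdd fun h => T.nw H (h ▸ he.symm)
  rcases k1 with a | a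
  · rcases k3 with b | b
    · exact c1 a b.symm
    · exact c2 a b.symm
  · rcases k2 with b | b
    · exact c1 b.symm a
    · exact c3 a b

theorem false (H : Hyp G 3) (T : Small3T G v1 v2 v3 w1 w2 w3) : False := by
  obtain ⟨d, hd, d1, -⟩ := small3_dg H w1 v1 v1
  obtain ⟨d', hd', d1', hdd⟩ := small3_dg H w1 v1 d
  have k : ∀ x, G.Adj w1 x → x ≠ v1 → G.Adj x w2 ∨ G.Adj x w3 := fun x hx x1 =>
    T.two H (T.nov H hx.symm x1).1 x1 (fun e => T.nw H (e ▸ hx)) (fun e => T.swap.nw H (e ▸ hx))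
  rcases k d hd d1 with a | a <;> rcases k d' hd' d1' with b | b
  · exact hdd (T.uniq H hd'.symm b hd.symm a)
  · exact T.caseB' H hdd.symm hd.symm a hd'.symm b
  · exact T.caseB' H hdd hd'.symm b hd.symm a
  · exact hdd (T.swap.uniq H hd'.symm b hd.symm a)

end Small3T

/-- **Triangle case.**  No `C₄` (`hasCyc4`): two distinct vertices have at most one common neighbour.
Triangle `v₁ v₂ v₃`; each `vᵢ` has a neighbour `wᵢ` outside it; outside vertices have at most one neighbour in the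
triangle; the `wᵢ` are distinct and pairwise non-adjacent.  `R` = all other vertices.  For `r ∈ R` the sets
`{w₁,w₂,w₃,r}`, `{vᵢ,wⱼ,wₖ,r}` are not independent (`α ≤ 3`); if `r ~ vᵢ` then `r ≁ wⱼ` (`j ≠ i`, `C₄`).  Hence `r` is
*single* (`r ~ vᵢ, wᵢ` and no other `w`) or *multi* (adjacent to at least two `w`'s, no `v`).  At most one single
per `i`.  Each `wᵢ` has at least two neighbours in `R`.
(a) a single `r₁` (index 1) exists: `w₁` has a multi neighbour `d`, say `d ~ w₂`.  If `d ≁ w₃` then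
`{d, r₁, v₂, w₃}` is independent.  If `d ~ w₃`, the third neighbour `x` of `r₁` lies in `R`; `x = d`, `x` multi
`≠ d` (two common neighbours with `d`), `x` single each give a `C₄`.
(b) no single: `w₁` has neighbours `d ≠ d'`, `d ~ w₂`, `d' ~ w₃` (WLOG), `d ≁ w₃`, `d' ≁ w₂`; `w₂` has another
neighbour `d'' ~ w₃`, `d'' ≁ w₁`; every vertex of `R` is one of `d, d', d''`; each of them has a third neighbour
among the three, so two of the three possible edges are present, and they form a `C₄` with a `w`.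
(Symmetry: state (a), (b) as lemmas with explicit vertices and apply them after permuting.) -/
theorem small3_tri (H : Hyp G 3) {a b c : V} (hab : G.Adj a b) (hbc : G.Adj b c)
    (hca : G.Adj c a) : False := by
  obtain ⟨w1, h1, n12, n13⟩ := small3_dg H a b c
  obtain ⟨w2, h2, n21, n23⟩ := small3_dg H b a c
  obtain ⟨w3, h3, n31, n32⟩ := small3_dg H c a b
  exact Small3T.false H ⟨hab, hbc, hca, h1, h2, h3, n12, n13, n21, n23, n31, n32⟩

/-- **Triangle-free case.**  `N(v)` is independent, so all degrees are exactly 3; expansion for `I = N(v)` gives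
`T = cnb G (N(v)) \ (insert v (N(v)))` with `|T| ≥ 6`; every vertex of `T` has a neighbour in `N(v)`, so at most 2
in `T`; `deg_indep` with `c = 3` gives an independent 3-set in `T`; add `v`. -/
theorem small3 (H : Hyp G 3) : False := by
  obtain ⟨v⟩ := H.ne
  have hI : ∀ u, Indep G (nb G univ u) := fun u x hx y hy hxy =>
    small3_tri H (mem_nb.1 hx).2 hxy (mem_nb.1 hy).2.symm
  have hd : ∀ u, (nb G univ u).card = 3 := fun u => le_antisymm (H.alpha _ (hI u)) (H.deg u)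
  set N := nb G univ v with hN
  have h1 := H.expand N (hI v) (card_pos.1 (by rw [hd]; norm_num))
  set T := cnb G N \ insert v N with hT
  have h2 : 6 ≤ T.card := by
    have := le_card_sdiff (insert v N) (cnb G N)
    have := card_insert_le v N
    have := hd v
    simp only [hT, hN] at *
    omega
  obtain ⟨I, hIT, hI', hc⟩ := deg_indep (G := G) (T := T) (c := 3) (by norm_num)
    (card_pos.1 (by omega))
    (fun T' hT' ⟨t, ht⟩ => ⟨t, ht, by
      obtain ⟨h3, h4⟩ := mem_sdiff.1 (hT' ht)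
      obtain ⟨y, hy, hyt⟩ := (mem_cnb.1 h3).resolve_left fun h => h4 (mem_insert_of_mem h)
      have h5 : nb G T' t ⊆ (nb G univ t).erase y := fun x hx => by
        refine mem_erase.2 ⟨fun e => ?_, mem_nb.2 ⟨mem_univ _, (mem_nb.1 hx).2⟩⟩
        exact (mem_sdiff.1 (hT' (mem_nb.1 hx).1)).2 (mem_insert_of_mem (e ▸ hy))
      have h6 := card_le_card h5
      rw [card_erase_of_mem (mem_nb.2 ⟨mem_univ _, hyt.symm⟩), hd] at h6
      omega⟩)
    (fun K _ hK => by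
      by_contra hc
      obtain ⟨a, ha, b, hb, c, hc, hab, hac, hbc⟩ := two_lt_card.1 (not_lt.1 hc)
      exact small3_tri H (hK a ha b hb hab) (hK b hb c hc hbc) (hK c hc a ha hac.symm))
  have hv : v ∉ I := fun h => (mem_sdiff.1 (hIT h)).2 (mem_insert_self _ _)
  have hv' : ∀ x ∈ I, ¬ G.Adj v x := fun x hx h =>
    (mem_sdiff.1 (hIT hx)).2 (mem_insert_of_mem (mem_nb.2 ⟨mem_univ _, h⟩))
  have h3 := H.alpha (insert v I) (fun x hx y hy => by
    rcases mem_insert.1 hx with rfl | hx' <;> rcases mem_insert.1 hy with rfl | hy'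
    · exact G.irrefl
    · exact hv' y hy'
    · exact fun h => hv' x hx' h.symm
    · exact hI' x hx' y hy')
  rw [card_insert_of_notMem hv] at h3
  omega

end Crest.Agent.R54
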