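import Crest.Agent.R54.Crit

/-!
# Row 54: the tight case of `k = 4`
-/

namespace Crest.Agent.R54

open Finset

variable {V : Type*} [Fintype V] [DecidableEq V] {G : SimpleGraph V}

theorem Small4_le_one (H : Hyp G 4) (hK : ∀ K, Clq G K → K.card < 4) (v : V)
    (hcol : Col G (nb G univ v) 2)
    (hI : ∀ I, I ⊆ nb G univ v → Indep G I → 2 * I.card ≤ (nb G univ v).card) {a : V}
    (ha : G.Adj v a) : (nb G (nb G univ v) a).card ≤ 1 := by
  by_contra hc
  have hL : ∀ x ∈ nb G (nb G univ v) a, G.Adj v x ∧ G.Adj a x := fun x hx => by simpa using hx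
  have h1 : Indep G (nb G (nb G univ v) a) := by
    intro x hx y hy hxy
    obtain ⟨h2, h3⟩ := hL x hx
    obtain ⟨h4, h5⟩ := hL y hy
    have h6 := hK {v, a, x, y} (by
      intro z hz w hw hzw
      simp only [mem_insert, mem_singleton] at hz hw
      rcases hz with rfl | rfl | rfl | rfl <;> rcases hw with rfl | rfl | rfl | rfl <;>
        first | exact absurd rfl hzw | assumption | (apply SimpleGraph.Adj.symm; assumption))
    rw [card_insert_of_notMem (by simp [ha.ne, h2.ne, h4.ne]),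
      card_insert_of_notMem (by simp [h3.ne, h5.ne]), card_pair hxy.ne] at h6
    omega
  have hsub : insert a (nb G (nb G univ v) a) ⊆ nb G univ v :=
    insert_subset (by simpa using ha) fun x hx => (mem_nb.1 hx).1
  obtain ⟨J, hJ, hJi, hJc⟩ :=
    (hcol.mono (sdiff_subset (t := insert a (nb G (nb G univ v) a))) le_rfl).indep
  have hJ' : ∀ r ∈ J, G.Adj v r ∧ r ≠ a ∧ r ∉ nb G (nb G univ v) a := fun r hr => by
    have := mem_sdiff.1 (hJ hr)
    rw [mem_insert, not_or] at this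
    exact ⟨(mem_nb.1 this.1).2, this.2⟩
  have h2 : ∀ r ∈ J, ∀ x ∈ nb G (nb G univ v) a, ¬ G.Adj r x := by
    intro r hr x hx hrx
    obtain ⟨y, hy, hyx⟩ := exists_mem_ne (not_le.1 hc) x
    obtain ⟨h3, h4, h5⟩ := hJ' r hr
    exact H.nocyc (hasCyc5 hrx (hL x hx).2.symm (hL y hy).2 (hL y hy).1.symm h3 h4
      (fun e => h5 (e ▸ hy)) hyx.symm (hL x hx).1.ne' ha.ne')
  have h3 := hI (nb G (nb G univ v) a ∪ J)
    (union_subset (fun x hx => (mem_nb.1 hx).1) (hJ.trans sdiff_subset)) (by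
      intro x hx y hy hxy
      rcases mem_union.1 hx with hx | hx <;> rcases mem_union.1 hy with hy | hy
      · exact h1 x hx y hy hxy
      · exact h2 y hy x hx hxy.symm
      · exact h2 x hx y hy hxy
      · exact hJi x hx y hy hxy)
  rw [card_union_of_disjoint (disjoint_right.2 fun r hr => (hJ' r hr).2.2)] at h3
  have h4 := card_sdiff_add_card_eq_card hsub
  rw [card_insert_of_notMem (by simp)] at h4
  omega

theorem Small4_exists (v : V) (hcol : Col G (nb G univ v) 2)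
    (hI : ∀ I, I ⊆ nb G univ v → Indep G I → 2 * I.card ≤ (nb G univ v).card) {a : V}
    (ha : G.Adj v a) : ∃ a', G.Adj v a' ∧ G.Adj a a' := by
  by_contra hc
  have haN : a ∈ nb G univ v := by simpa using ha
  obtain ⟨J, hJ, hJi, hJc⟩ := (hcol.mono (erase_subset a _) le_rfl).indep
  have h1 : ∀ r ∈ J, ¬ G.Adj a r := fun r hr h =>
    hc ⟨r, (mem_nb.1 (mem_of_mem_erase (hJ hr))).2, h⟩
  have h2 := hI (insert a J) (insert_subset haN (hJ.trans (erase_subset _ _))) (by
    intro x hx y hy hxy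
    rcases mem_insert.1 hx with e1 | hx <;> rcases mem_insert.1 hy with e2 | hy
    · exact hxy.ne (e1.trans e2.symm)
    · exact h1 y hy (e1 ▸ hxy)
    · exact h1 x hx (e2 ▸ hxy.symm)
    · exact hJi x hx y hy hxy)
  rw [card_insert_of_notMem (fun h => notMem_erase _ _ (hJ h))] at h2
  have h3 := card_erase_add_one haN
  omega

theorem Small4_out (H : Hyp G 4) {v a : V} (h : (nb G (nb G univ v) a).card ≤ 1) (z : V) :
    ∃ c, c ≠ z ∧ G.Adj a c ∧ c ≠ v ∧ ¬ G.Adj v c := by
  by_contra hc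
  have h1 : nb G univ a ⊆ insert z (insert v (nb G (nb G univ v) a)) := by
    intro c hc'
    have h2 : G.Adj a c := by simpa using hc'
    by_contra h3
    simp only [mem_insert, mem_nb, mem_univ, true_and, not_or, not_and] at h3
    exact hc ⟨c, h3.1, h2, h3.2.1, fun h4 => h3.2.2 h4 h2⟩
  have h2 := card_le_card h1
  have h3 := card_insert_le z (insert v (nb G (nb G univ v) a))
  have h4 := card_insert_le v (nb G (nb G univ v) a)
  have h5 := H.deg a
  omega

theorem Small4_A (H : Hyp G 4) {v x y c e : V} (hx : G.Adj v x) (hy : G.Adj v y) (hxy : x ≠ y)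
    (hc : G.Adj x c ∧ c ≠ v ∧ ¬ G.Adj v c) (he : G.Adj y e ∧ e ≠ v ∧ ¬ G.Adj v e) :
    ¬ G.Adj c e := fun h =>
  H.nocyc (hasCyc5 hx hc.1 h he.1.symm hy.symm hc.2.1.symm he.2.1.symm
    (fun e' => he.2.2 (e' ▸ hx)) hxy (fun e' => hc.2.2 (e' ▸ hy)))

theorem Small4_B (H : Hyp G 4) {v x x' y c e : V} (hx : G.Adj v x) (hx' : G.Adj v x')
    (hy : G.Adj v y) (hxx : G.Adj x x') (hxy : x ≠ y) (hxy' : x' ≠ y)
    (hc : G.Adj x c ∧ c ≠ v ∧ ¬ G.Adj v c) (he : G.Adj y e ∧ e ≠ v ∧ ¬ G.Adj v e) : c ≠ e := by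
  rintro rfl
  exact H.nocyc (hasCyc5 hx' hxx.symm hc.1 he.1.symm hy.symm hx.ne hc.2.1.symm
    (fun e' => hc.2.2 (e' ▸ hx')) hxy' hxy)

/-- Suppose `2 |I| ≤ d = |N(v)|` for all independent `I ⊆ N = N(v)`.  No `K₄` (`hK`), no `C₅` (`hasCyc5`).
(1) every `a ∈ N` has at most one neighbour in `N`: otherwise `Lf = nb G N a` (`s ≥ 2` elements) is independent
(`K₄`), has no edge to `R = N \ insert a Lf` (`r x a y v` is a `C₅`), and `Lf ∪ I_R` (`Col.indep` on `R`) has
`2|I| ≥ 2s + d - s - 1 > d`.  (2) every `a ∈ N` has a neighbour in `N` (else `insert a I_R`, `R = N.erase a`).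
(3) `d ≥ 4`: edges `a a'`, `b b'` in `N` on four distinct vertices, no other edges among them.  Each of the four
has at least two neighbours outside `insert v N`; choose `ca ≠ ca'`, `cb ≠ cb'`.  `C₅`-freeness shows that
`v, ca, ca', cb, cb'` are distinct and pairwise non-adjacent (`ca = cb`: `v a' a ca b`;  `ca ~ cb`: `v a ca cb b`;
`ca ~ ca'`: `v a ca ca' a'`), contradicting `α ≤ 4`. -/
theorem small4 (H : Hyp G 4) (hK : ∀ K, Clq G K → K.card < 4) (v : V)
    (hcol : Col G (nb G univ v) 2) :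
    ∃ I, I ⊆ nb G univ v ∧ Indep G I ∧ (nb G univ v).card + 1 ≤ 2 * I.card := by
  by_contra hc
  have hI : ∀ I, I ⊆ nb G univ v → Indep G I → 2 * I.card ≤ (nb G univ v).card := by
    intro I h1 h2
    by_contra h3
    exact hc ⟨I, h1, h2, by omega⟩
  have hd := H.deg v
  have hone : ∀ {a x y : V}, G.Adj v a → G.Adj v x → G.Adj v y → G.Adj a x → G.Adj a y →
      x = y := fun ha hx hy h1 h2 =>
    card_le_one.1 (Small4_le_one H hK v hcol hI ha) _ (by simp [hx, h1]) _ (by simp [hy, h2])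
  obtain ⟨a, ha⟩ : (nb G univ v).Nonempty := card_pos.1 (by omega)
  replace ha : G.Adj v a := (mem_nb.1 ha).2
  obtain ⟨a', ha', haa⟩ := Small4_exists v hcol hI ha
  obtain ⟨b, hb, hb2⟩ : ∃ b ∈ nb G univ v, b ∉ ({a, a'} : Finset V) :=
    exists_mem_notMem_of_card_lt_card (lt_of_le_of_lt card_le_two (by omega))
  replace hb : G.Adj v b := (mem_nb.1 hb).2
  rw [mem_insert, mem_singleton, not_or] at hb2
  obtain ⟨b', hb', hbb⟩ := Small4_exists v hcol hI hb
  have e1 : b' ≠ a := fun e => hb2.2 (hone ha hb ha' (e ▸ hbb.symm) haa)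
  have e2 : b' ≠ a' := fun e => hb2.1 (hone ha' hb ha (e ▸ hbb.symm) haa.symm)
  obtain ⟨c, -, hc1⟩ := Small4_out H (Small4_le_one H hK v hcol hI ha) v
  obtain ⟨c', n1, hc2⟩ := Small4_out H (Small4_le_one H hK v hcol hI ha') c
  obtain ⟨e, -, he1⟩ := Small4_out H (Small4_le_one H hK v hcol hI hb) v
  obtain ⟨e', n2, he2⟩ := Small4_out H (Small4_le_one H hK v hcol hI hb') e
  have n3 := Small4_B H ha ha' hb haa (Ne.symm hb2.1) (Ne.symm hb2.2) hc1 he1
  have n4 := Small4_B H ha ha' hb' haa e1.symm e2.symm hc1 he2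
  have n5 := Small4_B H ha' ha hb haa.symm (Ne.symm hb2.2) (Ne.symm hb2.1) hc2 he1
  have n6 := Small4_B H ha' ha hb' haa.symm e2.symm e1.symm hc2 he2
  have m1 := Small4_A H ha ha' haa.ne hc1 hc2
  have m2 := Small4_A H hb hb' hbb.ne he1 he2
  have m3 := Small4_A H ha hb (Ne.symm hb2.1) hc1 he1
  have m4 := Small4_A H ha hb' e1.symm hc1 he2
  have m5 := Small4_A H ha' hb (Ne.symm hb2.2) hc2 he1
  have m6 := Small4_A H ha' hb' e2.symm hc2 he2
  have m7 := hc1.2.2
  have m8 := hc2.2.2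
  have m9 := he1.2.2
  have m10 := he2.2.2
  have h5 := H.alpha {v, c, c', e, e'} (by
    intro z hz w hw hzw
    have hwz := hzw.symm
    simp only [mem_insert, mem_singleton] at hz hw
    rcases hz with rfl | rfl | rfl | rfl | rfl <;> rcases hw with rfl | rfl | rfl | rfl | rfl <;>
      first | exact hzw.ne rfl | contradiction)
  rw [card_insert_of_notMem (by simp [hc1.2.1.symm, hc2.2.1.symm, he1.2.1.symm, he2.2.1.symm]),
    card_insert_of_notMem (by simp [n1.symm, n3, n4]),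
    card_insert_of_notMem (by simp [n5, n6]), card_pair n2.symm] at h5
  omega

end Crest.Agent.R54
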