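import Crest.Agent.R54.Basic

/-!
# Row 54: conversion to Mathlib walks and transport along maps
-/

namespace Crest.Agent.R54

open Finset

variable {V W : Type*}

/-- Build the walk `p 0, p 1, …, p (n-1), p 0` (induction on the length gives a `Walk (p 0) (p j)`
with support `(List.range (j+1)).map p`; use `SimpleGraph.Walk.isCycle_def`, or
`SimpleGraph.Path.cons_isCycle` / `Walk.cons_isCycle_iff` for the closing edge `p (n-1) — p 0`,
which is not an edge of the path because `n ≥ 3`). -/
theorem HasCyc.walk {G : SimpleGraph V} {n : ℕ} (h : HasCyc G n) :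
    ∃ v : V, ∃ w : G.Walk v v, w.IsCycle ∧ w.length = n := by
  obtain ⟨p, h3, ⟨ha, hi⟩, hc⟩ := h
  have key : ∀ j, j ≤ n - 1 → ∃ w : G.Walk (p 0) (p j), w.IsPath ∧ w.length = j ∧
      ∀ x ∈ w.support, ∃ i, i ≤ j ∧ p i = x := by
    intro j hj
    induction j with
    | zero => exact ⟨.nil, .nil, rfl, fun x hx => ⟨0, le_rfl, by simp_all⟩⟩
    | succ j ih =>
      obtain ⟨w, h1, h2, h4⟩ := ih (by omega)
      refine ⟨w.concat (ha j hj), h1.concat (fun hm => ?_) _, by simp [h2], fun x hx => ?_⟩
      · obtain ⟨i, h5, h6⟩ := h4 _ hm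
        have := hi _ _ (by omega) hj h6
        omega
      · rw [SimpleGraph.Walk.support_concat, List.mem_append, List.mem_singleton] at hx
        rcases hx with hx | rfl
        · exact (h4 x hx).imp fun i h => ⟨h.1.trans j.le_succ, h.2⟩
        · exact ⟨_, le_rfl, rfl⟩
  obtain ⟨w, h1, h2, -⟩ := key _ le_rfl
  refine ⟨_, w.cons hc, (w.cons_isCycle_iff hc).2 ⟨h1, fun he => ?_⟩, ?_⟩
  · have := h1.length_eq_one_of_mem_edges (Sym2.eq_swap ▸ he)
    omega
  · rw [SimpleGraph.Walk.length_cons]
    omega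

/-- cycles pull forward along an injective map from the comap graph. -/
theorem HasCyc.of_comap {G : SimpleGraph V} {f : W → V} (hf : Function.Injective f) {n : ℕ}
    (h : HasCyc (G.comap f) n) : HasCyc G n := by
  obtain ⟨p, h3, ⟨ha, hi⟩, hc⟩ := h
  exact ⟨f ∘ p, h3, ⟨ha, fun i j h1 h2 h => hi i j h1 h2 (hf h)⟩, hc⟩

/-- an independent set with `n` elements is an `n`-clique of the complement. -/
theorem Indep.isNClique [DecidableEq V] {G : SimpleGraph V} {I : Finset V} (h : Indep G I) :
    Gᶜ.IsNClique I.card I := by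
  exact ⟨fun x hx y hy hxy => ⟨hxy, h x hx y hy⟩, rfl⟩

end Crest.Agent.R54
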