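import Crest.Agent.R54.Level
import Crest.Agent.R54.Growth
import Crest.Agent.R54.Small3
import Crest.Agent.R54.Small4
import Crest.Agent.R54.Walk

/-!
# Row 54: assembly
-/

namespace Crest.Agent.R54

open Finset

theorem Hyp.false {V : Type*} [Fintype V] [DecidableEq V] {G : SimpleGraph V} {k : ℕ}
    (H : Hyp G k) : False := by
  obtain ⟨v⟩ := H.ne
  rcases Nat.lt_or_ge k 4 with h4 | h4
  · have h3 : k = 3 := by have := H.three; omega
    subst h3
    exact small3 H
  · refine H.growth h4 v (fun i h1 hi => H.level_col h4 v h1 hi) (fun hev => ?_)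
    rcases Nat.lt_or_ge k 6 with h6 | h6
    · have h : k = 4 := by omega
      subst h
      exact small4 H (H.clq_lt le_rfl) v (H.nbhd_col le_rfl v)
    · exact H.nbhd_strict (c := k / 2) (by omega) (by omega) v

/-- Strong induction on `a`. -/
theorem ramsey (k : ℕ) (hk : 3 ≤ k) (a : ℕ) (ha : a ≤ k) :
    ∀ (V : Type) [Fintype V] [DecidableEq V] (G : SimpleGraph V) (W : Finset V),
      k * a + 1 ≤ W.card → HasCyc G (k + 1) ∨ ∃ I, I ⊆ W ∧ Indep G I ∧ I.card = a + 1 := by
  induction a using Nat.strong_induction_on with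
  | _ a ih =>
  intro V _ _ G W hW
  rcases Nat.eq_zero_or_pos a with h0 | h0
  · subst h0
    obtain ⟨w, hw⟩ : W.Nonempty := Finset.card_pos.1 (by omega)
    refine Or.inr ⟨{w}, by simpa using hw, ?_, by simp⟩
    intro x hx y hy
    rw [Finset.mem_singleton] at hx hy
    subst hx; subst hy
    exact G.loopless.irrefl _
  by_contra hcon
  rw [not_or] at hcon
  obtain ⟨hc, hI⟩ := hcon
  obtain ⟨W', hW'W, hW'⟩ := Finset.exists_subset_card_eq hW
  let G' : SimpleGraph {x // x ∈ W'} := G.comap Subtype.val
  have hcard : Fintype.card {x // x ∈ W'} = k * a + 1 := by rw [Fintype.card_coe, hW']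
  have hnc : ¬ HasCyc G' (k + 1) := fun h => hc (h.of_comap Subtype.val_injective)
  have halpha : ∀ I : Finset {x // x ∈ W'}, Indep G' I → I.card ≤ a := by
    intro I hind
    by_contra hlt
    obtain ⟨J, hJI, hJ⟩ := Finset.exists_subset_card_eq (s := I) (n := a + 1) (by omega)
    refine hI ⟨J.map (Function.Embedding.subtype _), ?_, ?_, by rw [Finset.card_map, hJ]⟩
    · intro x hx
      rw [Finset.mem_map] at hx
      obtain ⟨y, -, rfl⟩ := hx
      exact hW'W y.2
    · intro x hx y hy
      rw [Finset.mem_map] at hx hy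
      obtain ⟨x', hx', rfl⟩ := hx
      obtain ⟨y', hy', rfl⟩ := hy
      exact hind x' (hJI hx') y' (hJI hy')
  refine Hyp.false (G := G') (k := k) ⟨hk, ?_, ?_, fun I h => (halpha I h).trans ha, ?_, hnc⟩
  · rw [← Fintype.card_pos_iff, hcard]; omega
  · rw [hcard]
    have := Nat.mul_le_mul_left k ha
    omega
  · intro I hind hne
    by_contra hlt
    have hs := halpha I hind
    have hpos : 0 < I.card := Finset.card_pos.2 hne
    have hW2 : k * (a - I.card) + 1 ≤ (univ \ cnb G' I).card := by
      rw [Finset.card_univ_sdiff, hcard]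
      have h1 : k * a = k * (a - I.card) + k * I.card := by
        rw [← Nat.mul_add]; congr 1; omega
      omega
    rcases ih (a - I.card) (by omega) (by omega) _ G' _ hW2 with h | ⟨J, hJ, hJind, hJc⟩
    · exact hnc h
    · have hout : ∀ y ∈ J, y ∉ I ∧ ∀ x ∈ I, ¬ G'.Adj x y := by
        intro y hy
        have := (Finset.mem_sdiff.1 (hJ hy)).2
        rw [mem_cnb, not_or] at this
        exact ⟨this.1, fun x hx hxy => this.2 ⟨x, hx, hxy⟩⟩
      have hdisj : Disjoint I J := Finset.disjoint_right.2 fun y hy => (hout y hy).1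
      have hU : Indep G' (I ∪ J) := by
        intro x hx y hy
        rw [Finset.mem_union] at hx hy
        rcases hx with hx | hx <;> rcases hy with hy | hy
        · exact hind x hx y hy
        · exact (hout y hy).2 x hx
        · exact fun h => (hout x hx).2 y hy h.symm
        · exact hJind x hx y hy
      have := halpha _ hU
      rw [Finset.card_union_of_disjoint hdisj] at this
      omega

end Crest.Agent.R54
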