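import Crest.Agent.R54.StageB1

/-!
# Row 54: no maximum clique of size 4 or 5 (when `k ≤ 2q - 1`)

Setting: `Q` a clique with `q = |Q| ∈ {4, 5}`, `q + 1 ≤ k ≤ 2q - 1`, `q + e = k + 1`, no clique larger than `q`;
`NoEar G Q (e+1) k` (`Clq.pan`, `Pan.noEar`), `2e - 1 ≤ k`.  `Q₀ = Z₀ ∩ Q`, `U = Z₀ \ Q`, `X = Q \ Z₀`,
`FD = (Z \ Z₀) \ Q`, bonus `β = q - 4`.
-/

namespace Crest.Agent.R54

open Finset

variable {V : Type*} [Fintype V] [DecidableEq V] {G : SimpleGraph V} {Q : Finset V} {e k : ℕ}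

/-- Write `j'' = |Q₀|`, `j' = |U|`, `fD = |FD|`.  `weight` (with `I = ∅`) and `k < 2q` give `x ∈ X`, so
`|Z| = k + 1 + g` (`f_deg`).  `fd_le` (its `hU` from `weight`: `k - β ≤ q + 3`) and `z_card` give
`fD + 1 ≤ e`, `g + e = fD + j'`, `j' ≥ 1`; `weight` with `I = {x}`: `2 j'' + j' + 1 + β ≤ k`.  `F = X ∪ FD` is a
clique (`f_clq`), so `|F| = q - j'' + fD ≤ q`.  Hence `|F| ≥ g + 2 + j'' + β` and `2 j'' ≤ 2 + fD`.
* If `e + 2 j'' > q + 2 fD` then `j'' = 1`, `fD = 0`, `j' = e`, `g = 0`: `special` (completeness by `f_miss`).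
* `sel` with `U`, `d z = |nb G F z|`: for a bad `T` (`|T| = g + i`), `count` and `f_miss` give
  `|F| i ≤ (g+i) min g i`, so `|F| ≤ 2g`, forcing `q = 4`, `j'' = 0`, `fD = 0`, `g = 2`, `i = 2`: `obstruction`.
* Otherwise `S = Q ∪ FD ∪ Z'` has `k + 1` elements, `S \ F = Q₀ ∪ Z'`; vertices of `Q₀` have `≥ q - 1 > g`
  neighbours in `S`; `fin` gives `C_{k+1}`. -/
theorem BHyp.false (B : BHyp G Q e k) : False := by
  have H := B.hyp
  have hq45 := B.q45
  have hqe := B.qe
  have he2 := B.two
  have hkq := B.kq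
  have hno := B.noEar
  have hno' : NoEar G Q (e + 1) (2 * e - 1) := hno.mono le_rfl (by omega)
  have hw0 := B.weight (I := ∅) (empty_subset _) (fun x hx => absurd hx (notMem_empty x))
  rw [card_empty] at hw0
  have hXc : (Q \ Z0 G Q e).card + (Z0 G Q e ∩ Q).card = Q.card := by
    rw [inter_comm]; exact card_sdiff_add_card_inter Q _
  obtain ⟨x, hx⟩ : (Q \ Z0 G Q e).Nonempty := card_pos.1 (by omega)
  have hXF : Q \ Z0 G Q e ⊆ Zs G Q e \ Z0 G Q e := sdiff_subset_sdiff (subset_Zs Q e) le_rfl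
  have hxF := hXF hx
  have hw1 := B.weight (I := {x}) (by simpa using hxF) (by
    intro a ha b hb
    rw [mem_singleton] at ha hb
    subst ha; subst hb
    exact G.loopless.irrefl _)
  rw [card_singleton] at hw1
  have hZge : k + 1 ≤ (Zs G Q e).card := by
    have h := f_deg H hxF
    have hsub : insert x (nb G (Zs G Q e) x) ⊆ Zs G Q e := by
      intro y hy
      rcases mem_insert.1 hy with rfl | hy
      · exact (mem_sdiff.1 hxF).1
      · exact (mem_nb.1 hy).1
    have := card_le_card hsub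
    rw [card_insert_of_notMem (fun hy => G.loopless.irrefl _ (mem_nb.1 hy).2)] at this
    omega
  obtain ⟨g, hg⟩ : ∃ g, (Zs G Q e).card = k + 1 + g := ⟨_, (Nat.add_sub_cancel' hZge).symm⟩
  have hfd := fd_le H hqe (by omega) (by omega) hno' (fun I hI hind h => by
    have := B.weight hI hind
    rw [if_pos (card_pos.1 (by omega))] at this
    omega)
  have hzc := z_card (G := G) (Q := Q) (e := e)
  have hUne : (Z0 G Q e \ Q).Nonempty := card_pos.1 (by omega)
  rw [if_pos hUne] at hw0 hw1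
  have hclq : Clq G (Zs G Q e \ Z0 G Q e) := f_clq H (by omega)
  have hFq := B.max _ hclq
  have hFX : (Zs G Q e \ Z0 G Q e) ∩ Q = Q \ Z0 G Q e := by
    ext y
    simp only [mem_inter, mem_sdiff]
    exact ⟨fun h => ⟨h.2, h.1.2⟩, fun h => ⟨⟨subset_Zs Q e h.1, h.2⟩, h.1⟩⟩
  have hFc : ((Zs G Q e \ Z0 G Q e) \ Q).card + (Q \ Z0 G Q e).card =
      (Zs G Q e \ Z0 G Q e).card := by
    rw [← hFX]; exact card_sdiff_add_card_inter _ _
  have hUZ : Z0 G Q e \ Q ⊆ Zs G Q e := sdiff_subset.trans (Z0_subset Q e)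
  -- the special configuration
  have hhalf : e + 2 * (Z0 G Q e ∩ Q).card ≤ Q.card + 2 * ((Zs G Q e \ Z0 G Q e) \ Q).card := by
    by_contra hcon
    refine B.special (by omega) (by omega) (by omega) ?_
    intro y hy u hu
    have h := f_miss H hg (hXF hy) hUZ
    rw [if_neg (fun hyU => (mem_sdiff.1 hyU).2 (mem_sdiff.1 hy).1)] at h
    have heq : nb G (Z0 G Q e \ Q) y = Z0 G Q e \ Q :=
      eq_of_subset_of_card_le (fun z hz => (mem_nb.1 hz).1) (by omega)
    rw [← heq] at hu
    exact (mem_nb.1 hu).2.symm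
  obtain ⟨Z', hZ'U, hZ'c, hZ'⟩ := sel (U := Z0 G Q e \ Q)
    (fun z => (nb G (Zs G Q e \ Z0 G Q e) z).card) (g := g) (by omega) (by
      intro T hT i hi hTc
      by_contra hcon
      push Not at hcon
      have hc := count G (F := Zs G Q e \ Z0 G Q e) (T := T) (i := i) (μ := min g i) (by
        intro y hy
        have h := f_miss H hg hy (hT.trans hUZ)
        rw [if_neg (fun hyT => (mem_sdiff.1 hy).2 (mem_sdiff.1 (hT hyT)).1)] at h
        omega) hcon
      rw [hTc] at hc
      have hf2 : (Zs G Q e \ Z0 G Q e).card ≤ 2 * g := by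
        rcases le_total i g with hig | hig
        · rw [min_eq_right hig] at hc
          have := Nat.le_of_mul_le_mul_right hc (by omega)
          omega
        · rw [min_eq_left hig] at hc
          have h3 : (g + i) * g ≤ 2 * g * i := by nlinarith
          exact Nat.le_of_mul_le_mul_right (hc.trans h3) (by omega)
      have hq4 : Q.card = 4 := by omega
      have hg2 : g = 2 := by omega
      have hf4 : (Zs G Q e \ Z0 G Q e).card = 4 := by omega
      have hFQ : Zs G Q e \ Z0 G Q e = Q := by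
        symm
        refine eq_of_subset_of_card_le ?_ (by omega)
        have hXQ : Q \ Z0 G Q e = Q := eq_of_subset_of_card_le sdiff_subset (by omega)
        rw [← hXQ] at hXF ⊢
        simpa [hXQ] using hXF
      subst hg2
      rw [hf4] at hc
      have hi2 : i = 2 := by
        rcases le_total i 2 with h | h
        · rw [min_eq_right h] at hc
          interval_cases i <;> omega
        · rw [min_eq_left h] at hc
          omega
      subst hi2
      refine B.obstruction hq4 hFQ (by omega) hT (by omega) ?_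
      intro z hz
      have := hcon z hz
      rw [hFQ] at this
      simpa using this)
  -- the set `S`
  have hd1 : Disjoint Q ((Zs G Q e \ Z0 G Q e) \ Q) := disjoint_sdiff
  have hd2 : Disjoint (Q ∪ ((Zs G Q e \ Z0 G Q e) \ Q)) Z' := by
    refine disjoint_left.2 fun y hy hy' => ?_
    have h := mem_sdiff.1 (hZ'U hy')
    rcases mem_union.1 hy with hy | hy
    · exact h.2 hy
    · exact (mem_sdiff.1 (mem_sdiff.1 hy).1).2 h.1
  have hS : (Q ∪ ((Zs G Q e \ Z0 G Q e) \ Q) ∪ Z').card = k + 1 := by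
    rw [card_union_of_disjoint hd2, card_union_of_disjoint hd1]; omega
  have hSZ : Q ∪ ((Zs G Q e \ Z0 G Q e) \ Q) ∪ Z' ⊆ Zs G Q e :=
    union_subset (union_subset (subset_Zs Q e) (sdiff_subset.trans sdiff_subset)) (hZ'U.trans hUZ)
  have hFS : Zs G Q e \ Z0 G Q e ⊆ Q ∪ ((Zs G Q e \ Z0 G Q e) \ Q) ∪ Z' := by
    intro y hy
    refine mem_union_left _ ?_
    by_cases hyQ : y ∈ Q
    · exact mem_union_left _ hyQ
    · exact mem_union_right _ (mem_sdiff.2 ⟨hy, hyQ⟩)
  have hcyc := fin G (S := Q ∪ ((Zs G Q e \ Z0 G Q e) \ Q) ∪ Z') (F := Zs G Q e \ Z0 G Q e) (g := g)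
    (by omega) hFS hclq (by omega) (by
      intro y hy
      have h := f_miss H hg hy hSZ
      rw [if_pos (hFS hy)] at h
      omega) (by
      intro D hD hne
      by_cases hDQ : ∃ z ∈ D, z ∈ Q
      · obtain ⟨z, hz, hzQ⟩ := hDQ
        refine ⟨z, hz, (min_le_left _ _).trans_lt ?_⟩
        have hsub : Q.erase z ⊆ nb G (Q ∪ ((Zs G Q e \ Z0 G Q e) \ Q) ∪ Z') z := by
          intro y hy
          rw [mem_erase] at hy
          exact mem_nb.2 ⟨mem_union_left _ (mem_union_left _ hy.2), B.clq z hzQ y hy.2 hy.1.symm⟩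
        have := card_le_card hsub
        rw [card_erase_of_mem hzQ] at this
        omega
      · push Not at hDQ
        have hBZ : D ⊆ Z' := by
          intro z hz
          have := mem_sdiff.1 (hD hz)
          rcases mem_union.1 this.1 with h | h
          · rcases mem_union.1 h with h | h
            · exact absurd h (hDQ z hz)
            · exact absurd (mem_sdiff.1 h).1 this.2
          · exact h
        obtain ⟨z, hz, hlt⟩ := hZ' D hBZ hne
        refine ⟨z, hz, hlt.trans_le (card_le_card ?_)⟩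
        intro y hy
        rw [mem_nb] at hy ⊢
        exact ⟨hFS hy.1, hy.2⟩)
  rw [hS] at hcyc
  exact H.nocyc hcyc.hasCyc

end Crest.Agent.R54
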