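import Crest.Agent.R54.StageA
import Crest.Agent.R54.StageB
import Crest.Agent.R54.Crit

/-!
# Row 54: cliques, wheels and neighbourhoods
-/

namespace Crest.Agent.R54

open Finset

variable {V : Type*} [Fintype V] [DecidableEq V] {G : SimpleGraph V} {k : ℕ}

/-- no `K_k`: `Hyp.clq_le`, and `e1` with `Clq.pan`, `Pan.noEar` (window `[2, k] ⊇ [2, 4]`). -/
theorem Hyp.clq_lt (H : Hyp G k) (h4 : 4 ≤ k) : ∀ K, Clq G K → K.card < k := by
  intro K hK
  refine lt_of_le_of_ne (H.clq_le hK) fun e => ?_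
  exact e1 H e ((hK.pan.noEar le_rfl (by omega) e.le H.nocyc).mono (by omega) (by omega))

/-- take a clique `Q` of maximum size `q ≥ |K|`; `q < k` by `clq_lt`; `q ≥ 6`: `stageA` with `hi = k`,
`e = k + 1 - q`; `q ∈ {4, 5}`: `BHyp.false`. -/
theorem Hyp.noClique (H : Hyp G k) (h4 : 4 ≤ k) {K : Finset V} (hK : Clq G K) (h : 4 ≤ K.card)
    (h2 : k + 1 ≤ 2 * K.card) : False := by
  classical
  obtain ⟨Q, hQ, hmax⟩ := exists_max_image (univ.filter fun K : Finset V => Clq G K) Finset.card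
    ⟨K, mem_filter.2 ⟨mem_univ _, hK⟩⟩
  have hQc : Clq G Q := (mem_filter.1 hQ).2
  have hmax' : ∀ K', Clq G K' → K'.card ≤ Q.card := fun K' hK' =>
    hmax K' (mem_filter.2 ⟨mem_univ _, hK'⟩)
  have h1 := hmax' K hK
  have h3 := H.clq_lt h4 Q hQc
  by_cases h6 : 6 ≤ Q.card
  · exact stageA (Q := Q) (e := k + 1 - Q.card) (hi := k) H (by omega) (by omega) (by omega)
      ((hQc.pan.noEar le_rfl (by omega) h3.le H.nocyc).mono (by omega) (by omega))
      (by omega) (by omega) (H.clq_lt h4)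
  · exact BHyp.false (Q := Q) (e := k + 1 - Q.card)
      ⟨H, hQc, by omega, by omega, by omega, by omega, hmax'⟩

/-- a `Pan _ 2` core with `7 ≤ q ≤ k`, `k + 2 ≤ 2q`: `stageA` with `hi = k - 1`. -/
theorem Hyp.noPan (H : Hyp G k) {Q : Finset V} (hQ : Pan G Q 2) (h7 : 7 ≤ Q.card)
    (hk : Q.card ≤ k) (h2 : k + 2 ≤ 2 * Q.card) : False := by
  exact stageA (Q := Q) (e := k + 1 - Q.card) (hi := k - 1) H (by omega) (by omega) (by omega)
    ((hQ.noEar (by omega) (by omega) hk H.nocyc).mono (by omega) (by omega))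
    (by omega) (by omega) (H.clq_lt (by omega))

/-- `k ≤ L`: the first `k` vertices of the cycle and `hasCyc_of_nbhd_path`.  `L + 1 = k ≥ 5`: `pan_wheel`,
`Pan.noEar` (window `[2, k-1]`), `e1`.  Otherwise (`L + 1 ≤ k` WLOG) `pan_wheel` and `noPan`. -/
theorem Hyp.noWheel (H : Hyp G k) {u : V} {S : Finset V} (hu : ∀ x ∈ S, G.Adj u x) {L : ℕ}
    (hC : CycIn G S L) (h : k ≤ L ∨ (5 ≤ k ∧ L + 1 = k) ∨ (6 ≤ L ∧ k ≤ 2 * L)) : False := by
  have h3 := H.three
  by_cases hkL : k ≤ L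
  · obtain ⟨p, -, hp, -, hS⟩ := hC
    have := hasCyc_of_nbhd_path (u := u) (hp.take (m := k - 1) (by omega)) (by omega)
      fun i hi => hu _ (hS i (by omega))
    rw [show k - 1 + 2 = k + 1 by omega] at this
    exact H.nocyc this
  obtain ⟨Q, hQ, hP⟩ := pan_wheel hC hu
  rcases h with h | h | h
  · exact hkL h
  · exact e1 H (Q := Q) (by omega)
      ((hP.noEar (by omega) (by omega) (by omega) H.nocyc).mono (by omega) (by omega))
  · exact H.noPan hP (by omega) (by omega) (by omega)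

/-- a clique in the neighbourhood of `u`, together with `u` -/
theorem Hyp.nbhd_noClique (H : Hyp G k) (h4 : 4 ≤ k) {u : V} {K : Finset V}
    (hu : K ⊆ nb G univ u) (hK : Clq G K) (h : 3 ≤ K.card) (h2 : k ≤ 2 * K.card + 1) : False := by
  have hadj : ∀ x ∈ K, G.Adj u x := fun x hx => (mem_nb.1 (hu hx)).2
  have hc : (insert u K).card = K.card + 1 :=
    card_insert_of_notMem fun h => (hadj u h).ne rfl
  refine H.noClique h4 (K := insert u K) (fun x hx y hy hxy => ?_) (by omega) (by omega)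
  rcases mem_insert.1 hx with hx | hx <;> rcases mem_insert.1 hy with hy | hy
  · exact absurd (hx.trans hy.symm) hxy
  · exact hx ▸ hadj y hy
  · exact hy ▸ (hadj x hx).symm
  · exact hK x hx y hy hxy

/-- `c = k / 2 ≥ 2`.  A critical `T ⊆ N(u)` has a cycle of length `L ≥ 2c ≥ k - 1` (`noWheel`; `2c = k` for even
`k`, and odd `k ≥ 5`) or `L = |T| ≤ 2c - 1`; `|T| ≤ c + 2` gives `K_{c+1} ⊆ T` (`Crit.small`), with `u` a clique of size
`c + 2 ≥ 4` (`noClique`); `|T| ≥ c + 3` forces `c ≥ 4` and `noWheel` applies. -/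
theorem Hyp.nbhd_col (H : Hyp G k) (h4 : 4 ≤ k) (u : V) : Col G (nb G univ u) (k / 2) := by
  by_contra hn
  obtain ⟨T, hT, hc⟩ := exists_crit hn
  have hu : ∀ x ∈ T, G.Adj u x := fun x hx => (mem_nb.1 (hT hx)).2
  obtain ⟨L, hL, h⟩ := hc.cyc (by omega)
  by_cases h1 : T.card ≤ k / 2 + 2
  · obtain ⟨K, hK, hKc, hKn⟩ := hc.small h1
    exact H.nbhd_noClique h4 (hK.trans hT) hKc (by omega) (by omega)
  · exact H.noWheel hu hL (by omega)

/-- even `k = 2c ≥ 6`: `deg_indep` for `T = N(u)`.  No `K_c` in `N(u)` (`noClique` with `u`, size `c + 1 ≥ 4`).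
Degeneracy: if `T' ⊆ N(u)` has minimum degree `≥ c`, `rot` gives a cycle of length `≥ 2c = k` (`noWheel`) or
`C`; `|C| = c + 1` makes `C` a clique (every `s ≠ z` has `c` neighbours in `C`), `|C| ≥ c + 2` is a wheel
(`k = 6`: `|C| = 5`, `L + 1 = k`; `k ≥ 8`: `L ≥ 6`). -/
theorem Hyp.nbhd_strict (H : Hyp G k) {c : ℕ} (hk : k = 2 * c) (hc : 3 ≤ c) (u : V) :
    ∃ I, I ⊆ nb G univ u ∧ Indep G I ∧ (nb G univ u).card + 1 ≤ c * I.card := by
  have hK : ∀ K, K ⊆ nb G univ u → Clq G K → K.card < c := fun K hK hKc => by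
    by_contra hn
    exact H.nbhd_noClique (by omega) hK hKc (by omega) (by omega)
  refine deg_indep (by omega) (card_pos.1 (by have := H.deg u; omega)) (fun T hT hne => ?_) hK
  by_contra hn
  have hδ : ∀ x ∈ T, c ≤ (nb G T x).card := fun x hx => by
    by_contra h
    exact hn ⟨x, hx, by omega⟩
  have hu : ∀ x ∈ T, G.Adj u x := fun x hx => (mem_nb.1 (hT hx)).2
  rcases rot (by omega) hne hδ with ⟨L, hL, hC⟩ | ⟨C, z, hCT, -, h1, h2, hC, hs⟩
  · exact H.noWheel hu hC (by omega)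
  by_cases h3 : C.card = c + 1
  · have key : ∀ s ∈ C, s ≠ z → ∀ y ∈ C, s ≠ y → G.Adj s y := by
      intro s hsC hsz y hy hsy
      have h4 : nb G T s = C.erase s := by
        refine eq_of_subset_of_card_le (fun x hx => mem_erase.2
          ⟨(mem_nb.1 hx).2.ne', hs s hsC hsz hx⟩) ?_
        rw [card_erase_of_mem hsC]
        have := hδ s (hCT hsC)
        omega
      have h5 : y ∈ nb G T s := h4 ▸ mem_erase.2 ⟨hsy.symm, hy⟩
      exact (mem_nb.1 h5).2
    have := hK C (hCT.trans hT) fun x hx y hy hxy => by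
      by_cases hxz : x = z
      · exact (key y hy (fun e => hxy (hxz.trans e.symm)) x hx (Ne.symm hxy)).symm
      · exact key x hx hxz y hy hxy
    omega
  · exact H.noWheel (fun x hx => hu x (hCT hx)) hC (by omega)

end Crest.Agent.R54
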