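import Crest.Agent.R54.Basic

/-!
# Row 54: rankings and monotone chains (normalisation)
-/

namespace Crest.Agent.R54

open Finset

variable {V : Type*} {G : SimpleGraph V} {Q Q1 Y : Finset V} {ψ : V → ℕ}

/-- a monotone chain is an ear (injectivity from strict monotonicity of `ψ` on the inner vertices). -/
theorem Chain.isEar (hR : Rank G Q Q1 Y ψ) {p : ℕ → V} {l : ℕ} (h : Chain G Q Q1 Y ψ p l) :
    IsEar G Q p l := by
  obtain ⟨h2, hadj, h0, hl, hl', hY, hlt⟩ := h
  have mono : ∀ j i, 0 < i → i < j → j < l → ψ (p i) < ψ (p j) := by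
    intro j
    induction j with
    | zero => intro i _ h; omega
    | succ j ih =>
      intro i hi hij hj
      rcases (Nat.lt_succ_iff.1 hij).eq_or_lt with rfl | h
      · exact hlt i hi hj
      · exact (ih i hi h (by omega)).trans (hlt j (by omega) hj)
  have key : ∀ i j, i < j → j ≤ l → p i ≠ p j := by
    intro i j hij hj e
    rcases hj.eq_or_lt with rfl | hj
    · rcases Nat.eq_zero_or_pos i with rfl | hi
      · exact hl' (e ▸ h0)
      · exact hR.disj _ (hY i hi hij) (e ▸ hl)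
    · rcases Nat.eq_zero_or_pos i with rfl | hi
      · exact hR.disj _ (hY j hij hj) (e ▸ hR.sub h0)
      · exact (mono j i hi hij hj).ne (by rw [e])
  refine ⟨⟨hadj, fun i j hi hj e => ?_⟩, h2, hR.sub h0, hl, fun i hi hi' => hR.disj _ (hY i hi hi')⟩
  rcases lt_trichotomy i j with h | h | h
  exacts [absurd e (key i j h hj), h, absurd e.symm (key j i h hi)]

/-- descending route: strong induction on `ψ y` using `Rank.down` (`IsPath.cons`). -/
theorem Rank.exists_down (hR : Rank G Q Q1 Y ψ) (h1 : ∀ y ∈ Y, 1 ≤ ψ y) {y : V} (hy : y ∈ Y) :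
    ∃ (p : ℕ → V) (r : ℕ), 1 ≤ r ∧ r ≤ ψ y ∧ p 0 = y ∧ p r ∈ Q1 ∧ (∀ i, i < r → G.Adj (p i) (p (i + 1))) ∧
      (∀ i, i < r → p i ∈ Y) ∧ ∀ i, i + 1 < r → ψ (p (i + 1)) < ψ (p i) := by
  induction hn : ψ y using Nat.strong_induction_on generalizing y with
  | _ n ih =>
    subst hn
    rcases hR.down y hy with ⟨x, hx, ha⟩ | ⟨x, hx, ha, hlt⟩
    · refine ⟨fun i => if i = 0 then y else x, 1, le_rfl, h1 y hy, by simp, by simpa using hx,
        fun i hi => ?_, fun i hi => ?_, fun i hi => by omega⟩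
      · obtain rfl : i = 0 := by omega
        simpa using ha
      · obtain rfl : i = 0 := by omega
        simpa using hy
    · obtain ⟨p, r, r1, r2, p0, pr, padj, pY, plt⟩ := ih _ hlt hx rfl
      refine ⟨fun i => Nat.casesOn i y p, r + 1, by omega, by omega, rfl, pr, fun i hi => ?_,
        fun i hi => ?_, fun i hi => ?_⟩
      · cases i with
        | zero => simpa [p0] using ha
        | succ i => exact padj i (by omega)
      · cases i with
        | zero => exact hy
        | succ i => exact pY i (by omega)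
      · cases i with
        | zero => simpa [p0] using hlt
        | succ i => exact plt i (by omega)

/-- ascending route: induction on `e - ψ y` using `Rank.up`. -/
theorem Rank.exists_up (hR : Rank G Q Q1 Y ψ) {e : ℕ} (he : ∀ y ∈ Y, ψ y + 1 ≤ e) {y : V}
    (hy : y ∈ Y) :
    ∃ (p : ℕ → V) (r : ℕ), 1 ≤ r ∧ r + ψ y ≤ e ∧ p 0 = y ∧ p r ∈ Q ∧ p r ∉ Q1 ∧
      (∀ i, i < r → G.Adj (p i) (p (i + 1))) ∧
      (∀ i, i < r → p i ∈ Y) ∧ ∀ i, i + 1 < r → ψ (p i) < ψ (p (i + 1)) := by
  induction hn : e - ψ y using Nat.strong_induction_on generalizing y with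
  | _ n ih =>
    subst hn
    rcases hR.up y hy with ⟨x, hx, hx', ha⟩ | ⟨x, hx, ha, hlt⟩
    · refine ⟨fun i => if i = 0 then y else x, 1, le_rfl, by have := he y hy; omega, by simp,
        by simpa using hx, by simpa using hx', fun i hi => ?_, fun i hi => ?_, fun i hi => by omega⟩
      · obtain rfl : i = 0 := by omega
        simpa using ha
      · obtain rfl : i = 0 := by omega
        simpa using hy
    · obtain ⟨p, r, r1, r2, p0, pr, pr', padj, pY, plt⟩ :=
        ih _ (by have := he x hx; omega) hx rfl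
      refine ⟨fun i => Nat.casesOn i y p, r + 1, by omega, by omega, rfl, pr, pr', fun i hi => ?_,
        fun i hi => ?_, fun i hi => ?_⟩
      · cases i with
        | zero => simpa [p0] using ha
        | succ i => exact padj i (by omega)
      · cases i with
        | zero => exact hy
        | succ i => exact pY i (by omega)
      · cases i with
        | zero => simpa [p0] using hlt
        | succ i => exact plt i (by omega)

/-- lower part of a chain, ending at `y` after `d` steps -/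
private def Low (G : SimpleGraph V) (Q1 Y : Finset V) (ψ : V → ℕ) (y : V) (d : ℕ) : Prop :=
  ∃ p : ℕ → V, 0 < d ∧ p 0 ∈ Q1 ∧ p d = y ∧ (∀ i, i < d → G.Adj (p i) (p (i + 1))) ∧
    (∀ i, 0 < i → i ≤ d → p i ∈ Y) ∧ ∀ i, 0 < i → i < d → ψ (p i) < ψ (p (i + 1))

private theorem Low.step {y y' : V} {d : ℕ} (h : Low G Q1 Y ψ y d) (hy : y' ∈ Y)
    (ha : G.Adj y y') (hlt : ψ y < ψ y') : Low G Q1 Y ψ y' (d + 1) := by
  obtain ⟨p, hd, p0, rfl, padj, pY, plt⟩ := h
  refine ⟨fun i => if i ≤ d then p i else y', by omega, by simpa using p0, by simp,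
    fun i hi => ?_, fun i hi hi' => ?_, fun i hi hi' => ?_⟩
  · rcases (Nat.lt_succ_iff.1 hi).eq_or_lt with rfl | h
    · simpa using ha
    · simpa [h.le, Nat.succ_le_of_lt h] using padj i h
  · by_cases h : i ≤ d
    · simpa [h] using pY i hi h
    · simpa [h] using hy
  · rcases (Nat.lt_succ_iff.1 hi').eq_or_lt with rfl | h
    · simpa using hlt
    · simpa [h.le, Nat.succ_le_of_lt h] using plt i hi h

private theorem Low.glue {c : ℕ → V} {l d n : ℕ} (hc : Chain G Q Q1 Y ψ c l) (hd : 0 < d)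
    (hd' : d < l) (h : Low G Q1 Y ψ (c d) n) : ∃ q, Chain G Q Q1 Y ψ q (n + (l - d)) := by
  obtain ⟨p, hn, p0, pn, padj, pY, plt⟩ := h
  obtain ⟨h2, cadj, -, cl, cl', cY, clt⟩ := hc
  let q : ℕ → V := fun i => if i ≤ n then p i else c (i - n + d)
  have q1 : ∀ i, i ≤ n → q i = p i := fun i hi => if_pos hi
  have q2 : ∀ i, n ≤ i → q i = c (i - n + d) := by
    intro i hi
    rcases hi.eq_or_lt with rfl | hi
    · rw [q1 _ le_rfl, pn]; simp
    · exact if_neg (by omega)
  have e : n + (l - d) - n + d = l := by omega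
  refine ⟨q, by omega, fun i hi => ?_, q1 0 (by omega) ▸ p0, ?_, ?_, fun i hi hi' => ?_,
    fun i hi hi' => ?_⟩
  · by_cases h : i < n
    · rw [q1 _ h.le, q1 _ h]; exact padj i h
    · rw [q2 _ (by omega), q2 _ (by omega), show i + 1 - n + d = i - n + d + 1 by omega]
      exact cadj _ (by omega)
  · rw [q2 _ (by omega), e]; exact cl
  · rw [q2 _ (by omega), e]; exact cl'
  · by_cases h : i ≤ n
    · rw [q1 _ h]; exact pY i hi h
    · rw [q2 _ (by omega)]; exact cY _ (by omega) (by omega)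
  · by_cases h : i < n
    · rw [q1 _ h.le, q1 _ h]; exact plt i hi h
    · rw [q2 _ (by omega), q2 _ (by omega), show i + 1 - n + d = i - n + d + 1 by omega]
      exact clt _ (by omega) (by omega)

/-- **Increasing paths are short.**  If every `y ∈ Y` lies on a chain of length `≤ 2e - 1` and no ear has
length in `[e + 1, 2e - 1]`, an increasing walk `r 0, …, r s` in `Y` has `s + 2 ≤ e`.
Proof: chains are ears, so every chain of length `≤ 2e - 1` has length `≤ e`.  For `y ∈ Y` fix a chain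
`c_y` of length `l_y ≤ e` with `y` at position `d_y`, `1 ≤ d_y ≤ l_y - 1`, `u_y = l_y - d_y ∈ [1, e - 1]`.
By induction on `b ≤ s`: the chain (lower part of `c_{r 0}`), `r 0 … r b`, (upper part of `c_{r b}`) has
length `f b = d_{r 0} + b + u_{r b} ≤ e`, because `f (b+1) ≤ f b + 1 + (e - 1) - 1 ≤ 2e - 1`. -/
theorem Rank.incr_le (hR : Rank G Q Q1 Y ψ) {e : ℕ} (hno : NoEar G Q (e + 1) (2 * e - 1))
    (hch : ∀ y ∈ Y, ∃ p l i, Chain G Q Q1 Y ψ p l ∧ l ≤ 2 * e - 1 ∧ 0 < i ∧ i < l ∧ p i = y)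
    {r : ℕ → V} {s : ℕ} (hr : ∀ i, i ≤ s → r i ∈ Y) (hadj : ∀ i, i < s → G.Adj (r i) (r (i + 1)))
    (hlt : ∀ i, i < s → ψ (r i) < ψ (r (i + 1))) : s + 2 ≤ e := by
  have short : ∀ p l, Chain G Q Q1 Y ψ p l → l ≤ 2 * e - 1 → l ≤ e := by
    intro p l h hl
    by_contra hc
    exact hno p l (h.isEar hR) (by omega) hl
  obtain ⟨c0, l0, d0, hc0, hl0, hd0, hd0', e0⟩ := hch _ (hr 0 (Nat.zero_le _))
  have hle0 := short _ _ hc0 hl0
  have key : ∀ b, b ≤ s → Low G Q1 Y ψ (r b) (d0 + b) ∧ d0 + b + 1 ≤ e := by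
    intro b
    induction b with
    | zero =>
      intro _
      obtain ⟨-, cadj, c0', -, -, cY, clt⟩ := hc0
      exact ⟨⟨c0, hd0, c0', e0, fun i hi => cadj i (by omega), fun i hi hi' => cY i hi (by omega),
        fun i hi hi' => clt i hi (by omega)⟩, by omega⟩
    | succ b ih =>
      intro hb
      obtain ⟨h1, h2⟩ := ih (by omega)
      have h3 := h1.step (hr _ hb) (hadj b hb) (hlt b hb)
      obtain ⟨c, l, d, hc, hl, hd, hd', e1⟩ := hch _ (hr _ hb)
      have hle := short _ _ hc hl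
      obtain ⟨q, hq⟩ := Low.glue hc hd hd' (e1 ▸ h3)
      have := short _ _ hq (by omega)
      exact ⟨h3, by omega⟩
  have := (key s le_rfl).2
  omega

/-- **Normalisation.**  `φ y` = the largest number of vertices of an increasing walk in `Y` ending at `y`
(`Nat.findGreatest` with bound `e`, or `sSup`); it lies in `[1, e - 1]` by `incr_le`, and
`x ~ y`, `ψ x < ψ y` imply `φ x < φ y`, so `Rank` transfers from `ψ` to `φ`. -/
theorem Rank.norm (hR : Rank G Q Q1 Y ψ) {e : ℕ} (hno : NoEar G Q (e + 1) (2 * e - 1))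
    (hch : ∀ y ∈ Y, ∃ p l i, Chain G Q Q1 Y ψ p l ∧ l ≤ 2 * e - 1 ∧ 0 < i ∧ i < l ∧ p i = y) :
    ∃ φ : V → ℕ, Rank G Q Q1 Y φ ∧ ∀ y ∈ Y, 1 ≤ φ y ∧ φ y + 1 ≤ e := by
  classical
  let W : V → ℕ → Prop := fun y n => ∃ r : ℕ → V, r n = y ∧ (∀ i, i ≤ n → r i ∈ Y) ∧
    (∀ i, i < n → G.Adj (r i) (r (i + 1))) ∧ ∀ i, i < n → ψ (r i) < ψ (r (i + 1))
  have hW : ∀ y n, W y n → n + 2 ≤ e := fun y n ⟨r, _, h1, h2, h3⟩ => hR.incr_le hno hch h1 h2 h3
  have hspec : ∀ y ∈ Y, W y (Nat.findGreatest (W y) e) := fun y hy =>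
    Nat.findGreatest_spec (m := 0) (Nat.zero_le _)
      ⟨fun _ => y, rfl, fun _ _ => hy, fun _ h => by omega, fun _ h => by omega⟩
  have hmono : ∀ x ∈ Y, ∀ y ∈ Y, G.Adj x y → ψ x < ψ y →
      Nat.findGreatest (W x) e + 1 < Nat.findGreatest (W y) e + 1 := by
    intro x hx y hy ha hlt
    have h0 := hW _ _ (hspec x hx)
    obtain ⟨r, e1, rY, radj, rlt⟩ := hspec x hx
    generalize Nat.findGreatest (W x) e = n at *
    refine Nat.succ_lt_succ (Nat.le_findGreatest (by omega)
      ⟨fun i => if i ≤ n then r i else y, by simp, fun i hi => ?_, fun i hi => ?_, fun i hi => ?_⟩)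
    · by_cases h : i ≤ n
      · simpa [h] using rY i h
      · simpa [h] using hy
    · rcases (Nat.lt_succ_iff.1 hi).eq_or_lt with rfl | h
      · simpa [e1] using ha
      · simpa [h.le, Nat.succ_le_of_lt h] using radj i h
    · rcases (Nat.lt_succ_iff.1 hi).eq_or_lt with rfl | h
      · simpa [e1] using hlt
      · simpa [h.le, Nat.succ_le_of_lt h] using rlt i h
  refine ⟨fun y => Nat.findGreatest (W y) e + 1, ⟨hR.sub, hR.disj, fun x hx y hy ha => ?_,
    fun y hy => ?_, fun y hy => ?_⟩, fun y hy => ⟨by simp, hW _ _ (hspec y hy)⟩⟩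
  · rcases lt_or_gt_of_ne (hR.proper x hx y hy ha) with h | h
    exacts [(hmono x hx y hy ha h).ne, (hmono y hy x hx ha.symm h).ne']
  · exact (hR.down y hy).imp_right fun ⟨x, hx, ha, h⟩ => ⟨x, hx, ha, hmono x hx y hy ha.symm h⟩
  · exact (hR.up y hy).imp_right fun ⟨x, hx, ha, h⟩ => ⟨x, hx, ha, hmono y hy x hx ha h⟩

end Crest.Agent.R54
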