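import Crest.Agent.R54.Orient1

/-!
# Row 54: extending a normalised ranking by a segment of a short ear
-/

namespace Crest.Agent.R54

open Finset

variable {V : Type*} [Fintype V] [DecidableEq V] {G : SimpleGraph V} {Q : Finset V} {e : ℕ}

/-- a walk from `y` through `Y` (steps related by `R`) ending in a vertex with property `E`. -/
def O2Arm (G : SimpleGraph V) (Y : Finset V) (E : V → Prop) (R : V → V → Prop) (y : V) (r : ℕ) :
    Prop :=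
  ∃ p : ℕ → V, p 0 = y ∧ E (p r) ∧ (∀ i, i < r → G.Adj (p i) (p (i + 1))) ∧
    (∀ i, i < r → p i ∈ Y) ∧ ∀ i, i + 1 < r → R (p i) (p (i + 1))

section arm
omit [Fintype V] [DecidableEq V]
variable {Y Y' : Finset V} {E : V → Prop} {R R' : V → V → Prop} {x y : V} {r : ℕ}

theorem O2Arm.zero (h : E y) : O2Arm G Y E R y 0 :=
  ⟨fun _ => y, rfl, h, fun _ h => absurd h (by omega), fun _ h => absurd h (by omega),
    fun _ h => absurd h (by omega)⟩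

theorem O2Arm.cons (h : O2Arm G Y E R y r) (hx : x ∈ Y) (hadj : G.Adj x y) (hR : 0 < r → R x y) :
    O2Arm G Y E R x (r + 1) := by
  obtain ⟨p, rfl, h1, h2, h3, h4⟩ := h
  refine ⟨fun i => Nat.casesOn i x p, rfl, h1, fun i hi => ?_, fun i hi => ?_, fun i hi => ?_⟩
  · cases i with
    | zero => exact hadj
    | succ i => exact h2 i (by omega)
  · cases i with
    | zero => exact hx
    | succ i => exact h3 i (by omega)
  · cases i with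
    | zero => exact hR (by omega)
    | succ i => exact h4 i (by omega)

theorem O2Arm.mono (h : O2Arm G Y E R y r) (hY : Y ⊆ Y')
    (hR : ∀ a ∈ Y, ∀ b ∈ Y, R a b → R' a b) : O2Arm G Y' E R' y r := by
  obtain ⟨p, h0, h1, h2, h3, h4⟩ := h
  exact ⟨p, h0, h1, h2, fun i hi => hY (h3 i hi),
    fun i hi => hR _ (h3 i (by omega)) _ (h3 _ hi) (h4 i hi)⟩

theorem O2Arm.chain {Q1 : Finset V} {ψ : V → ℕ} {r' : ℕ}
    (h : O2Arm G Y (· ∈ Q1) (fun a b => ψ b < ψ a) y r)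
    (h' : O2Arm G Y (fun a => a ∈ Q ∧ a ∉ Q1) (fun a b => ψ a < ψ b) y r') (hr : 0 < r)
    (hr' : 0 < r') : ∃ p, Chain G Q Q1 Y ψ p (r + r') ∧ p r = y := by
  obtain ⟨p, h0, h1, h2, h3, h4⟩ := h
  obtain ⟨q, k0, k1, k2, k3, k4⟩ := h'
  have e1 : ∀ i, i ≤ r → (if i ≤ r then p (r - i) else q (i - r)) = p (r - i) := fun i hi =>
    if_pos hi
  have e2 : ∀ i, r ≤ i → (if i ≤ r then p (r - i) else q (i - r)) = q (i - r) := fun i hi => by
    split_ifs with h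
    · obtain rfl : i = r := by omega
      rw [Nat.sub_self, h0, k0]
    · rfl
  refine ⟨fun i => if i ≤ r then p (r - i) else q (i - r),
    ⟨by omega, fun i hi => ?_, ?_, ?_, ?_, fun i hi hi' => ?_, fun i hi hi' => ?_⟩, ?_⟩
  · beta_reduce
    rcases Nat.lt_or_ge i r with h | h
    · rw [e1 i h.le, e1 (i + 1) h, show r - i = r - (i + 1) + 1 by omega]
      exact (h2 _ (by omega)).symm
    · rw [e2 i h, e2 (i + 1) (by omega), show i + 1 - r = i - r + 1 by omega]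
      exact k2 _ (by omega)
  · beta_reduce
    rw [e1 0 (by omega)]; exact h1
  · beta_reduce
    rw [e2 _ (by omega), Nat.add_sub_cancel_left]; exact k1.1
  · beta_reduce
    rw [e2 _ (by omega), Nat.add_sub_cancel_left]; exact k1.2
  · beta_reduce
    rcases Nat.lt_or_ge i r with h | h
    · rw [e1 i h.le]; exact h3 _ (by omega)
    · rw [e2 i h]; exact k3 _ (by omega)
  · beta_reduce
    rcases Nat.lt_or_ge i r with h | h
    · rw [e1 i h.le, e1 (i + 1) h, show r - i = r - (i + 1) + 1 by omega]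
      exact h4 _ (by omega)
    · rw [e2 i h, e2 (i + 1) (by omega), show i + 1 - r = i - r + 1 by omega]
      exact k4 _ (by omega)
  · beta_reduce
    rw [e1 r le_rfl, Nat.sub_self, h0]

end arm

/-- **Inserting a segment.**  `σ 0, …, σ n` (`n ≥ 2`) is a path whose inner vertices are new (outside
`Y ∪ Q`); the low end `σ 0` is in `Q1` or in `Y`, the high end `σ n` is in `Q \ Q1` or in `Y`, and
`dlow + n + uhigh ≤ 2e - 1` is guaranteed by the numerical hypotheses.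
Proof: `Y' = Y ∪ {σ 1, …, σ (n-1)}`, `M = n + 1`, `a = φ (σ 0)` if `σ 0 ∈ Y` and `a = 0` otherwise;
`ψ y = M * φ y + (if y = σ 0 then 0 else M - 1)` on `Y`, `ψ (σ s) = M * a + s` for `0 < s < n`.
`ψ` is a `Rank` of `Y'` (residues mod `M` separate old from new vertices; on `Y` it is order-compatible
with `φ`; `φ ≥ 1` on `Y` handles `a = 0`).  Old vertices lie on the chain (reversed `exists_down`) +
(`exists_up`) of length `≤ e`; new vertices on (down route of `σ 0`) + `σ` + (up route of `σ n`).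
Then `Rank.norm`. -/
theorem rank_insert {Q1 Y : Finset V} {φ : V → ℕ} (hno : NoEar G Q (e + 1) (2 * e - 1))
    (hR : Rank G Q Q1 Y φ) (hφ : ∀ y ∈ Y, 1 ≤ φ y ∧ φ y + 1 ≤ e) {σ : ℕ → V} {n : ℕ}
    (hσ : IsPath G σ n) (hn : 2 ≤ n) (hne : n ≤ e)
    (hnew : ∀ s, 0 < s → s < n → σ s ∉ Y ∧ σ s ∉ Q)
    (hlow : σ 0 ∈ Q1 ∨ σ 0 ∈ Y) (hhigh : (σ n ∈ Q ∧ σ n ∉ Q1) ∨ σ n ∈ Y)
    (hboth : σ 0 ∈ Y → σ n ∈ Y → φ (σ 0) ≤ φ (σ n) ∧ n + 1 ≤ e) :
    ∃ φ' : V → ℕ, Rank G Q Q1 (Y ∪ (Finset.Ioo 0 n).image σ) φ' ∧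
      ∀ y ∈ Y ∪ (Finset.Ioo 0 n).image σ, 1 ≤ φ' y ∧ φ' y + 1 ≤ e := by
  classical
  obtain ⟨a, ha⟩ : ∃ a, a = if σ 0 ∈ Y then φ (σ 0) else 0 := ⟨_, rfl⟩
  -- the new ranking
  obtain ⟨ψ, hψY, hψσ⟩ : ∃ ψ : V → ℕ,
      (∀ y ∈ Y, ψ y = (n + 1) * φ y + if y = σ 0 then 0 else n) ∧
      ∀ s, 0 < s → s < n → ψ (σ s) = (n + 1) * a + s := by
    refine ⟨fun y => if h : ∃ s, 0 < s ∧ s < n ∧ σ s = y then (n + 1) * a + h.choose
      else (n + 1) * φ y + if y = σ 0 then 0 else n, fun y hy => ?_, fun s h1 h2 => ?_⟩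
    · beta_reduce
      rw [dif_neg]
      rintro ⟨s, h1, h2, rfl⟩
      exact (hnew s h1 h2).1 hy
    · have h : ∃ t, 0 < t ∧ t < n ∧ σ t = σ s := ⟨s, h1, h2, rfl⟩
      beta_reduce
      rw [dif_pos h, hσ.2 _ _ h.choose_spec.2.1.le h2.le h.choose_spec.2.2]
  have hmem : ∀ y, y ∈ Y ∪ (Finset.Ioo 0 n).image σ ↔ y ∈ Y ∨ ∃ s, 0 < s ∧ s < n ∧ σ s = y := by
    intro y; simp [and_assoc]
  have hσmem : ∀ s, 0 < s → s < n → σ s ∈ Y ∪ (Finset.Ioo 0 n).image σ := fun s h1 h2 =>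
    (hmem _).2 (Or.inr ⟨s, h1, h2, rfl⟩)
  have hlt : ∀ x ∈ Y, ∀ y ∈ Y, φ x < φ y → ψ x < ψ y := by
    intro x hx y hy h
    rw [hψY x hx, hψY y hy]
    have := Nat.mul_le_mul_left (n + 1) (show φ x + 1 ≤ φ y from h)
    rw [mul_add] at this
    split_ifs <;> omega
  have hne' : ∀ x ∈ Y, ∀ s, 0 < s → s < n → ψ x ≠ ψ (σ s) := by
    intro x hx s h1 h2 h
    rw [hψY x hx, hψσ s h1 h2] at h
    have := congrArg (· % (n + 1)) h
    simp only [Nat.mul_add_mod] at this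
    rw [Nat.mod_eq_of_lt (show s < n + 1 by omega)] at this
    split_ifs at this
    · simp at this; omega
    · rw [Nat.mod_eq_of_lt (Nat.lt_succ_self n)] at this; omega
  have hlo : σ 0 ∈ Y → ψ (σ 0) < ψ (σ 1) := fun h => by
    rw [hψY _ h, hψσ 1 (by omega) (by omega), ha, if_pos h, if_pos rfl]; omega
  have hhi : σ n ∈ Y → ψ (σ (n - 1)) < ψ (σ n) := fun h => by
    have h0 : σ n ≠ σ 0 := fun h' => by have := hσ.2 _ _ le_rfl (Nat.zero_le _) h'; omega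
    rw [hψY _ h, hψσ _ (by omega) (by omega), if_neg h0]
    have h1 : a ≤ φ (σ n) := by
      rw [ha]; split_ifs with h2
      · exact (hboth h2 h).1
      · exact Nat.zero_le _
    have := Nat.mul_le_mul_left (n + 1) h1
    omega
  have hstep : ∀ s, 0 < s → s + 1 < n → ψ (σ s) < ψ (σ (s + 1)) := fun s h1 h2 => by
    rw [hψσ s h1 (by omega), hψσ (s + 1) (by omega) h2]; omega
  have hR' : Rank G Q Q1 (Y ∪ (Finset.Ioo 0 n).image σ) ψ := by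
    refine ⟨hR.sub, fun y hy => ?_, fun x hx y hy hadj => ?_, fun y hy => ?_, fun y hy => ?_⟩
    · rcases (hmem y).1 hy with h | ⟨s, h1, h2, rfl⟩
      · exact hR.disj y h
      · exact (hnew s h1 h2).2
    · rcases (hmem x).1 hx with h | ⟨s, h1, h2, rfl⟩ <;>
        rcases (hmem y).1 hy with h' | ⟨t, h3, h4, rfl⟩
      · rcases lt_or_gt_of_ne (hR.proper x h y h' hadj) with h5 | h5
        · exact (hlt x h y h' h5).ne
        · exact (hlt y h' x h h5).ne'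
      · exact hne' x h t h3 h4
      · exact (hne' y h' s h1 h2).symm
      · rw [hψσ s h1 h2, hψσ t h3 h4]
        intro h5
        obtain rfl : s = t := by omega
        exact hadj.ne rfl
    · rcases (hmem y).1 hy with h | ⟨s, h1, h2, rfl⟩
      · rcases hR.down y h with h3 | ⟨x, hx, h3, h4⟩
        · exact Or.inl h3
        · exact Or.inr ⟨x, mem_union_left _ hx, h3, hlt x hx y h h4⟩
      · obtain ⟨s, rfl⟩ : ∃ t, s = t + 1 := ⟨s - 1, by omega⟩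
        have h3 := (hσ.1 s (by omega)).symm
        rcases Nat.eq_zero_or_pos s with rfl | h4
        · rcases hlow with h5 | h5
          · exact Or.inl ⟨_, h5, h3⟩
          · exact Or.inr ⟨_, mem_union_left _ h5, h3, hlo h5⟩
        · exact Or.inr ⟨_, hσmem s h4 (by omega), h3, hstep s h4 h2⟩
    · rcases (hmem y).1 hy with h | ⟨s, h1, h2, rfl⟩
      · rcases hR.up y h with h3 | ⟨x, hx, h3, h4⟩
        · exact Or.inl h3
        · exact Or.inr ⟨x, mem_union_left _ hx, h3, hlt y h x hx h4⟩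
      · have h3 := hσ.1 s h2
        rcases Nat.lt_or_ge (s + 1) n with h4 | h4
        · exact Or.inr ⟨_, hσmem _ (by omega) h4, h3, hstep s h1 h4⟩
        · obtain rfl : n = s + 1 := by omega
          rcases hhigh with h5 | h5
          · exact Or.inl ⟨_, h5.1, h5.2, h3⟩
          · exact Or.inr ⟨_, mem_union_left _ h5, h3, hhi h5⟩
  have hdown : ∀ y ∈ Y, ∃ r, 1 ≤ r ∧ r ≤ φ y ∧ O2Arm G (Y ∪ (Finset.Ioo 0 n).image σ) (· ∈ Q1)
      (fun a b => ψ b < ψ a) y r := fun y hy => by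
    obtain ⟨p, r, h1, h2, h3, h4, h5, h6, h7⟩ := hR.exists_down (fun y hy => (hφ y hy).1) hy
    exact ⟨r, h1, h2, O2Arm.mono (R := fun a b => φ b < φ a) ⟨p, h3, h4, h5, h6, h7⟩
      subset_union_left fun a ha b hb h => hlt b hb a ha h⟩
  have hup : ∀ y ∈ Y, ∃ r, 1 ≤ r ∧ r + φ y ≤ e ∧ O2Arm G (Y ∪ (Finset.Ioo 0 n).image σ)
      (fun a => a ∈ Q ∧ a ∉ Q1) (fun a b => ψ a < ψ b) y r := fun y hy => by
    obtain ⟨p, r, h1, h2, h3, h4, h4', h5, h6, h7⟩ := hR.exists_up (fun y hy => (hφ y hy).2) hy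
    exact ⟨r, h1, h2, O2Arm.mono (R := fun a b => φ a < φ b) ⟨p, h3, ⟨h4, h4'⟩, h5, h6, h7⟩
      subset_union_left fun a ha b hb h => hlt a ha b hb h⟩
  obtain ⟨r₀, l1, l2⟩ : ∃ r₀, (r₀ = 0 ∨ (σ 0 ∈ Y ∧ r₀ ≤ φ (σ 0))) ∧
      O2Arm G (Y ∪ (Finset.Ioo 0 n).image σ) (· ∈ Q1) (fun a b => ψ b < ψ a) (σ 0) r₀ := by
    rcases hlow with h | h
    · exact ⟨0, Or.inl rfl, O2Arm.zero h⟩
    · obtain ⟨r, -, h2, h3⟩ := hdown _ h
      exact ⟨r, Or.inr ⟨h, h2⟩, h3⟩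
  obtain ⟨r₁, u1, u2⟩ : ∃ r₁, (r₁ = 0 ∨ (σ n ∈ Y ∧ r₁ + φ (σ n) ≤ e)) ∧
      O2Arm G (Y ∪ (Finset.Ioo 0 n).image σ) (fun a => a ∈ Q ∧ a ∉ Q1) (fun a b => ψ a < ψ b)
        (σ n) r₁ := by
    rcases hhigh with h | h
    · exact ⟨0, Or.inl rfl, O2Arm.zero h⟩
    · obtain ⟨r, -, h2, h3⟩ := hup _ h
      exact ⟨r, Or.inr ⟨h, h2⟩, h3⟩
  have hL : ∀ s, s < n → O2Arm G (Y ∪ (Finset.Ioo 0 n).image σ) (· ∈ Q1) (fun a b => ψ b < ψ a)
      (σ s) (r₀ + s) := by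
    intro s
    induction s with
    | zero => exact fun _ => l2
    | succ s ih =>
      intro hs
      refine (ih (by omega)).cons (hσmem _ (by omega) hs) (hσ.1 s (by omega)).symm fun h => ?_
      rcases Nat.eq_zero_or_pos s with rfl | h4
      · rcases l1 with h5 | h5
        · omega
        · exact hlo h5.1
      · exact hstep s h4 hs
  have hU : ∀ t, t < n → O2Arm G (Y ∪ (Finset.Ioo 0 n).image σ) (fun a => a ∈ Q ∧ a ∉ Q1)
      (fun a b => ψ a < ψ b) (σ (n - t)) (r₁ + t) := by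
    intro t
    induction t with
    | zero => exact fun _ => u2
    | succ t ih =>
      intro ht
      have e1 : n - t = n - (t + 1) + 1 := by omega
      refine (ih (by omega)).cons (hσmem _ (by omega) (by omega))
        (by rw [e1]; exact hσ.1 _ (by omega)) fun h => ?_
      rcases Nat.eq_zero_or_pos t with rfl | h4
      · rcases u1 with h5 | h5
        · omega
        · exact hhi h5.1
      · rw [e1]; exact hstep _ (by omega) (by omega)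
  refine hR'.norm hno fun y hy => ?_
  rcases (hmem y).1 hy with h | ⟨s, h1, h2, rfl⟩
  · obtain ⟨r, h1, h2, h3⟩ := hdown y h
    obtain ⟨r', h4, h5, h6⟩ := hup y h
    obtain ⟨p, h7, h8⟩ := h3.chain h6 h1 h4
    exact ⟨p, r + r', r, h7, by omega, h1, by omega, h8⟩
  · have h3 := hU (n - s) (by omega)
    rw [show n - (n - s) = s by omega] at h3
    obtain ⟨p, h7, h8⟩ := (hL s h2).chain h3 (by omega) (by omega)
    refine ⟨p, _, r₀ + s, h7, ?_, by omega, by omega, h8⟩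
    rcases l1 with h4 | ⟨h4, h5⟩ <;> rcases u1 with h6 | ⟨h6, h9⟩
    · omega
    · have := hφ _ h6; omega
    · have := hφ _ h4; omega
    · have := hboth h4 h6; omega

theorem o2_ext_of_insert {Q1 Y : Finset V} {φ : V → ℕ} (hno : NoEar G Q (e + 1) (2 * e - 1))
    (hR : Rank G Q Q1 Y φ) (hφ : ∀ y ∈ Y, 1 ≤ φ y ∧ φ y + 1 ≤ e) (hY : Y ⊆ Zs G Q e \ Q)
    {σ : ℕ → V} {n : ℕ} (hσ : IsPath G σ n) (hn : 2 ≤ n) (hne : n ≤ e)
    (hnew : ∀ s, 0 < s → s < n → σ s ∉ Y ∧ σ s ∈ Zs G Q e \ Q)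
    (hlow : σ 0 ∈ Q1 ∨ σ 0 ∈ Y) (hhigh : (σ n ∈ Q ∧ σ n ∉ Q1) ∨ σ n ∈ Y)
    (hboth : σ 0 ∈ Y → σ n ∈ Y → φ (σ 0) ≤ φ (σ n) ∧ n + 1 ≤ e) :
    ∃ (Y' : Finset V) (φ' : V → ℕ), Y ⊂ Y' ∧ Y' ⊆ Zs G Q e \ Q ∧ Rank G Q Q1 Y' φ' ∧
      (∀ y ∈ Y', 1 ≤ φ' y ∧ φ' y + 1 ≤ e) ∧ ∀ s, 0 < s → s < n → σ s ∈ Y' := by
  obtain ⟨φ', h1, h2⟩ := rank_insert hno hR hφ hσ hn hne
    (fun s h1 h2 => ⟨(hnew s h1 h2).1, (mem_sdiff.1 (hnew s h1 h2).2).2⟩) hlow hhigh hboth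
  have hm : ∀ s, 0 < s → s < n → σ s ∈ Y ∪ (Finset.Ioo 0 n).image σ := fun s h1 h2 =>
    mem_union_right _ (mem_image_of_mem _ (mem_Ioo.2 ⟨h1, h2⟩))
  refine ⟨_, φ', ⟨subset_union_left, fun h => ?_⟩, union_subset hY fun y hy => ?_, h1, h2, hm⟩
  · exact (hnew 1 (by omega) (by omega)).1 (h (hm 1 (by omega) (by omega)))
  · obtain ⟨s, hs, rfl⟩ := mem_image.1 hy
    exact (hnew s (mem_Ioo.1 hs).1 (mem_Ioo.1 hs).2).2

theorem o2_ext_either {Q1 Y : Finset V} {φ : V → ℕ} (hno : NoEar G Q (e + 1) (2 * e - 1))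
    (hR : Rank G Q Q1 Y φ) (hφ : ∀ y ∈ Y, 1 ≤ φ y ∧ φ y + 1 ≤ e) (hY : Y ⊆ Zs G Q e \ Q)
    {σ : ℕ → V} {n : ℕ} (hσ : IsPath G σ n) (hn : 2 ≤ n) (hne : n ≤ e)
    (hnew : ∀ s, 0 < s → s < n → σ s ∉ Y ∧ σ s ∈ Zs G Q e \ Q)
    (h0 : σ 0 ∈ Y) (h1 : σ n ∈ Q ∨ (σ n ∈ Y ∧ n + 1 ≤ e)) :
    ∃ (Y' : Finset V) (φ' : V → ℕ), Y ⊂ Y' ∧ Y' ⊆ Zs G Q e \ Q ∧ Rank G Q Q1 Y' φ' ∧
      ∀ y ∈ Y', 1 ≤ φ' y ∧ φ' y + 1 ≤ e := by
  by_cases h : (σ n ∈ Q ∧ σ n ∉ Q1) ∨ (σ n ∈ Y ∧ φ (σ 0) ≤ φ (σ n))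
  · obtain ⟨Y', φ', h2, h3, h4, h5, -⟩ := o2_ext_of_insert hno hR hφ hY hσ hn hne hnew (Or.inr h0)
      (h.imp_right And.left) fun _ h6 => by
        have := hR.disj _ h6
        tauto
    exact ⟨Y', φ', h2, h3, h4, h5⟩
  · obtain ⟨Y', φ', h2, h3, h4, h5, -⟩ := o2_ext_of_insert hno hR hφ hY hσ.rev hn hne
      (fun s h1 h2 => hnew _ (by omega) (by omega))
      (by simp only [Nat.sub_zero]; tauto) (by simp only [Nat.sub_self]; exact Or.inr h0)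
      (by
        simp only [Nat.sub_zero, Nat.sub_self]
        intro h6 _
        have := hR.disj _ h6
        refine ⟨?_, by tauto⟩
        by_contra h7
        exact h (Or.inr ⟨h6, by omega⟩))
    exact ⟨Y', φ', h2, h3, h4, h5⟩

omit [Fintype V] [DecidableEq V] in
theorem IsEar.o2_rev {p : ℕ → V} {l : ℕ} (h : IsEar G Q p l) : IsEar G Q (fun i => p (l - i)) l :=
  ⟨h.1.rev, h.2.1, h.2.2.2.1, by simpa using h.2.2.1,
    fun i h1 h2 => h.2.2.2.2 _ (by omega) (by omega)⟩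

omit [Fintype V] [DecidableEq V] in
theorem o2_first {Y : Finset V} {p : ℕ → V} {l i : ℕ} (h : IsEar G Q p l) (hi : i < l) :
    ∃ j, i < j ∧ j ≤ l ∧ (p j ∈ Y ∨ p j ∈ Q) ∧ ∀ t, i < t → t < j → p t ∉ Y := by
  classical
  have hex : ∃ j, i < j ∧ (p j ∈ Y ∨ p j ∈ Q) := ⟨l, hi, Or.inr h.2.2.2.1⟩
  refine ⟨Nat.find hex, (Nat.find_spec hex).1, Nat.find_min' hex ⟨hi, Or.inr h.2.2.2.1⟩,
    (Nat.find_spec hex).2, fun t h1 h2 h3 => Nat.find_min hex h2 ⟨h1, Or.inl h3⟩⟩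

theorem o2_seg {Q1 Y : Finset V} {φ : V → ℕ} (hno : NoEar G Q (e + 1) (2 * e - 1))
    (hR : Rank G Q Q1 Y φ) (hφ : ∀ y ∈ Y, 1 ≤ φ y ∧ φ y + 1 ≤ e) (hY : Y ⊆ Zs G Q e \ Q)
    {p : ℕ → V} {l i j : ℕ} (hp : IsEar G Q p l) (hl : l ≤ e) (hi : 0 < i) (hij : i < j)
    (hj : j ≤ l) (h1 : p j ∈ Y ∨ p j ∈ Q) (h2 : ∀ t, i < t → t < j → p t ∉ Y) (hv : p i ∉ Y)
    {y₀ : V} (hy₀ : y₀ ∈ Y) (hadj : G.Adj y₀ (p i)) (hne : p j ≠ y₀) :
    ∃ (Y' : Finset V) (φ' : V → ℕ), Y ⊂ Y' ∧ Y' ⊆ Zs G Q e \ Q ∧ Rank G Q Q1 Y' φ' ∧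
      ∀ y ∈ Y', 1 ≤ φ' y ∧ φ' y + 1 ≤ e := by
  have h3 : ∀ t, i ≤ t → t < j → p t ∉ Y := fun t h3 h4 => by
    rcases Nat.eq_or_lt_of_le h3 with rfl | h5
    · exact hv
    · exact h2 t h5 h4
  have hq : IsPath G (fun t => p (i + t)) (j - i) := (hp.1.take hj).drop hij.le
  have hσ := hq.cons (x := y₀) hadj fun t ht h => by
    rcases Nat.eq_or_lt_of_le ht with rfl | h5
    · rw [show i + (j - i) = j by omega] at h
      exact hne h.symm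
    · exact h3 (i + t) (by omega) (by omega) (h ▸ hy₀)
  refine o2_ext_either hno hR hφ hY hσ (by omega) (by omega) (fun s h4 h5 => ?_) hy₀ ?_
  · beta_reduce
    rw [if_neg (by omega)]
    exact ⟨h3 _ (by omega) (by omega), mem_sdiff.2 ⟨mem_Zs.2 (Or.inr ⟨p, l, _, hp, hl, by omega, rfl⟩),
      hp.2.2.2.2 _ (by omega) (by omega)⟩⟩
  · beta_reduce
    rw [if_neg (by omega), show i + (j - i + 1 - 1) = j by omega]
    rcases Nat.eq_or_lt_of_le hj with rfl | h5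
    · exact Or.inl hp.2.2.2.1
    · exact h1.symm.imp_right fun h => ⟨h, by omega⟩

theorem o2_inner {v : V} (hv : v ∈ Zs G Q e \ Q) :
    ∃ p l i, IsEar G Q p l ∧ l ≤ e ∧ 0 < i ∧ i < l ∧ p i = v := by
  obtain ⟨h1, h2⟩ := mem_sdiff.1 hv
  rcases mem_Zs.1 h1 with h | ⟨p, l, i, h3, h4, h5, rfl⟩
  · exact (h2 h).elim
  · refine ⟨p, l, i, h3, h4, Nat.pos_of_ne_zero ?_, lt_of_le_of_ne h5 ?_, rfl⟩
    · rintro rfl; exact h2 h3.2.2.1
    · rintro rfl; exact h2 h3.2.2.2.1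

/-- **One extension step.**  `v ∈ Z \ Q`, `v ∉ Y`, adjacent to `y₀ ∈ Y`.  `v = p i` lies on an ear `p` of
length `l ≤ e`, `0 < i < l`.  Let `i₁ < i` be the largest and `i₂ > i` the smallest index with
`p · ∈ Y ∪ Q`; `p i₁ ≠ p i₂`, so one of them, `y₂`, differs from `y₀`.  The segment `y₀, v = p i, …, y₂`
has length `n ≤ e`, and `n + 1 ≤ e` if `y₂ ∈ Y` (then `y₂ ∉ Q` is an inner vertex of the ear).  Orient it
(`IsPath.rev`) so that the low end is in `Q1`, or the high end is in `Q \ Q1`, or both are in `Y` with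
`φ low ≤ φ high`, and apply `rank_insert`; the new vertices lie on the ear, so in `Z \ Q`. -/
theorem rank_ext {Q1 Y : Finset V} {φ : V → ℕ} (hno : NoEar G Q (e + 1) (2 * e - 1))
    (hR : Rank G Q Q1 Y φ) (hφ : ∀ y ∈ Y, 1 ≤ φ y ∧ φ y + 1 ≤ e) (hY : Y ⊆ Zs G Q e \ Q)
    {v y₀ : V} (hv : v ∈ Zs G Q e \ Q) (hvY : v ∉ Y) (hy₀ : y₀ ∈ Y) (hadj : G.Adj y₀ v) :
    ∃ (Y' : Finset V) (φ' : V → ℕ), Y ⊂ Y' ∧ Y' ⊆ Zs G Q e \ Q ∧ Rank G Q Q1 Y' φ' ∧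
      ∀ y ∈ Y', 1 ≤ φ' y ∧ φ' y + 1 ≤ e := by
  obtain ⟨p, l, i, hp, hl, hi, hil, rfl⟩ := o2_inner hv
  obtain ⟨j, j1, j2, j3, j4⟩ := o2_first (Y := Y) hp hil
  by_cases hne : p j ≠ y₀
  · exact o2_seg hno hR hφ hY hp hl hi j1 j2 j3 j4 hvY hy₀ hadj hne
  obtain ⟨k, k1, k2, k3, k4⟩ := o2_first (Y := Y) (i := l - i) hp.o2_rev (by omega)
  have e1 : l - (l - i) = i := by omega
  refine o2_seg hno hR hφ hY hp.o2_rev hl (by omega) k1 k2 k3 k4 (by simpa only [e1] using hvY) hy₀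
    (by simpa only [e1] using hadj) fun h => ?_
  have := hp.1.2 (l - k) j (by omega) j2 (h.trans (not_not.1 hne).symm)
  omega

/-- **Closed ranked set through `v₀`.**  Start: `v₀` lies on an ear `p` of length `l ≤ e`; `Q1 = {p 0}`
and `rank_insert` with `Y = ∅` (or directly `φ (p i) = i`).  Take a ranked `Y ∋ v₀` inside `Z \ Q` of maximal
cardinality; `rank_ext` shows that it is closed. -/
theorem exists_closed (hno : NoEar G Q (e + 1) (2 * e - 1)) {v₀ : V} (hv : v₀ ∈ Zs G Q e \ Q) :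
    ∃ (Q1 Y : Finset V) (φ : V → ℕ), v₀ ∈ Y ∧ Y ⊆ Zs G Q e \ Q ∧ Rank G Q Q1 Y φ ∧
      (∀ y ∈ Y, 1 ≤ φ y ∧ φ y + 1 ≤ e) ∧ ∀ y ∈ Y, ∀ x ∈ Zs G Q e \ Q, G.Adj y x → x ∈ Y := by
  obtain ⟨p, l, i, hp, hl, hi, hil, rfl⟩ := o2_inner hv
  have hR0 : Rank G Q {p 0} ∅ fun _ => 0 :=
    ⟨singleton_subset_iff.2 hp.2.2.1, by simp, by simp, by simp, by simp⟩
  obtain ⟨Y, φ, -, h2, h3, h4, h5⟩ := o2_ext_of_insert hno hR0 (by simp) (empty_subset _) hp.1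
    hp.2.1 hl
    (fun s h1 h2 => ⟨notMem_empty _, mem_sdiff.2
      ⟨mem_Zs.2 (Or.inr ⟨p, l, s, hp, hl, h2.le, rfl⟩), hp.2.2.2.2 s h1 h2⟩⟩)
    (Or.inl (mem_singleton_self _))
    (Or.inl ⟨hp.2.2.2.1, fun h => by
      have := hp.1.2 l 0 le_rfl (Nat.zero_le _) (mem_singleton.1 h)
      omega⟩)
    (fun h => absurd h (notMem_empty _))
  have h1 := h5 i hi hil
  clear h5
  refine ⟨{p 0}, ?_⟩
  induction hm : Fintype.card V - Y.card using Nat.strong_induction_on generalizing Y φ with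
  | _ m ih =>
    by_cases hc : ∀ y ∈ Y, ∀ x ∈ Zs G Q e \ Q, G.Adj y x → x ∈ Y
    · exact ⟨Y, φ, h1, h2, h3, h4, hc⟩
    · push Not at hc
      obtain ⟨y, hy, x, hx, hadj, hxY⟩ := hc
      obtain ⟨Y', φ', k1, k2, k3, k4⟩ := rank_ext hno h3 h4 h2 hx hxY hy hadj
      have := card_lt_card k1
      have := card_le_univ Y'
      exact ih _ (by omega) Y' φ' k2 k3 k4 (k1.1 h1) rfl

end Crest.Agent.R54
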