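import Crest.Agent.R54.Orient2

/-!
# Row 54: colouring of `Z \ Q` and short linkages
-/

namespace Crest.Agent.R54

open Finset

set_option linter.unusedSectionVars false

variable {V : Type*} [Fintype V] [DecidableEq V] {G : SimpleGraph V} {Q : Finset V} {e : ℕ}

/-- Strong induction on sets `W ⊆ Z \ Q` closed under adjacency inside `Z \ Q`: pick `v₀ ∈ W`, take `Y` from
`exists_closed`, colour `W ∩ Y` by `φ - 1` and `W \ Y` (closed again, smaller) by induction. -/
theorem z_col (hno : NoEar G Q (e + 1) (2 * e - 1)) : Col G (Zs G Q e \ Q) (e - 1) := by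
  suffices H : ∀ W : Finset V, W ⊆ Zs G Q e \ Q → Col G W (e - 1) from H _ Subset.rfl
  intro W
  induction W using Finset.strongInduction with
  | H W ih =>
    intro hW
    rcases W.eq_empty_or_nonempty with rfl | ⟨v₀, hv₀⟩
    · exact ⟨fun _ => 0, by simp, by simp⟩
    obtain ⟨Q1, Y, φ, hvY, -, hR, hφ, hcl⟩ := exists_closed hno (hW hv₀)
    obtain ⟨f, hf, hf'⟩ := ih (W \ Y)
      (Finset.ssubset_iff_subset_ne.2 ⟨sdiff_subset, fun h => by
        rw [← h] at hv₀
        exact (mem_sdiff.1 hv₀).2 hvY⟩) (sdiff_subset.trans hW)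
    refine ⟨fun x => if x ∈ Y then φ x - 1 else f x, fun x hx => ?_, fun x hx y hy hxy => ?_⟩
    · by_cases h : x ∈ Y
      · have := hφ x h
        simp only [if_pos h]
        omega
      · simp only [if_neg h]
        exact hf x (mem_sdiff.2 ⟨hx, h⟩)
    · by_cases h : x ∈ Y
      · have h' : y ∈ Y := hcl x h y (hW hy) hxy
        have h1 := hφ x h
        have h2 := hφ y h'
        have h3 := hR.proper x h y h' hxy
        simp only [if_pos h, if_pos h']
        omega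
      · have h' : y ∉ Y := fun h' => h (hcl y h' x (hW hx) hxy.symm)
        simp only [if_neg h, if_neg h']
        exact hf' x (mem_sdiff.2 ⟨hx, h⟩) y (mem_sdiff.2 ⟨hy, h'⟩) hxy

/-- the two arms of a short ear through `u ∈ Z \ Q`. -/
theorem z_arms {u : V} (hu : u ∈ Zs G Q e \ Q) :
    ∃ p r p' r', Route G Q (Zs G Q e) u p r ∧ Route G Q (Zs G Q e) u p' r' ∧ 1 ≤ r ∧ 1 ≤ r' ∧
      r + r' ≤ e ∧ ∀ i j, i ≤ r → j ≤ r' → p i = p' j → i = 0 ∧ j = 0 := by
  obtain ⟨huZ, huQ⟩ := mem_sdiff.1 hu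
  obtain ⟨p, l, i, hp, hl, hi, rfl⟩ := (mem_Zs.1 huZ).resolve_left huQ
  have hZ : ∀ j, j ≤ l → p j ∈ Zs G Q e := fun j hj => mem_Zs.2 (Or.inr ⟨p, l, j, hp, hl, hj, rfl⟩)
  obtain ⟨hpath, -, h0, hlQ, hin⟩ := hp
  have hi0 : 0 < i := Nat.pos_of_ne_zero fun h => huQ (h ▸ h0)
  have hil : i < l := lt_of_le_of_ne hi fun h => huQ (h ▸ hlQ)
  refine ⟨fun j => p (i - j), i, fun j => p (i + j), l - i,
    ⟨(hpath.take hi).rev, rfl, by simpa using h0, fun j hj => hin _ (by omega) (by omega),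
      fun j _ => hZ _ (by omega)⟩,
    ⟨hpath.drop hi, rfl, ?_, fun j hj => hin _ (by omega) (by omega),
      fun j _ => hZ _ (by omega)⟩, hi0, by omega, by omega, fun a b ha hb hab => ?_⟩
  · show p (i + (l - i)) ∈ Q
    rw [Nat.add_sub_cancel' hi]
    exact hlQ
  · have := hpath.2 (i - a) (i + b) (by omega) (by omega) hab
    omega

theorem Link.symm {A : Finset V} {u u' : V} {ρ : ℕ} (h : Link G Q A u u' ρ) :
    Link G Q A u' u ρ := by
  obtain ⟨p, r, p', r', h1, h2, h3, h4⟩ := h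
  exact ⟨p', r', p, r, h2, h1, by omega, fun i j hi hj => (h4 j i hj hi).symm⟩

theorem Link.mono {A : Finset V} {u u' : V} {ρ ρ' : ℕ} (h : Link G Q A u u' ρ) (hρ : ρ ≤ ρ') :
    Link G Q A u u' ρ' := by
  obtain ⟨p, r, p', r', h1, h2, h3, h4⟩ := h
  exact ⟨p, r, p', r', h1, h2, h3.trans hρ, h4⟩

theorem orient3_route0 {u : V} (hu : u ∈ Q) : Route G Q (Zs G Q e) u (fun _ => u) 0 :=
  ⟨isPath_zero _, rfl, hu, fun _ hi => absurd hi (Nat.not_lt_zero _), fun _ _ => subset_Zs Q e hu⟩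

theorem orient3_route1 {u x : V} (hu : u ∈ Zs G Q e \ Q) (hx : x ∈ Q) (h : G.Adj u x) :
    Route G Q (Zs G Q e) u (fun i => if i = 0 then u else x) 1 := by
  obtain ⟨huZ, huQ⟩ := mem_sdiff.1 hu
  refine ⟨(isPath_zero fun _ => x).cons h fun _ _ => h.ne, rfl, hx, fun i hi => ?_, fun i _ => ?_⟩
  · have : i = 0 := by omega
    simpa [this] using huQ
  · by_cases h0 : i = 0
    · simpa [h0] using huZ
    · simpa [h0] using subset_Zs Q e hx

/-- two routes with disjoint inner parts and distinct ends -/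
theorem orient3_link {A : Finset V} {u u' : V} {p q : ℕ → V} {r s : ℕ} (hp : Route G Q A u p r)
    (hq : Route G Q A u' q s) (hin : ∀ i j, i < r → j < s → p i ≠ q j) (hend : p r ≠ q s) :
    Link G Q A u u' (r + s) := by
  refine ⟨p, r, q, s, hp, hq, le_rfl, fun i j hi hj h => ?_⟩
  rcases hi.lt_or_eq with hi | rfl
  · rcases hj.lt_or_eq with hj | rfl
    · exact hin i j hi hj h
    · exact hp.2.2.2.1 i hi (h ▸ hq.2.2.1)
  · rcases hj.lt_or_eq with hj | rfl
    · exact hq.2.2.2.1 j hj (h ▸ hp.2.2.1)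
    · exact hend h

theorem orient3_chain {R : ℕ → ℕ → Prop} (htr : ∀ a b c, R a b → R b c → R a c) {r : ℕ}
    (h : ∀ i, i + 1 < r → R i (i + 1)) (i j : ℕ) (hij : i < j) (hj : j < r) : R i j := by
  induction j, hij using Nat.le_induction with
  | base => exact h i hj
  | succ j _ ih => exact htr _ _ _ (ih (by omega)) (h j hj)

theorem orient3_route {Y : Finset V} (hY : Y ⊆ Zs G Q e \ Q) {y : V} {p : ℕ → V} {r : ℕ}
    (h0 : p 0 = y) (hr : p r ∈ Q) (hadj : ∀ i, i < r → G.Adj (p i) (p (i + 1)))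
    (hin : ∀ i, i < r → p i ∈ Y) (hinj : ∀ i j, i < j → j < r → p i ≠ p j) :
    Route G Q (Zs G Q e) y p r := by
  have hQ : ∀ i, i < r → p i ∉ Q := fun i hi => (mem_sdiff.1 (hY (hin i hi))).2
  have key : ∀ i j, i < j → j ≤ r → p i ≠ p j := by
    intro i j hij hj h
    rcases hj.lt_or_eq with hj | rfl
    · exact hinj i j hij hj h
    · exact hQ i hij (h ▸ hr)
  refine ⟨⟨hadj, fun i j hi hj h => ?_⟩, h0, hr, hQ, fun i hi => ?_⟩
  · rcases lt_trichotomy i j with hij | hij | hij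
    · exact absurd h (key i j hij hj)
    · exact hij
    · exact absurd h.symm (key j i hij hi)
  · rcases hi.lt_or_eq with hi | rfl
    · exact (mem_sdiff.1 (hY (hin i hi))).1
    · exact subset_Zs Q e hr

theorem orient3_same {Q1 Y : Finset V} {φ : V → ℕ} (hY : Y ⊆ Zs G Q e \ Q) (hR : Rank G Q Q1 Y φ)
    (hφ : ∀ y ∈ Y, 1 ≤ φ y ∧ φ y + 1 ≤ e) {y y' : V} (hy : y ∈ Y) (hy' : y' ∈ Y) (hne : y ≠ y')
    (hle : φ y ≤ φ y') : Link G Q (Zs G Q e) y y' e := by
  obtain ⟨p, r, -, hr, hp0, hpr, hpa, hpY, hpd⟩ := hR.exists_down (fun y hy => (hφ y hy).1) hy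
  obtain ⟨q, s, -, hs, hq0, hqs, hqs', hqa, hqY, hqu⟩ := hR.exists_up (fun y hy => (hφ y hy).2) hy'
  have hd := orient3_chain (R := fun i j => φ (p j) < φ (p i)) (fun _ _ _ h1 h2 => h2.trans h1) hpd
  have hu := orient3_chain (R := fun i j => φ (q i) < φ (q j)) (fun _ _ _ h1 h2 => h1.trans h2) hqu
  refine (orient3_link
    (orient3_route hY hp0 (hR.sub hpr) hpa hpY fun i j hij hj h => ?_)
    (orient3_route hY hq0 hqs hqa hqY fun i j hij hj h => ?_)
    (fun i j hi hj h => ?_) (fun h => hqs' (h ▸ hpr))).mono (by omega)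
  · have := hd i j hij hj
    rw [h] at this
    exact lt_irrefl _ this
  · have := hu i j hij hj
    rw [h] at this
    exact lt_irrefl _ this
  · rcases Nat.eq_zero_or_pos i with rfl | hi0
    · rcases Nat.eq_zero_or_pos j with rfl | hj0
      · exact hne (by rw [← hp0, ← hq0, h])
      · have h1 := hu 0 j hj0 hj
        rw [hq0, ← h, hp0] at h1
        omega
    · have h1 := hd 0 i hi0 hi
      rw [hp0, h] at h1
      rcases Nat.eq_zero_or_pos j with rfl | hj0
      · rw [hq0] at h1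
        omega
      · have h2 := hu 0 j hj0 hj
        rw [hq0] at h2
        omega

theorem orient3_inner {Y : Finset V} (hcl : ∀ y ∈ Y, ∀ x ∈ Zs G Q e \ Q, G.Adj y x → x ∈ Y)
    {u : V} {p : ℕ → V} {r : ℕ} (hp : Route G Q (Zs G Q e) u p r) (i : ℕ) (hi : i < r) :
    p i ∈ Y ↔ u ∈ Y := by
  induction i with
  | zero => rw [hp.2.1]
  | succ i ih =>
    have hadj := hp.1.1 i (by omega)
    have m : ∀ j, j < r → p j ∈ Zs G Q e \ Q := fun j hj =>
      mem_sdiff.2 ⟨hp.2.2.2.2 j hj.le, hp.2.2.2.1 j hj⟩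
    rw [← ih (by omega)]
    exact ⟨fun h => hcl _ h _ (m i (by omega)) hadj.symm, fun h => hcl _ h _ (m _ hi) hadj⟩

/-- both ends in `Q`: trivial routes. -/
theorem link_QQ {u u' : V} (hu : u ∈ Q) (hu' : u' ∈ Q) (h : u ≠ u') :
    Link G Q (Zs G Q e) u u' 0 :=
  ⟨_, 0, _, 0, orient3_route0 hu, orient3_route0 hu', le_rfl, fun _ _ _ _ => h⟩

/-- one end in `Q`: the arm of `u'` (`z_arms`) that does not end in `u`. -/
theorem link_QD {u u' : V} (hu : u ∈ Q) (hu' : u' ∈ Zs G Q e \ Q) :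
    Link G Q (Zs G Q e) u u' (e - 1) := by
  obtain ⟨p, r, p', r', h1, h2, hr, hr', hs, hd⟩ := z_arms hu'
  by_cases h : u = p r
  · have h' : u ≠ p' r' := fun h' => by
      have := hd r r' le_rfl le_rfl (h.symm.trans h')
      omega
    exact (orient3_link (orient3_route0 hu) h2 (fun i _ hi => absurd hi (Nat.not_lt_zero _))
      h').mono (by omega)
  · exact (orient3_link (orient3_route0 hu) h1 (fun i _ hi => absurd hi (Nat.not_lt_zero _))
      h).mono (by omega)

/-- both ends outside `Q`.  Take `Y ∋ u` from `exists_closed`.  If `u' ∈ Y`, say `φ u ≤ φ u'` (else swap,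
`Link.symm`): the down route of `u` and the up route of `u'` are disjoint, total length `≤ e`.  If `u' ∉ Y`
the arms of `u` (`z_arms`) have their inner vertices in `Y`, those of `u'` outside `Y` (closedness, induction
along the arm).  With ends `x₁ ≠ x₂` (arms of `u`), `y₁ ≠ y₂` (arms of `u'`), one of the pairings
`{(1,1),(2,2)}`, `{(1,2),(2,1)}` has distinct ends in both pairs; the two totals add up to `≤ 2e`. -/
theorem link_DD (hno : NoEar G Q (e + 1) (2 * e - 1)) {u u' : V} (hu : u ∈ Zs G Q e \ Q)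
    (hu' : u' ∈ Zs G Q e \ Q) (h : u ≠ u') : Link G Q (Zs G Q e) u u' e := by
  obtain ⟨Q1, Y, φ, huY, hY, hR, hφ, hcl⟩ := exists_closed hno hu
  by_cases hu'Y : u' ∈ Y
  · rcases le_total (φ u) (φ u') with hle | hle
    · exact orient3_same hY hR hφ huY hu'Y h hle
    · exact (orient3_same hY hR hφ hu'Y huY h.symm hle).symm
  obtain ⟨p1, r1, p2, r2, a1, a2, hr1, hr2, hr, hd⟩ := z_arms hu
  obtain ⟨q1, s1, q2, s2, b1, b2, hs1, hs2, hs, hd'⟩ := z_arms hu'
  have key : ∀ {p q : ℕ → V} {r s : ℕ}, Route G Q (Zs G Q e) u p r →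
      Route G Q (Zs G Q e) u' q s → p r ≠ q s → Link G Q (Zs G Q e) u u' (r + s) := by
    intro p q r s hp hq hend
    refine orient3_link hp hq (fun i j hi hj hij => hu'Y ?_) hend
    rw [← orient3_inner hcl hq j hj, ← hij, orient3_inner hcl hp i hi]
    exact huY
  have hx : p1 r1 ≠ p2 r2 := fun h => by
    have := hd r1 r2 le_rfl le_rfl h
    omega
  have hy : q1 s1 ≠ q2 s2 := fun h => by
    have := hd' s1 s2 le_rfl le_rfl h
    omega
  by_cases hc : p1 r1 ≠ q1 s1 ∧ p2 r2 ≠ q2 s2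
  · by_cases hle : r1 + s1 ≤ e
    · exact (key a1 b1 hc.1).mono hle
    · exact (key a2 b2 hc.2).mono (by omega)
  · have hc' : p1 r1 ≠ q2 s2 ∧ p2 r2 ≠ q1 s1 := by
      by_cases c1 : p1 r1 = q1 s1
      · exact ⟨fun h => hy (c1.symm.trans h), fun h => hx (c1.trans h.symm)⟩
      · have c2 : p2 r2 = q2 s2 := by
          by_contra c2
          exact hc ⟨c1, c2⟩
        exact ⟨fun h => hx (h.trans c2.symm), fun h => hy (h.symm.trans c2)⟩
    by_cases hle : r1 + s2 ≤ e
    · exact (key a1 b2 hc'.1).mono hle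
    · exact (key a2 b1 hc'.2).mono (by omega)

/-- direct edges to distinct vertices of `Q`. -/
theorem link_direct {u u' x x' : V} (hu : u ∈ Zs G Q e \ Q) (hu' : u' ∈ Zs G Q e \ Q) (h : u ≠ u')
    (hx : x ∈ Q) (hx' : x' ∈ Q) (hxx : x ≠ x') (h1 : G.Adj u x) (h2 : G.Adj u' x') :
    Link G Q (Zs G Q e) u u' 2 := by
  refine orient3_link (orient3_route1 hu hx h1) (orient3_route1 hu' hx' h2)
    (fun i j hi hj => ?_) (by simpa using hxx)
  have hi0 : i = 0 := by omega
  have hj0 : j = 0 := by omega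
  simpa [hi0, hj0] using h

theorem link_direct1 {u u' x' : V} (hu : u ∈ Q) (hu' : u' ∈ Zs G Q e \ Q)
    (hx' : x' ∈ Q) (hxx : u ≠ x') (h2 : G.Adj u' x') : Link G Q (Zs G Q e) u u' 1 :=
  orient3_link (orient3_route0 hu) (orient3_route1 hu' hx' h2)
    (fun i _ hi => absurd hi (Nat.not_lt_zero _)) (by simpa using hxx)

end Crest.Agent.R54
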