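import Crest.Agent.R54.Basic

/-!
# Row 54: cliques and wheels are panconnected; panconnected cores forbid a window of ears
-/

namespace Crest.Agent.R54

open Finset

set_option linter.unusedSectionVars false

variable {V : Type*} [DecidableEq V] {G : SimpleGraph V}

theorem Clq.pan {Q : Finset V} (h : Clq G Q) : Pan G Q 1 := by
  intro x hx y hy hxy l h1 hl
  exact h.exists_path hx hy hxy h1 hl

/-- **Wheels.**  `Q = insert u (image v (range L))` for a cycle `v` of length `L` in `N(u)`, `|Q| = L + 1`.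
For `u` and a rim vertex `y = v a`: `u, v (a - (l-1)), …, v a`.  For rim vertices `x = v 0`, `y = v d`
(`0 < d < L`, after `ZCyc.shift`) and `2 ≤ l ≤ L` write `l - 2 = i + j` with `i ≤ d - 1`, `j ≤ L - d - 1` and
use `v 0, …, v i, u, v (d + j), …, v d`. -/
theorem pan_wheel {S : Finset V} {u : V} {L : ℕ} (hC : CycIn G S L) (hu : ∀ x ∈ S, G.Adj u x) :
    ∃ Q : Finset V, Q.card = L + 1 ∧ Pan G Q 2 := by
  obtain ⟨v, hv, hS⟩ := hC.zcyc
  have hadj : ∀ i, G.Adj u (v i) := fun i => hu _ (hS i)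
  have hL := hv.three
  set Q : Finset V := insert u ((range L).image fun i : ℕ => v i) with hQ
  have hvQ : ∀ i, v i ∈ Q := by
    intro i
    obtain ⟨j, h1, h2, h3⟩ := hv.exists_window 0 i
    refine mem_insert_of_mem (mem_image.2 ⟨j.toNat, mem_range.2 (by omega), ?_⟩)
    rw [Int.toNat_of_nonneg h1, h3]
  have huQ : u ∈ Q := mem_insert_self _ _
  have hcard : Q.card = L + 1 := by
    rw [hQ, card_insert_of_notMem, card_image_of_injOn, card_range]
    · intro i hi j hj e
      have hi := mem_range.1 (mem_coe.1 hi)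
      have hj := mem_range.1 (mem_coe.1 hj)
      have := hv.eq_of_abs_lt e (by omega) (by omega)
      omega
    · intro h
      obtain ⟨i, -, hi⟩ := mem_image.1 h
      exact (hadj i).ne hi.symm
  have hub : ∀ (a : ℤ) (l : ℕ), 1 ≤ l → l ≤ L →
      ∃ p, IsPath G p l ∧ p 0 = u ∧ p l = v a ∧ ∀ i, i ≤ l → p i ∈ Q := by
    intro a l h1 h2
    obtain ⟨m, rfl⟩ : ∃ m, l = m + 1 := ⟨l - 1, by omega⟩
    refine ⟨_, (hv.isPath (a - m) (n := m) h2).cons (hadj _) fun j _ => (hadj _).ne, ?_, ?_, ?_⟩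
    · simp
    · simp
    · intro i _
      split_ifs
      · exact huQ
      · exact hvQ _
  have hmem : ∀ x ∈ Q, x = u ∨ ∃ a : ℤ, v a = x := by
    intro x hx
    rcases mem_insert.1 hx with h | h
    · exact Or.inl h
    · obtain ⟨i, -, hi⟩ := mem_image.1 h
      exact Or.inr ⟨i, hi⟩
  refine ⟨Q, hcard, fun x hx y hy hxy l h1 hl => ?_⟩
  rw [hcard] at hl
  rcases hmem x hx with rfl | ⟨a, rfl⟩
  · rcases hmem y hy with rfl | ⟨b, rfl⟩
    · exact absurd rfl hxy
    · exact hub b l (by omega) (by omega)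
  · rcases hmem y hy with rfl | ⟨b, rfl⟩
    · obtain ⟨p, hp, h0, hl', hq⟩ := hub a l (by omega) (by omega)
      exact ⟨_, hp.rev, by simpa using hl', by simpa using h0, fun i _ => hq _ (Nat.sub_le _ _)⟩
    · obtain ⟨c, hc1, hc2, hc3⟩ := hv.exists_window a b
      have hne : c ≠ a := fun e => hxy (by rw [← hc3, e])
      obtain ⟨d, rfl⟩ : ∃ d : ℕ, c = a + d := ⟨(c - a).toNat, by omega⟩
      have hd1 : 0 < d := by omega
      have hd2 : d < L := by omega
      obtain ⟨i, j, hi, hj, rfl⟩ : ∃ i j : ℕ, i + 1 ≤ d ∧ d + j + 1 ≤ L ∧ l = i + (j + 1) + 1 :=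
        ⟨min (l - 2) (d - 1), l - 2 - min (l - 2) (d - 1), by omega, by omega, by omega⟩
      have p1 := hv.isPath a (n := i) (by omega)
      have p2 := ((hv.isPath (a + d) (n := j) (by omega)).rev).cons (hadj _)
        fun j _ => (hadj _).ne
      refine ⟨_, p1.append_edge p2 (by simpa using (hadj _).symm) fun s t hs ht => ?_, ?_, ?_, ?_⟩
      · split_ifs with h
        · exact (hadj _).ne'
        · intro e
          have := hv.eq_of_abs_lt e (by omega) (by omega)
          omega
      · simp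
      · rw [if_neg (by omega), if_neg (by omega), ← hc3]
        congr 1
        omega
      · intro s _
        split_ifs
        · exact hvQ _
        · exact huQ
        · exact hvQ _

/-- an ear of length `l ∈ [k + 2 - |Q|, k + 1 - l0]` and a path of length `k + 1 - l` inside `Q` between
its ends form a `C_{k+1}` (`hasCyc_of_two_paths`). -/
theorem Pan.noEar {Q : Finset V} {l0 k : ℕ} (h : Pan G Q l0) (hl0 : 1 ≤ l0) (hl0k : l0 ≤ k)
    (hq : Q.card ≤ k) (hno : ¬ HasCyc G (k + 1)) :
    NoEar G Q (k + 2 - Q.card) (k + 1 - l0) := by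
  rintro p l ⟨hp, h2, h0, hl, hin⟩ hlo hhi
  have hne : p 0 ≠ p l := fun e => by
    have := hp.2 0 l (Nat.zero_le _) le_rfl e
    omega
  obtain ⟨q, hq', hq0, hql, hqQ⟩ := h _ h0 _ hl hne (k + 1 - l) (by omega) (by omega)
  have := hasCyc_of_two_paths hq' hp hq0 hql (by omega) (by omega) (by omega)
    fun i j hi hj hj' e => hin j hj hj' (e ▸ hqQ i hi)
  rw [show k + 1 - l + l = k + 1 by omega] at this
  exact hno this

theorem NoEar.mono {Q : Finset V} {lo hi lo' hi' : ℕ} (h : NoEar G Q lo hi) (h1 : lo ≤ lo')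
    (h2 : hi' ≤ hi) : NoEar G Q lo' hi' := by
  intro p l hp h3 h4
  exact h p l hp (by omega) (by omega)

end Crest.Agent.R54
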