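import Crest.Agent.R54.Orient3
import Crest.Agent.R54.Fin

/-!
# Row 54: counting in `Z`

Notation: `Z = Zs G Q e`, `Z₀ = Z0 G Q e`, `F = Z \ Z₀` (all neighbours inside `Z`),
`FD = (Z \ Z₀) \ Q`, `U = Z₀ \ Q`, `q + e = k + 1`.  `|Z| = |Q| + |FD| + |U|`.
-/

namespace Crest.Agent.R54

open Finset

variable {V : Type*} [Fintype V] [DecidableEq V] {G : SimpleGraph V} {Q : Finset V} {e k : ℕ}

theorem z_card : (Zs G Q e).card =
    Q.card + ((Zs G Q e \ Z0 G Q e) \ Q).card + (Z0 G Q e \ Q).card := by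
  have hQ : Q ⊆ Zs G Q e := fun x hx => mem_Zs.2 (Or.inl hx)
  have h0 : Z0 G Q e ⊆ Zs G Q e := fun x hx => (mem_Z0.1 hx).1
  have h1 : Zs G Q e = Q ∪ (((Zs G Q e \ Z0 G Q e) \ Q) ∪ (Z0 G Q e \ Q)) := by
    ext x
    simp only [mem_union, mem_sdiff]
    constructor
    · intro hx
      by_cases h : x ∈ Q
      · exact Or.inl h
      · by_cases h' : x ∈ Z0 G Q e
        · exact Or.inr (Or.inr ⟨h', h⟩)
        · exact Or.inr (Or.inl ⟨⟨hx, h'⟩, h⟩)
    · rintro (h | ⟨⟨h, _⟩, _⟩ | ⟨h, _⟩)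
      · exact hQ h
      · exact h
      · exact h0 h
  have d1 : Disjoint ((Zs G Q e \ Z0 G Q e) \ Q) (Z0 G Q e \ Q) := by
    rw [Finset.disjoint_left]
    intro x hx hx'
    simp only [mem_sdiff] at hx hx'
    exact hx.1.2 hx'.1
  have d2 : Disjoint Q (((Zs G Q e \ Z0 G Q e) \ Q) ∪ (Z0 G Q e \ Q)) := by
    rw [Finset.disjoint_left]
    intro x hx hx'
    simp only [mem_union, mem_sdiff] at hx'
    rcases hx' with h | h
    · exact h.2 hx
    · exact h.2 hx
  conv_lhs => rw [h1]
  rw [card_union_of_disjoint d2, card_union_of_disjoint d1, add_assoc]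

private theorem f_nb_mem {y w : V} (hy : y ∈ Zs G Q e \ Z0 G Q e) (h : G.Adj y w) :
    w ∈ Zs G Q e := by
  by_contra hw
  rw [mem_sdiff] at hy
  exact hy.2 (mem_Z0.2 ⟨hy.1, w, hw, h⟩)

/-- vertices of `F` have all their neighbours in `Z`, hence at least `k` of them. -/
theorem f_deg (H : Hyp G k) {y : V} (hy : y ∈ Zs G Q e \ Z0 G Q e) :
    k ≤ (nb G (Zs G Q e) y).card := by
  have hind : Indep G {y} := by
    intro a ha b hb
    rw [mem_singleton] at ha hb
    subst ha; subst hb
    exact G.irrefl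
  have h1 := H.expand {y} hind (singleton_nonempty y)
  have h2 : cnb G {y} ⊆ insert y (nb G (Zs G Q e) y) := by
    intro x hx
    rw [mem_cnb] at hx
    rcases hx with hx | ⟨z, hz, hzx⟩
    · rw [mem_singleton] at hx
      subst hx
      exact mem_insert_self _ _
    · rw [mem_singleton] at hz
      subst hz
      exact mem_insert_of_mem (mem_nb.2 ⟨f_nb_mem hy hzx, hzx⟩)
  have h3 := card_le_card h2
  have h4 := card_insert_le y (nb G (Zs G Q e) y)
  rw [card_singleton] at h1
  omega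

/-- for `y ∈ F` and `y ∈ S ⊆ Z`: `y` misses at most `g = |Z| - k - 1` vertices of `S`; and for any
`T ⊆ Z` not containing `y` it has at least `|T| - g` neighbours in `T`. -/
theorem f_miss (H : Hyp G k) {g : ℕ} (hg : (Zs G Q e).card = k + 1 + g) {y : V}
    (hy : y ∈ Zs G Q e \ Z0 G Q e) {T : Finset V} (hT : T ⊆ Zs G Q e) :
    T.card ≤ (nb G T y).card + g + (if y ∈ T then 1 else 0) := by
  have h1 := f_deg H hy
  have hyZ : y ∈ Zs G Q e := (mem_sdiff.1 hy).1
  -- non-neighbours of `y` in `Z` other than `y`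
  set Z := Zs G Q e with hZ
  have hsub : nb G Z y ⊆ Z.erase y := by
    intro x hx
    rw [mem_nb] at hx
    exact mem_erase.2 ⟨fun h => G.irrefl (h ▸ hx.2), hx.1⟩
  have h2 : ((Z.erase y) \ nb G Z y).card ≤ g := by
    rw [card_sdiff_of_subset hsub, card_erase_of_mem hyZ]
    omega
  have h3 : T.erase y ⊆ nb G T y ∪ ((Z.erase y) \ nb G Z y) := by
    intro x hx
    rw [mem_erase] at hx
    by_cases h : G.Adj y x
    · exact mem_union_left _ (mem_nb.2 ⟨hx.2, h⟩)
    · refine mem_union_right _ (mem_sdiff.2 ⟨mem_erase.2 ⟨hx.1, hT hx.2⟩, ?_⟩)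
      rw [mem_nb]
      exact fun h' => h h'.2
  have h4 := (card_le_card h3).trans (card_union_le _ _)
  split_ifs with hyT
  · rw [card_erase_of_mem hyT] at h4
    omega
  · rw [erase_eq_of_notMem hyT] at h4
    omega

/-- expansion for an independent `I ⊆ F`: `N[I] ⊆ Z \ W` whenever `W ⊆ Z` is disjoint from and not
adjacent to `I`. -/
theorem f_expand (H : Hyp G k) {I W : Finset V} (hI : I ⊆ Zs G Q e \ Z0 G Q e) (hne : I.Nonempty)
    (hind : Indep G I) (hW : W ⊆ Zs G Q e) (hd : Disjoint I W)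
    (hadj : ∀ x ∈ I, ∀ w ∈ W, ¬ G.Adj x w) : k * I.card + 1 + W.card ≤ (Zs G Q e).card := by
  have h1 := H.expand I hind hne
  have h2 : cnb G I ⊆ Zs G Q e \ W := by
    intro x hx
    rw [mem_cnb] at hx
    rcases hx with hx | ⟨z, hz, hzx⟩
    · exact mem_sdiff.2 ⟨(mem_sdiff.1 (hI hx)).1, Finset.disjoint_left.1 hd hx⟩
    · exact mem_sdiff.2 ⟨f_nb_mem (hI hz) hzx, fun hw => hadj z hz x hw hzx⟩
  have h3 := card_le_card h2
  rw [card_sdiff_of_subset hW] at h3
  have h4 := card_le_card hW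
  omega

/-- **At most one vertex of `FD` per colour class**, hence `|FD| ≤ e - 1`.
Colour `Z \ Q` with `e - 1` colours (`z_col`); `m s`, `n s` = number of vertices of `FD`, `U` of colour `s`.
Let `m` be the largest `m s` (class `I`), suppose `m ≥ 2`.  `f_expand` (with `W = ∅`) and `|FD| ≤ (e-1) m` give
`q (m-1) + 1 ≤ |U|` (use `k = q + e - 1`), so `q + 1 ≤ |U|`.  With `hU I`: `q (m-1) + 1 + m ≤ q + 3`, so `m = 2` (as `q ≥ 2`),
`q + 1 ≤ |U| ≤ q + 1`.  Take a colour `s₀` with `n s₀ ≥ 1`.  If `m s₀ = 2`, `f_expand` with `W` = the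
`U`-vertices of colour `s₀` gives `2k + 2 ≤ q + 2(e-1) + |U|`; otherwise `|FD| ≤ 2(e-1) - 1` gives the same with
`I`.  Hence `|U| ≥ q + 2`, contradiction. -/
theorem fd_le (H : Hyp G k) (hqe : Q.card + e = k + 1) (he : 1 ≤ e) (hq : 2 ≤ Q.card)
    (hno : NoEar G Q (e + 1) (2 * e - 1))
    (hU : ∀ I, I ⊆ Zs G Q e \ Z0 G Q e → Indep G I → Q.card + 1 ≤ (Z0 G Q e \ Q).card →
      (Z0 G Q e \ Q).card + I.card ≤ Q.card + 3) :
    ((Zs G Q e \ Z0 G Q e) \ Q).card + 1 ≤ e := by
  obtain ⟨f, hf, hfa⟩ := z_col hno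
  obtain ⟨c, rfl⟩ : ∃ c, e = c + 1 := ⟨e - 1, by omega⟩
  simp only [Nat.add_sub_cancel] at hf
  have hZ := z_card (G := G) (Q := Q) (e := c + 1)
  set Z := Zs G Q (c + 1) with hZdef
  set FD := (Z \ Z0 G Q (c + 1)) \ Q with hFD
  set U := Z0 G Q (c + 1) \ Q with hUdef
  have hFDsub : ∀ x ∈ FD, x ∈ Z \ Q := by
    intro x hx
    simp only [hFD, mem_sdiff] at hx ⊢
    exact ⟨hx.1.1, hx.2⟩
  have hUsub : ∀ x ∈ U, x ∈ Z \ Q := by
    intro x hx
    simp only [hUdef, mem_sdiff] at hx ⊢
    exact ⟨(mem_Z0.1 hx.1).1, hx.2⟩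
  by_contra hcon
  have hbig : c + 1 ≤ FD.card := by omega
  have hsum : FD.card = ∑ s ∈ range c, (FD.filter fun x => f x = s).card :=
    card_eq_sum_card_fiberwise (fun x hx => mem_coe.2 (mem_range.2 (hf x (hFDsub x hx))))
  have hc : 0 < c := by
    rcases Nat.eq_zero_or_pos c with h | h
    · subst h
      simp at hsum
      rw [hsum] at hbig
      simp at hbig
    · exact h
  obtain ⟨s, -, hs⟩ := exists_max_image (range c) (fun s => (FD.filter fun x => f x = s).card)
    ⟨0, mem_range.2 hc⟩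
  -- every colour class of `FD` is an independent subset of `F`
  have hcls : ∀ t, (FD.filter fun x => f x = t) ⊆ Z \ Z0 G Q (c + 1) := by
    intro t x hx
    exact (mem_sdiff.1 (mem_filter.1 hx).1).1
  have hind : ∀ t, Indep G (FD.filter fun x => f x = t) := by
    intro t x hx y hy hxy
    rw [mem_filter] at hx hy
    exact hfa x (hFDsub x hx.1) y (hFDsub y hy.1) hxy (hx.2.trans hy.2.symm)
  set m := (FD.filter fun x => f x = s).card with hm
  have hle : FD.card ≤ c * m := by
    rw [hsum]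
    calc ∑ t ∈ range c, (FD.filter fun x => f x = t).card ≤ ∑ _t ∈ range c, m :=
          sum_le_sum fun t ht => hs t ht
      _ = c * m := by simp
  have hm2 : 2 ≤ m := by
    by_contra h
    have : m ≤ 1 := by omega
    have : c * m ≤ c * 1 := Nat.mul_le_mul_left _ this
    omega
  have hk : k = Q.card + c := by omega
  have hne : (FD.filter fun x => f x = s).Nonempty := card_pos.1 (by omega)
  have hex := f_expand H (W := ∅) (hcls s) hne (hind s) (empty_subset _) (disjoint_empty_right _)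
    (by simp)
  rw [card_empty, ← hm, ← hZdef, hZ, hk] at hex
  obtain ⟨m', hm'⟩ : ∃ m', m = m' + 2 := ⟨m - 2, by omega⟩
  have hU1 : Q.card * m' + Q.card + 1 ≤ U.card := by
    rw [hm'] at hex hle
    nlinarith
  have hU2 := hU _ (hcls s) (hind s) (by omega)
  rw [← hm] at hU2
  have hm0 : m' = 0 := by
    by_contra h
    have : 1 ≤ m' := by omega
    have : Q.card * 1 ≤ Q.card * m' := Nat.mul_le_mul_left _ this
    omega
  subst hm0
  have hm2' : m = 2 := by omega
  have hUc : U.card = Q.card + 1 := by omega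
  obtain ⟨u, hu⟩ : U.Nonempty := card_pos.1 (by omega)
  have hfu := hf u (hUsub u hu)
  by_cases h2 : (FD.filter fun x => f x = f u).card = 2
  · have hne' : (FD.filter fun x => f x = f u).Nonempty := card_pos.1 (by omega)
    have hex' := f_expand H (W := {u}) (hcls (f u)) hne' (hind (f u))
      (singleton_subset_iff.2 (mem_sdiff.1 (hUsub u hu)).1)
      (by
        rw [disjoint_singleton_right]
        intro h
        exact (mem_sdiff.1 (hcls _ h)).2 (mem_sdiff.1 hu).1)
      (by
        intro x hx w hw hxw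
        rw [mem_singleton] at hw
        subst hw
        rw [mem_filter] at hx
        exact hfa x (hFDsub x hx.1) w (hUsub w hu) hxw hx.2)
    rw [h2, card_singleton, ← hZdef, hZ, hk] at hex'
    rw [hm2'] at hle
    omega
  · have hlt : FD.card < c * 2 := by
      rw [hsum]
      calc ∑ t ∈ range c, (FD.filter fun x => f x = t).card < ∑ _t ∈ range c, 2 := by
            refine sum_lt_sum (fun t ht => hm2' ▸ hs t ht) ⟨f u, mem_range.2 hfu, ?_⟩
            have := hs (f u) (mem_range.2 hfu)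
            omega
        _ = c * 2 := by simp
    rw [hm2'] at hex
    omega

/-- `F` is a clique when `|Z| ≤ 2k` (`f_expand` for a non-adjacent pair). -/
theorem f_clq (H : Hyp G k) (hZ : (Zs G Q e).card ≤ 2 * k) : Clq G (Zs G Q e \ Z0 G Q e) := by
  intro x hx y hy hxy
  by_contra hadj
  have hind : Indep G {x, y} := by
    intro a ha b hb
    simp only [mem_insert, mem_singleton] at ha hb
    rcases ha with rfl | rfl <;> rcases hb with rfl | rfl
    · exact G.irrefl
    · exact hadj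
    · exact fun h => hadj h.symm
    · exact G.irrefl
  have hsub : ({x, y} : Finset V) ⊆ Zs G Q e \ Z0 G Q e := by
    intro a ha
    simp only [mem_insert, mem_singleton] at ha
    rcases ha with rfl | rfl
    · exact hx
    · exact hy
  have h := f_expand H (W := ∅) hsub (insert_nonempty _ _) hind (empty_subset _)
    (disjoint_empty_right _) (by simp)
  rw [card_pair hxy, card_empty] at h
  omega

end Crest.Agent.R54
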