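import Crest.Agent.R54.Stage3
import Crest.Agent.R54.Hang

/-!
# Row 54: no large core
-/

namespace Crest.Agent.R54

open Finset

variable {V : Type*} [Fintype V] [DecidableEq V] {G : SimpleGraph V} {Q : Finset V} {e hi k : ℕ}

/-- All pairs in `Z` are linked with `ρ = e` (`link_QQ`, `link_QD`, `link_DD`, `Link.symm`, `Link.mono`), so
`hang` with `ω = 2` gives `2 j + |I| ≤ k` (`j = |Z₀|`) for independent `I ⊆ F`.  As `k < 2q`, some `x ∈ Q` is in
`F`, so `2 j + 1 ≤ k` and `|Z| ≥ k + 1` (`f_deg`), `|Z| = k + 1 + g`.  `fd_le` (its hypothesis `hU` is vacuous: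
`2 |U| ≤ 2 j ≤ k < 2q`) with `z_card` gives `|Z| ≤ k + |U|`, so `g + 1 ≤ |U| ≤ j` and `F` is a clique (`f_clq`).  `f = |F| = k + 1 + g - j ≥
j + 2 + g`.  `sel` with `U := Z₀`, `d z = |nb G F z|`: a bad `T` contradicts `count` (`f i ≤ (g+i) min g i`
with `g + i ≤ j < f`, `f_miss`).  `S = F ∪ Z'` has `k + 1` elements; `fin` gives `C_{k+1}`. -/
theorem stageA (H : Hyp G k) (hqe : Q.card + e = k + 1) (he : 1 ≤ e) (hq : k + 1 ≤ 2 * Q.card)
    (hno : NoEar G Q (e + 1) hi) (h1 : 2 * e - 1 ≤ hi) (h2 : e + 5 ≤ hi)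
    (hK : ∀ K, Clq G K → K.card < k) : False := by
  have hno' : NoEar G Q (e + 1) (2 * e - 1) := fun p l hp a b => hno p l hp a (b.trans h1)
  have hk3 := H.three
  -- all pairs are linked
  have hlink : ∀ u ∈ Zs G Q e, ∀ u' ∈ Zs G Q e, u ≠ u' → Link G Q (Zs G Q e) u u' e := by
    intro u hu u' hu' hne
    by_cases a : u ∈ Q <;> by_cases b : u' ∈ Q
    · exact (link_QQ a b hne).mono (Nat.zero_le _)
    · exact (link_QD a (mem_sdiff.2 ⟨hu', b⟩)).mono (Nat.sub_le _ _)
    · exact (link_QD b (mem_sdiff.2 ⟨hu, a⟩)).symm.mono (Nat.sub_le _ _)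
    · exact link_DD hno' (mem_sdiff.2 ⟨hu, a⟩) (mem_sdiff.2 ⟨hu', b⟩) hne
  have hw : ∀ I, I ⊆ Zs G Q e \ Z0 G Q e → Indep G I → 2 * (Z0 G Q e).card + I.card ≤ k := by
    intro I hI hind
    have := hang H hno hK (fun _ => 2) (fun _ _ => Or.inr rfl)
      (fun u hu u' hu' hne => ⟨e, hlink u (Z0_subset Q e hu) u' (Z0_subset Q e hu') hne, by omega⟩)
      hI hind
    rw [Finset.sum_const, smul_eq_mul] at this
    omega
  have hw0 := hw ∅ (empty_subset _) (fun x hx => absurd hx (notMem_empty x))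
  rw [card_empty] at hw0
  -- a vertex of `Q` in `F`
  obtain ⟨x, hxQ, hx0⟩ : ∃ x ∈ Q, x ∉ Z0 G Q e := by
    by_contra hcon
    push Not at hcon
    have := card_le_card (show Q ⊆ Z0 G Q e from hcon)
    omega
  have hxF : x ∈ Zs G Q e \ Z0 G Q e := mem_sdiff.2 ⟨subset_Zs Q e hxQ, hx0⟩
  have hw1 := hw {x} (by simpa using hxF) (by
    intro a ha b hb
    rw [mem_singleton] at ha hb
    subst ha; subst hb
    exact G.loopless.irrefl _)
  rw [card_singleton] at hw1
  have hZge : k + 1 ≤ (Zs G Q e).card := by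
    have h := f_deg H hxF
    have hsub : insert x (nb G (Zs G Q e) x) ⊆ Zs G Q e := by
      intro y hy
      rcases mem_insert.1 hy with rfl | hy
      · exact (mem_sdiff.1 hxF).1
      · exact (mem_nb.1 hy).1
    have := card_le_card hsub
    rw [card_insert_of_notMem (fun hy => G.loopless.irrefl _ (mem_nb.1 hy).2)] at this
    omega
  obtain ⟨g, hg⟩ : ∃ g, (Zs G Q e).card = k + 1 + g := ⟨_, (Nat.add_sub_cancel' hZge).symm⟩
  have hUle : (Z0 G Q e \ Q).card ≤ (Z0 G Q e).card := card_le_card sdiff_subset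
  have hfd := fd_le H hqe he (by omega) hno' (fun I _ _ h => by omega)
  have hzc := z_card (G := G) (Q := Q) (e := e)
  have hclq : Clq G (Zs G Q e \ Z0 G Q e) := f_clq H (by omega)
  have hF : (Zs G Q e \ Z0 G Q e).card + (Z0 G Q e).card = (Zs G Q e).card :=
    card_sdiff_add_card_eq_card (Z0_subset Q e)
  obtain ⟨Z', hZ'U, hZ'c, hZ'⟩ := sel (U := Z0 G Q e)
    (fun z => (nb G (Zs G Q e \ Z0 G Q e) z).card) (g := g) (by omega) (by
      intro T hT i hi hTc
      by_contra hcon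
      push Not at hcon
      have hc := count G (F := Zs G Q e \ Z0 G Q e) (T := T) (i := i) (μ := min g i) (by
        intro y hy
        have h := f_miss H hg hy (hT.trans (Z0_subset Q e))
        rw [if_neg (fun hyT => (mem_sdiff.1 hy).2 (hT hyT))] at h
        omega) hcon
      have hTle := card_le_card hT
      have h3 : T.card * min g i ≤ T.card * i := Nat.mul_le_mul_left _ (min_le_right _ _)
      have h4 : T.card * i < (Zs G Q e \ Z0 G Q e).card * i :=
        Nat.mul_lt_mul_of_pos_right (by omega) (by omega)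
      omega)
  have hdisj : Disjoint (Zs G Q e \ Z0 G Q e) Z' :=
    disjoint_left.2 fun y hy hy' => (mem_sdiff.1 hy).2 (hZ'U hy')
  have hS : ((Zs G Q e \ Z0 G Q e) ∪ Z').card = k + 1 := by
    rw [card_union_of_disjoint hdisj]; omega
  have hSZ : (Zs G Q e \ Z0 G Q e) ∪ Z' ⊆ Zs G Q e :=
    union_subset sdiff_subset (hZ'U.trans (Z0_subset Q e))
  have hcyc := fin G (S := (Zs G Q e \ Z0 G Q e) ∪ Z') (F := Zs G Q e \ Z0 G Q e) (g := g)
    (by omega) subset_union_left hclq (by omega) (by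
      intro y hy
      have h := f_miss H hg hy hSZ
      rw [if_pos (mem_union_left _ hy)] at h
      omega) (by
      intro B hB hne
      have hBZ : B ⊆ Z' := by
        intro z hz
        have := mem_sdiff.1 (hB hz)
        rcases mem_union.1 this.1 with h | h
        · exact absurd h this.2
        · exact h
      obtain ⟨z, hz, hlt⟩ := hZ' B hBZ hne
      refine ⟨z, hz, hlt.trans_le (card_le_card ?_)⟩
      intro y hy
      rw [mem_nb] at hy ⊢
      exact ⟨mem_union_left _ hy.1, hy.2⟩)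
  rw [hS] at hcyc
  exact H.nocyc hcyc.hasCyc

end Crest.Agent.R54
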