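import Crest.Agent.R54.Stage3
import Crest.Agent.R54.Hang
import Crest.Agent.R54.Pan

/-!
# Row 54: no maximum clique of size 4 or 5 (when `k ≤ 2q - 1`)

Setting: `Q` a clique with `q = |Q| ∈ {4, 5}`, `q + 1 ≤ k ≤ 2q - 1`, `q + e = k + 1`, no clique larger than `q`;
`NoEar G Q (e+1) k` (`Clq.pan`, `Pan.noEar`), `2e - 1 ≤ k`.  `Q₀ = Z₀ ∩ Q`, `U = Z₀ \ Q`, `X = Q \ Z₀`,
`FD = (Z \ Z₀) \ Q`, bonus `β = q - 4`.
-/

namespace Crest.Agent.R54

open Finset

variable {V : Type*} [Fintype V] [DecidableEq V] {G : SimpleGraph V} {Q : Finset V} {e k : ℕ}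

/-- the standing assumptions. -/
structure BHyp (G : SimpleGraph V) (Q : Finset V) (e k : ℕ) : Prop where
  hyp : Hyp G k
  clq : Clq G Q
  q45 : Q.card = 4 ∨ Q.card = 5
  qe : Q.card + e = k + 1
  two : 2 ≤ e
  kq : k + 1 ≤ 2 * Q.card
  max : ∀ K, Clq G K → K.card ≤ Q.card

theorem BHyp.noEar (B : BHyp G Q e k) : NoEar G Q (e + 1) k := by
  have h1 := B.qe
  have h2 := B.two
  have h := B.clq.pan.noEar (k := k) le_rfl (by have := B.hyp.three; omega) (by omega) B.hyp.nocyc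
  exact h.mono (by omega) (by omega)

/-- `hang` with weight 2 on `Q₀ ∪ S` and weight 1 elsewhere. -/
theorem BHyp.hang_set (B : BHyp G Q e k) {S : Finset V} (hS : S ⊆ Z0 G Q e \ Q)
    (hQD : ∀ u ∈ Z0 G Q e ∩ Q, ∀ u' ∈ Z0 G Q e \ Q,
      ∃ ρ, Link G Q (Zs G Q e) u u' ρ ∧ ρ + 2 + (if u' ∈ S then 2 else 1) + 1 ≤ k)
    (hDD : ∀ u ∈ Z0 G Q e \ Q, ∀ u' ∈ Z0 G Q e \ Q, u ≠ u' →
      ∃ ρ, Link G Q (Zs G Q e) u u' ρ ∧
        ρ + (if u ∈ S then 2 else 1) + (if u' ∈ S then 2 else 1) + 1 ≤ k)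
    {I : Finset V} (hI : I ⊆ Zs G Q e \ Z0 G Q e) (hind : Indep G I) :
    2 * (Z0 G Q e ∩ Q).card + (Z0 G Q e \ Q).card + S.card + I.card ≤ k := by
  have h1 := B.qe
  have h2 := B.two
  have h3 := B.q45
  have h := hang B.hyp B.noEar (fun K hK => by have := B.max K hK; omega)
    (fun u => if u ∈ Q then 2 else if u ∈ S then 2 else 1)
    (fun u _ => by split_ifs <;> simp) (fun u hu u' hu' huu => by
      by_cases hq : u ∈ Q
      · by_cases hq' : u' ∈ Q
        · refine ⟨0, link_QQ hq hq' huu, ?_⟩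
          simp only [if_pos hq, if_pos hq']
          omega
        · obtain ⟨ρ, hl, hρ⟩ := hQD u (mem_inter.2 ⟨hu, hq⟩) u' (mem_sdiff.2 ⟨hu', hq'⟩)
          refine ⟨ρ, hl, ?_⟩
          simp only [if_pos hq, if_neg hq']
          exact hρ
      · by_cases hq' : u' ∈ Q
        · obtain ⟨ρ, hl, hρ⟩ := hQD u' (mem_inter.2 ⟨hu', hq'⟩) u (mem_sdiff.2 ⟨hu, hq⟩)
          refine ⟨ρ, hl.symm, ?_⟩
          simp only [if_pos hq', if_neg hq]
          omega
        · obtain ⟨ρ, hl, hρ⟩ := hDD u (mem_sdiff.2 ⟨hu, hq⟩) u' (mem_sdiff.2 ⟨hu', hq'⟩) huu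
          refine ⟨ρ, hl, ?_⟩
          simp only [if_neg hq, if_neg hq']
          exact hρ) hI hind
  have e1 : ∑ u ∈ Z0 G Q e ∩ Q, (if u ∈ Q then 2 else if u ∈ S then 2 else 1) =
      2 * (Z0 G Q e ∩ Q).card := by
    rw [Finset.sum_congr rfl (g := fun _ => 2) fun u hu => if_pos (mem_inter.1 hu).2]
    simp [mul_comm]
  have e2 : ∑ u ∈ Z0 G Q e \ Q, (if u ∈ Q then 2 else if u ∈ S then 2 else 1) =
      (Z0 G Q e \ Q).card + S.card := by
    rw [Finset.sum_congr rfl (g := fun u => 1 + if u ∈ S then 1 else 0) fun u hu => by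
      rw [if_neg (mem_sdiff.1 hu).2]; split_ifs <;> rfl]
    rw [Finset.sum_add_distrib, ← Finset.card_eq_sum_ones, Finset.sum_ite_mem,
      ← Finset.card_eq_sum_ones, Finset.inter_eq_right.2 hS]
  have e3 := Finset.sum_inter_add_sum_sdiff (Z0 G Q e) Q
    (fun u => if u ∈ Q then 2 else if u ∈ S then 2 else 1)
  omega

/-- `hang` with weight 2 on `Q₀`, weight 1 on `U`, except that for `q = 5` one vertex of `U` (if any) gets
weight 2.  Links: `link_QQ` (`0 + 5 ≤ k`), `link_QD` (`e - 1`), `link_DD` (`e`); `e + 3 ≤ k`, and `e + 4 ≤ k` for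
`q = 5`. -/
theorem BHyp.weight (B : BHyp G Q e k) {I : Finset V} (hI : I ⊆ Zs G Q e \ Z0 G Q e)
    (hind : Indep G I) :
    2 * (Z0 G Q e ∩ Q).card + (Z0 G Q e \ Q).card + I.card +
      (if (Z0 G Q e \ Q).Nonempty then Q.card - 4 else 0) ≤ k := by
  have h1 := B.qe
  have h2 := B.two
  have h3 := B.q45
  have h4 := B.kq
  have hno : NoEar G Q (e + 1) (2 * e - 1) := B.noEar.mono le_rfl (by omega)
  have hz : ∀ u ∈ Z0 G Q e \ Q, u ∈ Zs G Q e \ Q := fun u hu =>
    mem_sdiff.2 ⟨Z0_subset Q e (mem_sdiff.1 hu).1, (mem_sdiff.1 hu).2⟩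
  by_cases hc : (Z0 G Q e \ Q).Nonempty ∧ Q.card = 5
  · obtain ⟨⟨u₀, hu₀⟩, h5⟩ := hc
    have h := B.hang_set (S := {u₀}) (by simpa using hu₀)
      (fun u hu u' hu' => ⟨e - 1, link_QD (mem_inter.1 hu).2 (hz u' hu'), by split_ifs <;> omega⟩)
      (fun u hu u' hu' huu => ⟨e, link_DD hno (hz u hu) (hz u' hu') huu, by
        simp only [mem_singleton]
        split_ifs with a b
        · exact absurd (a.trans b.symm) huu
        all_goals omega⟩) hI hind
    rw [card_singleton] at h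
    split_ifs <;> omega
  · have h := B.hang_set (S := ∅) (empty_subset _)
      (fun u hu u' hu' => ⟨e - 1, link_QD (mem_inter.1 hu).2 (hz u' hu'), by
        simp only [Finset.notMem_empty, if_false]; omega⟩)
      (fun u hu u' hu' huu => ⟨e, link_DD hno (hz u hu) (hz u' hu') huu, by
        simp only [Finset.notMem_empty, if_false]; omega⟩) hI hind
    rw [card_empty] at h
    split_ifs with hne
    · have : Q.card ≠ 5 := fun h5 => hc ⟨hne, h5⟩
      omega
    · omega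

/-- **The special configuration** `|Q₀| = 1`, `|U| = e`, `q < e + 2`, and every vertex of `X = Q \ Z₀`
(`|X| = q - 1 ≥ 3`) is adjacent to every vertex of `U`.  Then `link_direct` (`ρ = 2`), `link_direct1` (`ρ = 1`).
`q = 4`, `e ≥ 3` (`k = e + 3 ≥ 6`): weight 2 on `Q₀` and on one vertex of `U`, 1 elsewhere, `I = {x}`:
`2 + (e + 1) + 1 ≤ k` is false.  `q = 5`, `e ≥ 4` (`k = e + 4 ≥ 8`): all weights 2: `2 + 2e + 1 ≤ k` is false. -/
theorem BHyp.special (B : BHyp G Q e k) (h1 : (Z0 G Q e ∩ Q).card = 1)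
    (hU : (Z0 G Q e \ Q).card = e) (he : Q.card < e + 2)
    (hX : ∀ x ∈ Q \ Z0 G Q e, ∀ u ∈ Z0 G Q e \ Q, G.Adj u x) : False := by
  have h0 := B.qe
  have h2 := B.two
  have h3 := B.q45
  have hz : ∀ u ∈ Z0 G Q e \ Q, u ∈ Zs G Q e \ Q := fun u hu =>
    mem_sdiff.2 ⟨Z0_subset Q e (mem_sdiff.1 hu).1, (mem_sdiff.1 hu).2⟩
  have hXc : 1 < (Q \ Z0 G Q e).card := by
    have := Finset.card_sdiff_add_card_inter Q (Z0 G Q e)
    rw [inter_comm] at this
    omega
  obtain ⟨x, hx, x', hx', hxx⟩ := Finset.one_lt_card.1 hXc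
  have hQD : ∀ u ∈ Z0 G Q e ∩ Q, ∀ u' ∈ Z0 G Q e \ Q, Link G Q (Zs G Q e) u u' 1 :=
    fun u hu u' hu' => link_direct1 (mem_inter.1 hu).2 (hz u' hu') (mem_sdiff.1 hx).1
      (fun h => (mem_sdiff.1 hx).2 (h ▸ (mem_inter.1 hu).1)) (hX x hx u' hu')
  have hDD : ∀ u ∈ Z0 G Q e \ Q, ∀ u' ∈ Z0 G Q e \ Q, u ≠ u' → Link G Q (Zs G Q e) u u' 2 :=
    fun u hu u' hu' huu => link_direct (hz u hu) (hz u' hu') huu (mem_sdiff.1 hx).1
      (mem_sdiff.1 hx').1 hxx (hX x hx u hu) (hX x' hx' u' hu')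
  have hI : ({x} : Finset V) ⊆ Zs G Q e \ Z0 G Q e := by
    rw [singleton_subset_iff]
    exact mem_sdiff.2 ⟨subset_Zs Q e (mem_sdiff.1 hx).1, (mem_sdiff.1 hx).2⟩
  have hind : Indep G {x} := by
    intro a ha b hb
    rw [mem_singleton] at ha hb
    rw [ha, hb]
    exact G.irrefl
  rcases h3 with h4 | h5
  · obtain ⟨u₀, hu₀⟩ : (Z0 G Q e \ Q).Nonempty := Finset.card_pos.1 (by omega)
    have h := B.hang_set (S := {u₀}) (by simpa using hu₀)
      (fun u hu u' hu' => ⟨1, hQD u hu u' hu', by split_ifs <;> omega⟩)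
      (fun u hu u' hu' huu => ⟨2, hDD u hu u' hu' huu, by
        simp only [mem_singleton]
        split_ifs with a b
        · exact absurd (a.trans b.symm) huu
        all_goals omega⟩) hI hind
    rw [card_singleton, card_singleton] at h
    omega
  · have h := B.hang_set (S := Z0 G Q e \ Q) subset_rfl
      (fun u hu u' hu' => ⟨1, hQD u hu u' hu', by split_ifs <;> omega⟩)
      (fun u hu u' hu' huu => ⟨2, hDD u hu u' hu' huu, by split_ifs <;> omega⟩) hI hind
    rw [card_singleton] at h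
    omega

omit [Fintype V] in
theorem stageB1_double (A B : Finset V) :
    ∑ y ∈ A, (nb G B y).card = ∑ z ∈ B, (nb G A z).card := by
  classical
  have h := Finset.sum_card_bipartiteAbove_eq_sum_card_bipartiteBelow (s := A) (t := B) G.Adj
  have e1 : ∀ y, nb G B y = B.bipartiteAbove G.Adj y := fun y => by
    ext; simp [Finset.bipartiteAbove]
  have e2 : ∀ z, nb G A z = A.bipartiteBelow G.Adj z := fun z => by
    ext; simp [Finset.bipartiteBelow, G.adj_comm]
  simp only [e1 , e2] at *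
  simpa only [e1, e2] using h

theorem stageB1_eq_two {α : Type*} {A : Finset α} {f : α → ℕ} (h4 : A.card = 4) :
    ((∀ x ∈ A, 2 ≤ f x) → ∑ x ∈ A, f x ≤ 8 → ∀ x ∈ A, f x = 2) ∧
    ((∀ x ∈ A, f x ≤ 2) → 8 ≤ ∑ x ∈ A, f x → ∀ x ∈ A, f x = 2) := by
  constructor
  · intro h hs x hx
    by_contra hne
    have := Finset.sum_lt_sum (s := A) (f := fun _ => 2) (g := f) h
      ⟨x, hx, lt_of_le_of_ne (h x hx) (Ne.symm hne)⟩
    simp only [sum_const, h4, smul_eq_mul] at this
    omega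
  · intro h hs x hx
    by_contra hne
    have := Finset.sum_lt_sum (s := A) (f := f) (g := fun _ => 2) h
      ⟨x, hx, lt_of_le_of_ne (h x hx) hne⟩
    simp only [sum_const, h4, smul_eq_mul] at this
    omega

/-- **The obstruction configuration**: `q = 4`, `Z \ Z₀ = Q`, `|U| = e + 2` (so `g = 2`), and `T ⊆ U` has
four vertices with at most two neighbours in `Q` each.  Every `y ∈ Q` has at least 2 neighbours in `T`
(`f_miss`), hence exactly 2 (double counting), so it is adjacent to all of `U \ T` (`f_miss` for `U`: it has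
`≥ e` neighbours in `U`, at most 2 in `T`, and `|U \ T| = e - 2`).  If `e ≥ 3` a vertex of `U \ T` extends `Q` to a
larger clique.  If `e = 2` (`k = 5`): every `u ∈ U` has two neighbours in `Q` (it is the middle of an ear of
length 2); take `u` with neighbours `a ≠ b`, `c ∈ Q \ {a, b}`, `u' ∈ T` adjacent to `c` (`u' ≠ u`), `d ≠ c` another
neighbour of `u'` in `Q`; `hasCyc6`: `b u a u' c x` if `d = a` (similarly `d = b`; `x` the fourth vertex of `Q`),
`a u b c u' d` otherwise. -/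
theorem BHyp.obstruction (B : BHyp G Q e k) (h4 : Q.card = 4) (hF : Zs G Q e \ Z0 G Q e = Q)
    (hU : (Z0 G Q e \ Q).card = e + 2) {T : Finset V} (hT : T ⊆ Z0 G Q e \ Q) (hT4 : T.card = 4)
    (hd : ∀ z ∈ T, (nb G Q z).card ≤ 2) : False := by
  have h0 := B.qe
  have h2 := B.two
  have hg : (Zs G Q e).card = k + 1 + 2 := by
    have h := z_card (G := G) (Q := Q) (e := e)
    rw [hF, sdiff_self, Finset.bot_eq_empty, card_empty] at h
    omega
  have hUZ : Z0 G Q e \ Q ⊆ Zs G Q e := fun u hu => Z0_subset Q e (mem_sdiff.1 hu).1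
  have hTQ : ∀ z ∈ T, z ∉ Q := fun z hz => (mem_sdiff.1 (hT hz)).2
  have hy2 : ∀ y ∈ Q, 2 ≤ (nb G T y).card := fun y hy => by
    have h := f_miss B.hyp hg (y := y) (by rw [hF]; exact hy) (hT.trans hUZ)
    rw [if_neg fun h => hTQ y h hy] at h
    omega
  have hdc := stageB1_double (G := G) Q T
  have hs1 : ∑ z ∈ T, (nb G Q z).card ≤ 8 := by
    have := Finset.sum_le_sum (s := T) (g := fun _ => 2) hd
    simp only [sum_const, hT4, smul_eq_mul] at this
    omega
  have hs2 : 8 ≤ ∑ y ∈ Q, (nb G T y).card := by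
    have := Finset.sum_le_sum (s := Q) (f := fun _ => 2) hy2
    simp only [sum_const, h4, smul_eq_mul] at this
    omega
  have hyT : ∀ y ∈ Q, (nb G T y).card = 2 := (stageB1_eq_two h4).1 hy2 (by omega)
  have hzQ : ∀ z ∈ T, (nb G Q z).card = 2 := (stageB1_eq_two hT4).2 hd (by omega)
  rcases Nat.lt_or_ge 2 e with he | he
  · have hc : ((Z0 G Q e \ Q) \ T).card + 2 = e := by
      have := Finset.card_sdiff_add_card_eq_card hT
      omega
    obtain ⟨w, hw⟩ : ((Z0 G Q e \ Q) \ T).Nonempty := Finset.card_pos.1 (by omega)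
    have hwQ : w ∉ Q := (mem_sdiff.1 (mem_sdiff.1 hw).1).2
    have hadj : ∀ y ∈ Q, G.Adj y w := fun y hy => by
      have h := f_miss B.hyp hg (y := y) (by rw [hF]; exact hy) hUZ
      rw [if_neg fun h => (mem_sdiff.1 h).2 hy] at h
      by_contra hn
      have hsub : nb G (Z0 G Q e \ Q) y ⊆ nb G T y ∪ ((Z0 G Q e \ Q) \ T).erase w := by
        intro z hz
        rw [mem_nb] at hz
        by_cases hzT : z ∈ T
        · exact mem_union_left _ (mem_nb.2 ⟨hzT, hz.2⟩)
        · refine mem_union_right _ (mem_erase.2 ⟨?_, mem_sdiff.2 ⟨hz.1, hzT⟩⟩)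
          rintro rfl
          exact hn hz.2
      have h1 := (card_le_card hsub).trans (card_union_le _ _)
      rw [card_erase_of_mem hw, hyT y hy] at h1
      omega
    have hK : Clq G (insert w Q) := by
      intro x hx y hy hxy
      rw [mem_insert] at hx hy
      rcases hx with rfl | hx
      · rcases hy with rfl | hy
        · exact absurd rfl hxy
        · exact (hadj y hy).symm
      · rcases hy with rfl | hy
        · exact hadj x hx
        · exact B.clq x hx y hy hxy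
    have := B.max _ hK
    rw [card_insert_of_notMem hwQ] at this
    omega
  · have hk : k + 1 = 6 := by omega
    apply B.hyp.nocyc
    rw [hk]
    obtain ⟨u, hu⟩ : T.Nonempty := Finset.card_pos.1 (by omega)
    obtain ⟨a, b, hab, hnb⟩ := Finset.card_eq_two.1 (hzQ u hu)
    have ha : a ∈ Q ∧ G.Adj u a := mem_nb.1 (by rw [hnb]; simp)
    have hb : b ∈ Q ∧ G.Adj u b := mem_nb.1 (by rw [hnb]; simp)
    have hc2 : (Q \ {a, b}).card = 2 := by
      have h := Finset.card_sdiff_add_card_eq_card (s := {a, b}) (t := Q)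
        (by intro z hz; simp only [mem_insert, mem_singleton] at hz; rcases hz with rfl | rfl
            exacts [ha.1, hb.1])
      rw [card_pair hab] at h
      omega
    obtain ⟨c, x, hcx, hcxe⟩ := Finset.card_eq_two.1 hc2
    have hc : c ∈ Q ∧ c ≠ a ∧ c ≠ b := by
      have : c ∈ Q \ {a, b} := by rw [hcxe]; simp
      simpa [not_or] using this
    have hx : x ∈ Q ∧ x ≠ a ∧ x ≠ b := by
      have : x ∈ Q \ {a, b} := by rw [hcxe]; simp
      simpa [not_or] using this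
    obtain ⟨u', hu'⟩ : (nb G T c).Nonempty := Finset.card_pos.1 (by rw [hyT c hc.1]; omega)
    rw [mem_nb] at hu'
    have huu : u ≠ u' := by
      rintro rfl
      have : c ∈ nb G Q u := mem_nb.2 ⟨hc.1, hu'.2.symm⟩
      rw [hnb] at this
      simp only [mem_insert, mem_singleton] at this
      rcases this with h | h
      exacts [hc.2.1 h, hc.2.2 h]
    obtain ⟨d, hd', hdc'⟩ : ∃ d ∈ nb G Q u', d ≠ c :=
      Finset.exists_mem_ne (by rw [hzQ u' hu'.1]; omega) c
    rw [mem_nb] at hd'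
    have n1 : ∀ y ∈ Q, u ≠ y := fun y hy h => hTQ u hu (h ▸ hy)
    have n2 : ∀ y ∈ Q, u' ≠ y := fun y hy h => hTQ u' hu'.1 (h ▸ hy)
    by_cases hda : d = a
    · subst hda
      exact hasCyc6 (a := b) (b := u) (c := d) (d := u') (e := c) (f := x) hb.2.symm ha.2
        hd'.2.symm hu'.2.symm (B.clq _ hc.1 _ hx.1 hcx) (B.clq _ hx.1 _ hb.1 hx.2.2)
        hab.symm (n2 _ hb.1).symm hc.2.2.symm huu (n1 _ hc.1) (n1 _ hx.1) hc.2.1.symm hx.2.1.symm
        (n2 _ hx.1)
    by_cases hdb : d = b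
    · subst hdb
      exact hasCyc6 (a := a) (b := u) (c := d) (d := u') (e := c) (f := x) ha.2.symm hb.2
        hd'.2.symm hu'.2.symm (B.clq _ hc.1 _ hx.1 hcx) (B.clq _ hx.1 _ ha.1 hx.2.1)
        hab (n2 _ ha.1).symm hc.2.1.symm huu (n1 _ hc.1) (n1 _ hx.1) hc.2.2.symm hx.2.2.symm
        (n2 _ hx.1)
    · exact hasCyc6 (a := a) (b := u) (c := b) (d := c) (e := u') (f := d) ha.2.symm hb.2
        (B.clq _ hb.1 _ hc.1 hc.2.2.symm) hu'.2 hd'.2 (B.clq _ hd'.1 _ ha.1 hda)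
        hab hc.2.1.symm (n2 _ ha.1).symm (n1 _ hc.1) huu (n1 _ hd'.1) (n2 _ hb.1).symm
        (Ne.symm hdb) hdc'.symm

end Crest.Agent.R54
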